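import Crest.Agent.R134.Defs

/-!
# Row 134, flow part: basic facts on `vec`, `lam`, `st`, `n1`, `E` (any discrete group)

All elementary: `coeff.sum` expressions, induction on `MonoidAlgebra` (finsupp induction, linear in
`p`), `dl g` an orthonormal basis of `ℓ²(G)`, `leftRegular g (dl h) = dl (g * h)`,
`leftRegular (g * h) = leftRegular g ∘ leftRegular h`, adjoint of `leftRegular g` is
`leftRegular g⁻¹`.
-/

set_option autoImplicit false
set_option linter.unusedSectionVars false
open Crest.OpAlg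
open scoped InnerProductSpace

namespace Crest.Agent.R134.Fl

variable {G : Type} [Group G] [DecidableEq G]

/-- induction for the group algebra -/
theorem ind {C : MonoidAlgebra ℂ G → Prop} (p : MonoidAlgebra ℂ G) (h0 : C 0)
    (hadd : ∀ p q, C p → C q → C (p + q)) (hs : ∀ (c : ℂ) (g : G), C (c • E g)) : C p := by
  refine MonoidAlgebra.induction_linear p h0 (fun p q hp hq => hadd p q hp hq) fun g c => ?_
  have : c • E g = MonoidAlgebra.single g c := by
    rw [E, MonoidAlgebra.smul_single, smul_eq_mul, mul_one]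
  rw [← this]
  exact hs c g

theorem vec_eq (p : MonoidAlgebra ℂ G) :
    vec p = Finsupp.linearCombination ℂ (dl : G → ltwo G) p.coeff := rfl

theorem lam_eq (p : MonoidAlgebra ℂ G) :
    lam p = Finsupp.linearCombination ℂ (leftRegular : G → (ltwo G →L[ℂ] ltwo G)) p.coeff := rfl

theorem vec_zero : vec (0 : MonoidAlgebra ℂ G) = 0 := by
  rw [vec_eq, MonoidAlgebra.coeff_zero, map_zero]

theorem vec_add (p q : MonoidAlgebra ℂ G) : vec (p + q) = vec p + vec q := by
  rw [vec_eq, vec_eq, vec_eq, MonoidAlgebra.coeff_add, map_add]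

theorem vec_smul (c : ℂ) (p : MonoidAlgebra ℂ G) : vec (c • p) = c • vec p := by
  rw [vec_eq, vec_eq, MonoidAlgebra.coeff_smul, map_smul]

theorem vec_sub (p q : MonoidAlgebra ℂ G) : vec (p - q) = vec p - vec q := by
  have : p - q = p + (-1 : ℂ) • q := by rw [neg_smul, one_smul, sub_eq_add_neg]
  rw [this, vec_add, vec_smul, neg_smul, one_smul, sub_eq_add_neg]

theorem vec_E (g : G) : vec (E g) = dl g := by
  rw [vec_eq, E, MonoidAlgebra.coeff_single, Finsupp.linearCombination_single, one_smul]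

theorem dl_apply (g h : G) : (dl g : G → ℂ) h = if h = g then 1 else 0 := by
  rw [dl, lp.single_apply, Pi.single_apply]

/-- coordinates of `vec p` -/
theorem vec_apply (p : MonoidAlgebra ℂ G) (g : G) : (vec p : G → ℂ) g = p.coeff g := by
  induction p using ind with
  | h0 =>
    rw [vec_zero]; rfl
  | hadd p q hp hq =>
    rw [vec_add, MonoidAlgebra.coeff_add, lp.coeFn_add, Pi.add_apply, hp, hq]; rfl
  | hs c h =>
    rw [vec_smul, vec_E, lp.coeFn_smul, Pi.smul_apply, dl_apply, MonoidAlgebra.coeff_smul,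
      Finsupp.smul_apply, E, MonoidAlgebra.coeff_single, Finsupp.single_apply]
    by_cases hgh : h = g
    · rw [if_pos hgh.symm, if_pos hgh]
    · rw [if_neg (Ne.symm hgh), if_neg hgh]

theorem vec_injective : Function.Injective (vec : MonoidAlgebra ℂ G → ltwo G) := by
  intro p q h
  have h1 : p.coeff = q.coeff := by
    ext g
    rw [← vec_apply, ← vec_apply, h]
  exact MonoidAlgebra.coeff_injective h1

theorem vec_dense : DenseRange (vec : MonoidAlgebra ℂ G → ltwo G) := by
  intro f
  have h := lp.hasSum_single (p := 2) ENNReal.ofNat_ne_top f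
  refine mem_closure_of_tendsto h (Filter.Eventually.of_forall fun s => ?_)
  refine ⟨∑ i ∈ s, (f i) • E i, ?_⟩
  have h2 : ∀ s : Finset G, vec (∑ i ∈ s, (f i) • E i) =
      ∑ i ∈ s, (lp.single 2 i (f i : ℂ) : ltwo G) := by
    intro s
    induction s using Finset.induction_on with
    | empty => rw [Finset.sum_empty, Finset.sum_empty, vec_zero]
    | insert a s ha ih =>
      rw [Finset.sum_insert ha, Finset.sum_insert ha, vec_add, ih, vec_smul, vec_E]
      congr 1
      rw [dl, ← lp.single_smul, smul_eq_mul, mul_one]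
  exact h2 s

theorem norm_dl (g : G) : ‖(dl g : ltwo G)‖ = 1 := by
  rw [dl, lp.norm_single (by norm_num), norm_one]

theorem norm_vec_le (p : MonoidAlgebra ℂ G) : ‖vec p‖ ≤ n1 p := by
  rw [vec, n1, Finsupp.sum, Finsupp.sum]
  refine (norm_sum_le _ _).trans (Finset.sum_le_sum fun g _ => ?_)
  rw [norm_smul, norm_dl, mul_one]

theorem lam_zero : lam (0 : MonoidAlgebra ℂ G) = 0 := by
  rw [lam_eq, MonoidAlgebra.coeff_zero, map_zero]

theorem lam_add (p q : MonoidAlgebra ℂ G) : lam (p + q) = lam p + lam q := by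
  rw [lam_eq, lam_eq, lam_eq, MonoidAlgebra.coeff_add, map_add]

theorem lam_smul (c : ℂ) (p : MonoidAlgebra ℂ G) : lam (c • p) = c • lam p := by
  rw [lam_eq, lam_eq, MonoidAlgebra.coeff_smul, map_smul]

theorem lam_E (g : G) : lam (E g) = leftRegular g := by
  rw [lam_eq, E, MonoidAlgebra.coeff_single, Finsupp.linearCombination_single, one_smul]

theorem lr_apply (g : G) (f : ltwo G) (h : G) : (leftRegular g f : G → ℂ) h = f (g⁻¹ * h) := rfl

theorem lr_dl (g h : G) : leftRegular g (dl h) = dl (g * h) := by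
  ext k
  rw [lr_apply, dl_apply, dl_apply]
  by_cases hk : k = g * h
  · rw [if_pos hk, if_pos (by rw [hk]; group)]
  · rw [if_neg hk, if_neg]
    intro h2
    exact hk (by rw [← h2]; group)

theorem lr_mul (g h : G) : leftRegular (g * h) = leftRegular g * leftRegular h := by
  ext f k
  show (leftRegular (g * h) f : G → ℂ) k = (leftRegular g (leftRegular h f) : G → ℂ) k
  rw [lr_apply, lr_apply, lr_apply, mul_inv_rev, mul_assoc]

theorem lr_one : leftRegular (1 : G) = 1 := by
  ext f k
  show (leftRegular (1 : G) f : G → ℂ) k = f k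
  rw [lr_apply, inv_one, one_mul]

theorem norm_lr_apply (g : G) (f : ltwo G) : ‖leftRegular g f‖ = ‖f‖ :=
  (ltwoReindex (Equiv.mulLeft g⁻¹) : ltwo G ≃ₗᵢ[ℂ] ltwo G).norm_map f

theorem norm_lr_le (g : G) : ‖leftRegular g‖ ≤ 1 :=
  ContinuousLinearMap.opNorm_le_bound _ zero_le_one fun f => by
    rw [norm_lr_apply, one_mul]

theorem lr_star (g : G) : star (leftRegular g) = leftRegular g⁻¹ := by
  have h : ∀ f f' : ltwo G, ⟪leftRegular g⁻¹ f, f'⟫_ℂ = ⟪f, leftRegular g f'⟫_ℂ := by
    intro f f'
    have h1 : ⟪leftRegular g (leftRegular g⁻¹ f), leftRegular g f'⟫_ℂ = ⟪leftRegular g⁻¹ f, f'⟫_ℂ :=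
      (ltwoReindex (Equiv.mulLeft g⁻¹) : ltwo G ≃ₗᵢ[ℂ] ltwo G).inner_map_map _ _
    rw [← h1]
    have h2 : leftRegular g (leftRegular g⁻¹ f) = f := by
      have h3 : leftRegular g * leftRegular g⁻¹ = (1 : ltwo G →L[ℂ] ltwo G) := by
        rw [← lr_mul, mul_inv_cancel, lr_one]
      exact congrArg (fun T : ltwo G →L[ℂ] ltwo G => T f) h3
    rw [h2]
  rw [ContinuousLinearMap.star_eq_adjoint]
  symm
  rw [ContinuousLinearMap.eq_adjoint_iff]
  exact h

theorem lam_vec (p q : MonoidAlgebra ℂ G) : lam p (vec q) = vec (p * q) := by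
  induction p using ind with
  | h0 =>
    rw [lam_zero, zero_mul, vec_zero]; rfl
  | hadd p p' hp hp' =>
    rw [lam_add, add_mul, vec_add, ← hp, ← hp']; rfl
  | hs c g =>
    rw [lam_smul, lam_E, smul_mul_assoc, vec_smul]
    show c • leftRegular g (vec q) = _
    congr 1
    induction q using ind with
    | h0 => rw [vec_zero, mul_zero, vec_zero, map_zero]
    | hadd q q' hq hq' => rw [vec_add, map_add, mul_add, vec_add, hq, hq']
    | hs d h => rw [vec_smul, vec_E, map_smul, lr_dl, mul_smul_comm, vec_smul, ← E_mul, vec_E]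

theorem lam_dl_one (p : MonoidAlgebra ℂ G) : lam p (dl 1) = vec p := by
  rw [← vec_E, lam_vec, E_one, mul_one]

theorem ext_vec {S T : ltwo G →L[ℂ] ltwo G} (h : ∀ q, S (vec q) = T (vec q)) : S = T := by
  have := vec_dense (G := G)
  refine ContinuousLinearMap.coeFn_injective ?_
  exact this.equalizer S.continuous T.continuous (funext h)

theorem lam_mul (p q : MonoidAlgebra ℂ G) : lam (p * q) = lam p * lam q := by
  refine ext_vec fun r => ?_
  show lam (p * q) (vec r) = lam p (lam q (vec r))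
  rw [lam_vec, lam_vec, lam_vec, mul_assoc]

theorem lam_one : lam (1 : MonoidAlgebra ℂ G) = 1 := by
  rw [← E_one, lam_E, lr_one]

theorem st_smul_E (c : ℂ) (g : G) : st (c • E g) = star c • E g⁻¹ := by
  have h1 : c • E g = MonoidAlgebra.single g c := by
    rw [E, MonoidAlgebra.smul_single, smul_eq_mul, mul_one]
  have h2 : star c • E g⁻¹ = MonoidAlgebra.single g⁻¹ (star c) := by
    rw [E, MonoidAlgebra.smul_single, smul_eq_mul, mul_one]
  rw [h1, h2, st, MonoidAlgebra.coeff_single, Finsupp.sum_single_index]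
  rw [star_zero, MonoidAlgebra.single_zero]

theorem st_zero : st (0 : MonoidAlgebra ℂ G) = 0 := by
  rw [st, MonoidAlgebra.coeff_zero, Finsupp.sum_zero_index]

theorem st_add (p q : MonoidAlgebra ℂ G) : st (p + q) = st p + st q := by
  rw [st, st, st, MonoidAlgebra.coeff_add]
  refine Finsupp.sum_add_index' (fun g => ?_) fun g c d => ?_
  · rw [star_zero, MonoidAlgebra.single_zero]
  · rw [star_add, MonoidAlgebra.single_add]

theorem st_smul (c : ℂ) (p : MonoidAlgebra ℂ G) : st (c • p) = star c • st p := by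
  induction p using ind with
  | h0 =>
    rw [smul_zero, st_zero, smul_zero]
  | hadd p q hp hq =>
    rw [smul_add, st_add, st_add, smul_add, hp, hq]
  | hs d g =>
    rw [smul_smul, st_smul_E, st_smul_E, smul_smul, star_mul, mul_comm]

theorem st_st (p : MonoidAlgebra ℂ G) : st (st p) = p := by
  induction p using ind with
  | h0 =>
    rw [st_zero, st_zero]
  | hadd p q hp hq =>
    rw [st_add, st_add, hp, hq]
  | hs d g =>
    rw [st_smul_E, st_smul_E, star_star, inv_inv]

theorem st_neg (p : MonoidAlgebra ℂ G) : st (-p) = -st p := by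
  have h : -p = (-1 : ℂ) • p := by rw [neg_smul, one_smul]
  rw [h, st_smul, star_neg, star_one, neg_smul, one_smul]

theorem st_E (g : G) : st (E g) = E g⁻¹ := by
  have := st_smul_E (1 : ℂ) g
  rwa [one_smul, star_one, one_smul] at this

theorem st_mul (p q : MonoidAlgebra ℂ G) : st (p * q) = st q * st p := by
  induction p using ind with
  | h0 =>
    rw [zero_mul, st_zero, mul_zero]
  | hadd p p' hp hp' =>
    rw [add_mul, st_add, st_add, mul_add, hp, hp']
  | hs c g =>
    induction q using ind with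
    | h0 => rw [mul_zero, st_zero, zero_mul]
    | hadd q q' hq hq' => rw [mul_add, st_add, st_add, add_mul, hq, hq']
    | hs d h =>
      rw [smul_mul_smul_comm, ← E_mul, st_smul_E, st_smul_E, st_smul_E, smul_mul_smul_comm,
        ← E_mul, mul_inv_rev, star_mul]

theorem lam_st (p : MonoidAlgebra ℂ G) : lam (st p) = star (lam p) := by
  induction p using ind with
  | h0 =>
    rw [st_zero, lam_zero, star_zero]
  | hadd p q hp hq =>
    rw [st_add, lam_add, lam_add, star_add, hp, hq]
  | hs c g =>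
    rw [st_smul_E, lam_smul, lam_smul, lam_E, lam_E, star_smul, lr_star]

theorem lr_mem (g : G) : leftRegular g ∈ groupVNA G := by
  show leftRegular g ∈ StarSubalgebra.centralizer ℂ
    ((StarSubalgebra.centralizer ℂ (Set.range (leftRegular (G := G))) :
      Set (ltwo G →L[ℂ] ltwo G)))
  rw [StarSubalgebra.mem_centralizer_iff]
  intro T hT
  have hT1 : ∀ T : ltwo G →L[ℂ] ltwo G,
      T ∈ StarSubalgebra.centralizer ℂ (Set.range (leftRegular (G := G))) →
      T * leftRegular g = leftRegular g * T := by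
    intro T hT
    rw [StarSubalgebra.mem_centralizer_iff] at hT
    exact (hT _ ⟨g, rfl⟩).1.symm
  exact ⟨hT1 T hT, hT1 (star T) (star_mem hT)⟩

theorem lam_mem (p : MonoidAlgebra ℂ G) : lam p ∈ groupVNA G := by
  induction p using ind with
  | h0 =>
    rw [lam_zero]; exact zero_mem _
  | hadd p q hp hq =>
    rw [lam_add]; exact add_mem hp hq
  | hs c g =>
    rw [lam_smul, lam_E]
    exact (groupVNA G).toStarSubalgebra.smul_mem (lr_mem g) c

theorem norm_lam_le (p : MonoidAlgebra ℂ G) : ‖lam p‖ ≤ n1 p := by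
  rw [lam, n1, Finsupp.sum, Finsupp.sum]
  refine (norm_sum_le _ _).trans (Finset.sum_le_sum fun g _ => ?_)
  rw [norm_smul]
  exact mul_le_of_le_one_right (norm_nonneg _) (norm_lr_le g)

theorem inner_dl_left (g : G) (f : ltwo G) : ⟪(dl g : ltwo G), f⟫_ℂ = f g := by
  rw [dl, lp.inner_single_left]
  simp

/-- the trace form -/
theorem inner_vec (p q : MonoidAlgebra ℂ G) : ⟪vec p, vec q⟫_ℂ = (st p * q).coeff 1 := by
  have h : ⟪vec p, vec q⟫_ℂ = ⟪(dl 1 : ltwo G), lam (st p) (vec q)⟫_ℂ := by
    rw [lam_st, ContinuousLinearMap.star_eq_adjoint, ContinuousLinearMap.adjoint_inner_right,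
      lam_dl_one]
  rw [h, lam_vec, inner_dl_left, vec_apply]

theorem n1_eq_tsum_aux (p : MonoidAlgebra ℂ G) (s : Finset G) (hs : p.coeff.support ⊆ s) :
    n1 p = ∑ g ∈ s, ‖p.coeff g‖ :=
  Finsupp.sum_of_support_subset _ hs _ fun _ _ => norm_zero

theorem n1_nonneg (p : MonoidAlgebra ℂ G) : 0 ≤ n1 p :=
  Finset.sum_nonneg fun _ _ => norm_nonneg _

theorem n1_zero : n1 (0 : MonoidAlgebra ℂ G) = 0 := by
  rw [n1, MonoidAlgebra.coeff_zero, Finsupp.sum_zero_index]

theorem n1_add_le (p q : MonoidAlgebra ℂ G) : n1 (p + q) ≤ n1 p + n1 q := by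
  rw [n1_eq_tsum_aux (p + q) (p.coeff.support ∪ q.coeff.support)
      (by rw [MonoidAlgebra.coeff_add]; exact Finsupp.support_add),
    n1_eq_tsum_aux p (p.coeff.support ∪ q.coeff.support) Finset.subset_union_left,
    n1_eq_tsum_aux q (p.coeff.support ∪ q.coeff.support) Finset.subset_union_right,
    ← Finset.sum_add_distrib]
  refine Finset.sum_le_sum fun g _ => ?_
  rw [MonoidAlgebra.coeff_add, Finsupp.add_apply]
  exact norm_add_le _ _

theorem n1_sum_le {κ : Type*} (s : Finset κ) (f : κ → MonoidAlgebra ℂ G) :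
    n1 (∑ i ∈ s, f i) ≤ ∑ i ∈ s, n1 (f i) := by
  classical
  induction s using Finset.induction_on with
  | empty => rw [Finset.sum_empty, Finset.sum_empty, n1_zero]
  | insert a s ha ih =>
    rw [Finset.sum_insert ha, Finset.sum_insert ha]
    exact (n1_add_le _ _).trans (by linarith)

theorem n1_smul (c : ℂ) (p : MonoidAlgebra ℂ G) : n1 (c • p) = ‖c‖ * n1 p := by
  rw [n1_eq_tsum_aux (c • p) p.coeff.support
      (by rw [MonoidAlgebra.coeff_smul]; exact Finsupp.support_smul),
    n1_eq_tsum_aux p p.coeff.support subset_rfl, Finset.mul_sum]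
  refine Finset.sum_congr rfl fun g _ => ?_
  rw [MonoidAlgebra.coeff_smul, Finsupp.smul_apply, norm_smul]

theorem n1_neg (p : MonoidAlgebra ℂ G) : n1 (-p) = n1 p := by
  have h : -p = (-1 : ℂ) • p := by rw [neg_smul, one_smul]
  rw [h, n1_smul, norm_neg, norm_one, one_mul]

theorem n1_E (g : G) : n1 (E g) = 1 := by
  rw [n1, E, MonoidAlgebra.coeff_single, Finsupp.sum_single_index (by simp), norm_one]

theorem n1_smul_E (c : ℂ) (g : G) : n1 (c • E g) = ‖c‖ := by rw [n1_smul, n1_E, mul_one]

theorem eq_sum_E (p : MonoidAlgebra ℂ G) : p = ∑ g ∈ p.coeff.support, p.coeff g • E g := by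
  have h : ∀ g, p.coeff g • E g = MonoidAlgebra.single g (p.coeff g) := fun g => by
    rw [E, MonoidAlgebra.smul_single, smul_eq_mul, mul_one]
  simp only [h]
  apply MonoidAlgebra.coeff_injective
  rw [MonoidAlgebra.coeff_sum]
  simp only [MonoidAlgebra.coeff_single]
  exact (Finsupp.sum_single p.coeff).symm

theorem n1_mul_le (p q : MonoidAlgebra ℂ G) : n1 (p * q) ≤ n1 p * n1 q := by
  have h1 : ∀ (g : G) (q : MonoidAlgebra ℂ G), n1 (E g * q) ≤ n1 q := by
    intro g q
    conv_lhs => rw [eq_sum_E q, Finset.mul_sum]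
    refine (n1_sum_le _ _).trans ?_
    rw [n1, Finsupp.sum]
    refine Finset.sum_le_sum fun h _ => ?_
    rw [mul_smul_comm, ← E_mul, n1_smul_E]
  conv_lhs => rw [eq_sum_E p, Finset.sum_mul]
  refine (n1_sum_le _ _).trans ?_
  rw [n1, Finsupp.sum, Finset.sum_mul]
  refine Finset.sum_le_sum fun g _ => ?_
  rw [smul_mul_assoc, n1_smul]
  exact mul_le_mul_of_nonneg_left (h1 g q) (norm_nonneg _)

theorem inner_dl (g : G) (f : ltwo G) : ⟪(dl g : ltwo G), f⟫_ℂ = f g := inner_dl_left g f

theorem single_eq_smul_E (g : G) (c : ℂ) :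
    (MonoidAlgebra.single g c : MonoidAlgebra ℂ G) = c • E g := by
  rw [E, MonoidAlgebra.smul_single, smul_eq_mul, mul_one]

theorem vec_single (g : G) (c : ℂ) : vec (MonoidAlgebra.single g c) = c • dl g := by
  rw [single_eq_smul_E, vec_smul, vec_E]

theorem vec_sum {κ : Type*} (s : Finset κ) (f : κ → MonoidAlgebra ℂ G) :
    vec (∑ i ∈ s, f i) = ∑ i ∈ s, vec (f i) := by
  classical
  induction s using Finset.induction_on with
  | empty => simp [vec_zero]
  | insert a s ha ih => rw [Finset.sum_insert ha, Finset.sum_insert ha, vec_add, ih]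

end Crest.Agent.R134.Fl
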