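import Crest.Agent.R134.Defs
import Crest.Agent.R134.FlBasic

/-!
# Row 134: basic facts on `ℓ²(G)`, `δ_g`, `λ(g)`, right translations, `vec`
-/

set_option autoImplicit false
set_option linter.unusedSectionVars false
open Crest.OpAlg
open scoped InnerProductSpace

namespace Crest.Agent.R134

variable {G : Type} [Group G] [DecidableEq G]

theorem dl_apply (g h : G) : dl g h = if h = g then 1 else 0 := Fl.dl_apply g h

theorem norm_dl (g : G) : ‖dl g‖ = 1 := Fl.norm_dl g

theorem inner_dl (g : G) (ξ : ltwo G) : ⟪dl g, ξ⟫_ℂ = ξ g := Fl.inner_dl_left g ξ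

theorem leftRegular_apply (g : G) (ξ : ltwo G) (h : G) : leftRegular g ξ h = ξ (g⁻¹ * h) := rfl

theorem rr_apply (g : G) (ξ : ltwo G) (h : G) : rr g ξ h = ξ (h * g) := rfl

theorem leftRegular_dl (g h : G) : leftRegular g (dl h) = dl (g * h) := Fl.lr_dl g h

theorem rr_dl (g h : G) : rr g (dl h) = dl (h * g⁻¹) := by
  ext k
  rw [rr_apply, dl_apply, dl_apply]
  congr 1
  exact propext eq_mul_inv_iff_mul_eq.symm

theorem leftRegular_mul (g h : G) : leftRegular (g * h) = leftRegular g ∘L leftRegular h :=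
  Fl.lr_mul g h

theorem leftRegular_one : leftRegular (1 : G) = ContinuousLinearMap.id ℂ (ltwo G) := Fl.lr_one

theorem leftRegular_star (g : G) : star (leftRegular g) = leftRegular g⁻¹ := Fl.lr_star g

theorem norm_leftRegular (g : G) (ξ : ltwo G) : ‖leftRegular g ξ‖ = ‖ξ‖ := Fl.norm_lr_apply g ξ

theorem rr_mul (g h : G) : rr (g * h) = rr g ∘L rr h := by
  ext ξ k
  rw [ContinuousLinearMap.comp_apply, rr_apply, rr_apply, rr_apply, mul_assoc]

theorem norm_rr (g : G) (ξ : ltwo G) : ‖rr g ξ‖ = ‖ξ‖ :=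
  (ltwoReindex (Equiv.mulRight g)).norm_map ξ

theorem summable_sq (ξ : ltwo G) : Summable fun g => ‖ξ g‖ ^ 2 := by
  have := (lp.memℓp ξ).summable (by norm_num)
  simpa using this

theorem norm_sq_eq (ξ : ltwo G) : ‖ξ‖ ^ 2 = ∑' g, ‖ξ g‖ ^ 2 := by
  have := lp.norm_rpow_eq_tsum (p := 2) (by norm_num) ξ
  simpa using this

/-- expansion of a vector -/
theorem hasSum_dl (ξ : ltwo G) : HasSum (fun g => ξ g • dl g) ξ := by
  have h1 : HasSum (fun g => (lp.single 2 g (ξ g) : ltwo G)) ξ :=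
    lp.hasSum_single (by norm_num) ξ
  have h2 : (fun g => (lp.single 2 g (ξ g) : ltwo G)) = fun g => ξ g • dl g := by
    funext g
    rw [dl, ← lp.single_smul, smul_eq_mul, mul_one]
  rwa [h2] at h1

theorem dense_dl : (Submodule.span ℂ (Set.range (dl : G → ltwo G))).topologicalClosure = ⊤ := by
  rw [eq_top_iff]
  intro ξ _
  rw [← SetLike.mem_coe, Submodule.topologicalClosure_coe]
  refine mem_closure_of_tendsto (hasSum_dl ξ) (Filter.Eventually.of_forall fun s => ?_)
  exact Submodule.sum_mem _ fun g _ => Submodule.smul_mem _ _ (Submodule.subset_span ⟨g, rfl⟩)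

theorem ext_dl {T S : ltwo G →L[ℂ] ltwo G} (h : ∀ g, T (dl g) = S (dl g)) : T = S := by
  ext1 ξ
  have h1 := (hasSum_dl ξ).mapL T
  have h2 := (hasSum_dl ξ).mapL S
  refine h1.unique ?_
  convert h2 using 2 with g
  rw [map_smul, map_smul, h]

theorem rr_star (g : G) : star (rr g) = rr g⁻¹ := by
  have h : ∀ f f' : ltwo G, ⟪rr g⁻¹ f, f'⟫_ℂ = ⟪f, rr g f'⟫_ℂ := by
    intro f f'
    have h1 : ⟪rr g (rr g⁻¹ f), rr g f'⟫_ℂ = ⟪rr g⁻¹ f, f'⟫_ℂ :=
      (ltwoReindex (Equiv.mulRight g) : ltwo G ≃ₗᵢ[ℂ] ltwo G).inner_map_map _ _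
    rw [← h1]
    have h2 : rr g (rr g⁻¹ f) = f := by
      ext k
      rw [rr_apply, rr_apply, mul_inv_cancel_right]
    rw [h2]
  rw [ContinuousLinearMap.star_eq_adjoint]
  symm
  rw [ContinuousLinearMap.eq_adjoint_iff]
  exact h

theorem leftRegular_rr (g h : G) (ξ : ltwo G) :
    leftRegular g (rr h ξ) = rr h (leftRegular g ξ) := by
  ext k
  rw [leftRegular_apply, rr_apply, rr_apply, leftRegular_apply, mul_assoc]

end Crest.Agent.R134
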