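import Crest.Agent.R134.Defs
import Crest.Agent.R134.BasicA

/-!
# Row 134: basic facts on `ℓ²(G)`, `δ_g`, `λ(g)`, right translations, `vec`
-/

set_option autoImplicit false
set_option linter.unusedSectionVars false
open Crest.OpAlg
open scoped InnerProductSpace

namespace Crest.Agent.R134

variable {G : Type} [Group G] [DecidableEq G]

theorem vec_add (p q : MonoidAlgebra ℂ G) : vec (p + q) = vec p + vec q := Fl.vec_add p q

theorem vec_smul (c : ℂ) (p : MonoidAlgebra ℂ G) : vec (c • p) = c • vec p := Fl.vec_smul c p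

theorem vec_zero : vec (0 : MonoidAlgebra ℂ G) = 0 := Fl.vec_zero

theorem vec_sum {α : Type} (s : Finset α) (f : α → MonoidAlgebra ℂ G) :
    vec (∑ i ∈ s, f i) = ∑ i ∈ s, vec (f i) := Fl.vec_sum s f

theorem vec_E (g : G) : vec (E g) = dl g := Fl.vec_E g

theorem vec_apply (p : MonoidAlgebra ℂ G) (g : G) : vec p g = p.coeff g := Fl.vec_apply p g

theorem norm_vec_le (p : MonoidAlgebra ℂ G) : ‖vec p‖ ≤ n1 p := Fl.norm_vec_le p

theorem exists_vec (ξ : ltwo G) (ε : ℝ) (hε : 0 < ε) :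
    ∃ p : MonoidAlgebra ℂ G, ‖ξ - vec p‖ ≤ ε := by
  obtain ⟨p, hp⟩ := Fl.vec_dense.exists_dist_lt ξ hε
  exact ⟨p, by rw [← dist_eq_norm]; exact hp.le⟩

theorem lam_add (p q : MonoidAlgebra ℂ G) : lam (p + q) = lam p + lam q := Fl.lam_add p q

theorem lam_smul (c : ℂ) (p : MonoidAlgebra ℂ G) : lam (c • p) = c • lam p := Fl.lam_smul c p

theorem lam_zero : lam (0 : MonoidAlgebra ℂ G) = 0 := Fl.lam_zero

theorem lam_E (g : G) : lam (E g) = leftRegular g := Fl.lam_E g

theorem lam_mul (p q : MonoidAlgebra ℂ G) : lam (p * q) = lam p ∘L lam q := Fl.lam_mul p q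

theorem lam_star (p : MonoidAlgebra ℂ G) : star (lam p) = lam (st p) := (Fl.lam_st p).symm

theorem norm_lam_le (p : MonoidAlgebra ℂ G) : ‖lam p‖ ≤ n1 p := Fl.norm_lam_le p

theorem lam_dl_one (p : MonoidAlgebra ℂ G) : lam p (dl 1) = vec p := Fl.lam_dl_one p

theorem lam_vec (p q : MonoidAlgebra ℂ G) : lam p (vec q) = vec (p * q) := Fl.lam_vec p q

end Crest.Agent.R134
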