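import Crest.Agent.R134.DefsA
import Crest.Agent.R134.Basic

/-!
# Row 134, part (A): algebra of the derivation `D = der A` of `ℂ[FreeGroup ι]`, `D(u_i) = A_i u_i`
-/

set_option autoImplicit false
set_option linter.unusedSectionVars false
open Crest.OpAlg

namespace Crest.Agent.R134

variable {ι : Type} [DecidableEq ι] (A : ι → MonoidAlgebra ℂ (FreeGroup ι))

/-- the matrix of the lift is `!![E g, dg A g; 0, E g]` -/
theorem lift_du_eq (g : FreeGroup ι) :
    (FreeGroup.lift (du A) g : Matrix (Fin 2) (Fin 2) (MonoidAlgebra ℂ (FreeGroup ι))) =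
      !![E g, dg A g; 0, E g] := by
  have key : ((FreeGroup.lift (du A) g :
      Matrix (Fin 2) (Fin 2) (MonoidAlgebra ℂ (FreeGroup ι))) 0 0 = E g) ∧
      ((FreeGroup.lift (du A) g :
      Matrix (Fin 2) (Fin 2) (MonoidAlgebra ℂ (FreeGroup ι))) 1 0 = 0) ∧
      ((FreeGroup.lift (du A) g :
      Matrix (Fin 2) (Fin 2) (MonoidAlgebra ℂ (FreeGroup ι))) 1 1 = E g) := by
    induction g using FreeGroup.induction_on with
    | C1 => simp [E_one]
    | of i =>
      rw [FreeGroup.lift_apply_of]
      exact ⟨rfl, rfl, rfl⟩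
    | inv_of i _ =>
      rw [map_inv, FreeGroup.lift_apply_of]
      exact ⟨rfl, rfl, rfl⟩
    | mul x y hx hy =>
      obtain ⟨h1, h2, h3⟩ := hx
      obtain ⟨h4, h5, h6⟩ := hy
      rw [map_mul, Units.val_mul]
      simp only [Matrix.mul_apply, Fin.sum_univ_two, h1, h2, h3, h4, h5, h6, E_mul, mul_zero,
        zero_mul, add_zero, zero_add, and_self]
  obtain ⟨h1, h2, h3⟩ := key
  have : ∀ i j, (FreeGroup.lift (du A) g :
      Matrix (Fin 2) (Fin 2) (MonoidAlgebra ℂ (FreeGroup ι))) i j =
      (!![E g, dg A g; 0, E g] : Matrix (Fin 2) (Fin 2) (MonoidAlgebra ℂ (FreeGroup ι))) i j := by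
    intro i j
    fin_cases i <;> fin_cases j
    · exact h1
    · rfl
    · exact h2
    · exact h3
  exact Matrix.ext this

theorem dg_one : dg A 1 = 0 := by
  unfold dg
  simp

theorem dg_of (i : ι) : dg A (FreeGroup.of i) = A i * E (FreeGroup.of i) := by
  unfold dg
  rw [FreeGroup.lift_apply_of]
  rfl

/-- Leibniz rule on group elements (the diagonal entries of the lift are both `E g`) -/
theorem dg_mul (g h : FreeGroup ι) : dg A (g * h) = dg A g * E h + E g * dg A h := by
  have h1 := lift_du_eq A (g * h)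
  rw [map_mul, Units.val_mul, lift_du_eq, lift_du_eq, Matrix.mul_fin_two] at h1
  have h2 := congrFun (congrFun h1 0) 1
  simp only [Matrix.of_apply, Matrix.cons_val', Matrix.cons_val_zero, Matrix.cons_val_one,
    Matrix.cons_val_fin_one] at h2
  rw [← h2, add_comm]

theorem dg_inv (g : FreeGroup ι) : dg A g⁻¹ = -(E g⁻¹ * dg A g * E g⁻¹) := by
  have h1 := dg_mul A g⁻¹ g
  rw [inv_mul_cancel, dg_one] at h1
  have h2 : dg A g⁻¹ * E g = -(E g⁻¹ * dg A g) := eq_neg_of_add_eq_zero_left h1.symm
  have h3 := congrArg (· * E g⁻¹) h2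
  simp only [mul_assoc, ← E_mul, mul_inv_cancel, E_one, mul_one, neg_mul] at h3
  rw [h3, mul_assoc]

theorem der_E (g : FreeGroup ι) : der A (E g) = dg A g := by
  unfold der E
  simp

theorem der_single (g : FreeGroup ι) (c : ℂ) :
    der A (MonoidAlgebra.single g c) = c • dg A g := by
  have : MonoidAlgebra.single g c = c • E g := by simp [E]
  rw [this, map_smul, der_E]

theorem der_mul (p q : MonoidAlgebra ℂ (FreeGroup ι)) :
    der A (p * q) = der A p * q + p * der A q := by
  induction p using MonoidAlgebra.induction_on with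
  | of g =>
    induction q using MonoidAlgebra.induction_on with
    | of h =>
      have h1 : (MonoidAlgebra.of ℂ (FreeGroup ι) g) = E g := rfl
      have h2 : (MonoidAlgebra.of ℂ (FreeGroup ι) h) = E h := rfl
      rw [h1, h2, ← E_mul, der_E, der_E, der_E, dg_mul]
    | add a b ha hb => rw [mul_add, map_add, ha, hb, map_add]; simp only [mul_add]; abel
    | smul c a ha => rw [mul_smul_comm, map_smul, ha, map_smul, smul_add, mul_smul_comm,
        mul_smul_comm]
  | add a b ha hb => rw [add_mul, map_add, ha, hb, map_add]; simp only [add_mul]; abel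
  | smul c a ha => rw [smul_mul_assoc, map_smul, ha, map_smul, smul_add, smul_mul_assoc,
      smul_mul_assoc]

/-- the left cocycle `c g = D(g) g⁻¹` -/
noncomputable def cc (g : FreeGroup ι) : MonoidAlgebra ℂ (FreeGroup ι) := dg A g * E g⁻¹

theorem cc_one : cc A 1 = 0 := by
  unfold cc
  rw [dg_one, zero_mul]

theorem cc_of (i : ι) : cc A (FreeGroup.of i) = A i := by
  unfold cc
  rw [dg_of, mul_assoc, ← E_mul, mul_inv_cancel, E_one, mul_one]

theorem cc_mul (g h : FreeGroup ι) : cc A (g * h) = cc A g + E g * cc A h * E g⁻¹ := by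
  unfold cc
  rw [dg_mul, mul_inv_rev, E_mul, add_mul]
  congr 1
  · rw [mul_assoc, ← mul_assoc (E h), ← E_mul h, mul_inv_cancel, E_one, one_mul]
  · simp only [mul_assoc]

theorem dg_eq_cc (g : FreeGroup ι) : dg A g = cc A g * E g := by
  unfold cc
  rw [mul_assoc, ← E_mul, inv_mul_cancel, E_one, mul_one]

theorem cc_inv (g : FreeGroup ι) : cc A g⁻¹ = -(E g⁻¹ * cc A g * E g) := by
  unfold cc
  rw [dg_inv, inv_inv, neg_mul]
  simp only [mul_assoc]

end Crest.Agent.R134
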