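import Crest.Agent.R134.DefsA
import Crest.Agent.R134.Basic
import Crest.Agent.R134.DAlgA

/-!
# Row 134, part (A): algebra of the derivation `D = der A` of `ℂ[FreeGroup ι]`, `D(u_i) = A_i u_i`
-/

set_option autoImplicit false
set_option linter.unusedSectionVars false
open Crest.OpAlg

namespace Crest.Agent.R134

variable {ι : Type} [DecidableEq ι] {ia ib ix : ι}

namespace DAlgB

variable {G : Type} [Group G] [DecidableEq G]

theorem st_zero : st (0 : MonoidAlgebra ℂ G) = 0 := by simp [st]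

theorem st_add (p q : MonoidAlgebra ℂ G) : st (p + q) = st p + st q := by
  rw [st, MonoidAlgebra.coeff_add]
  exact Finsupp.sum_add_index' (by simp) (by intro a b c; simp)

theorem st_single (g : G) (c : ℂ) :
    st (MonoidAlgebra.single g c) = MonoidAlgebra.single g⁻¹ (star c) := by
  rw [st, MonoidAlgebra.coeff_single, Finsupp.sum_single_index (by simp)]

theorem st_E (g : G) : st (E g) = E g⁻¹ := by rw [E, st_single, star_one, E]

theorem st_smul (c : ℂ) (p : MonoidAlgebra ℂ G) : st (c • p) = star c • st p := by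
  induction p using MonoidAlgebra.induction_linear with
  | zero => simp [st_zero]
  | add x y hx hy => rw [smul_add, st_add, hx, hy, st_add, smul_add]
  | single m r =>
    rw [MonoidAlgebra.smul_single, st_single, st_single, MonoidAlgebra.smul_single, smul_eq_mul,
      star_mul, smul_eq_mul, mul_comm]

theorem st_neg (p : MonoidAlgebra ℂ G) : st (-p) = -st p := by
  have := st_smul (-1 : ℂ) p
  simpa using this

theorem st_sub (p q : MonoidAlgebra ℂ G) : st (p - q) = st p - st q := by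
  rw [sub_eq_add_neg, st_add, st_neg, ← sub_eq_add_neg]

theorem st_sum {κ : Type*} (s : Finset κ) (f : κ → MonoidAlgebra ℂ G) :
    st (∑ i ∈ s, f i) = ∑ i ∈ s, st (f i) := by
  classical
  induction s using Finset.induction_on with
  | empty => simp [st_zero]
  | insert a s ha ih => rw [Finset.sum_insert ha, Finset.sum_insert ha, st_add, ih]

end DAlgB

/-- `Y(h)` is conjugated by left translation: `g Y(h) g⁻¹ = Y(g h)` -/
theorem Yc_conj (n : ℕ) (g h : FreeGroup ι) :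
    E g * Yc ia ib ix n h * E g⁻¹ = Yc ia ib ix n (g * h) := by
  unfold Yc
  rw [mul_smul_comm, smul_mul_assoc, mul_sub, sub_mul, ← E_mul, ← E_mul, ← E_mul, ← E_mul]
  congr 3
  · group
  · group

theorem Yc_st (n : ℕ) (h : FreeGroup ι) : st (Yc ia ib ix n h) = -Yc ia ib ix n h := by
  unfold Yc
  rw [DAlgB.st_smul, DAlgB.st_sub, DAlgB.st_E, DAlgB.st_E]
  have h1 : (h * zz ia ib ix n * h⁻¹)⁻¹ = h * (zz ia ib ix n)⁻¹ * h⁻¹ := by group
  have h2 : (h * (zz ia ib ix n)⁻¹ * h⁻¹)⁻¹ = h * zz ia ib ix n * h⁻¹ := by group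
  have h3 : star (1 / 2 : ℂ) = 1 / 2 := by simp
  rw [h1, h2, h3, ← smul_neg, neg_sub]

theorem Af_st (n : ℕ) (i : ι) : st (Af ia ib ix n i) = -Af ia ib ix n i := by
  unfold Af
  split_ifs with h1 h2
  · exact Yc_st n 1
  · rw [DAlgB.st_smul, DAlgB.st_sum]
    have h3 : star (1 / (n : ℂ)) = 1 / n := by simp
    rw [h3, ← smul_neg, ← Finset.sum_neg_distrib]
    congr 1
    exact Finset.sum_congr rfl fun m _ => Yc_st n _
  · rw [DAlgB.st_zero, neg_zero]

theorem Af_other (n : ℕ) (i : ι) (h1 : i ≠ ib) (h2 : i ≠ ix) : Af ia ib ix n i = 0 := by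
  unfold Af
  rw [if_neg h2, if_neg h1]

theorem DAlgB.conj_sum (n : ℕ) {κ : Type} (s : Finset κ) (g : FreeGroup ι) (f : κ → FreeGroup ι)
    (c : ℂ) :
    E g * (c • ∑ m ∈ s, Yc ia ib ix n (f m)) * E g⁻¹ = c • ∑ m ∈ s, Yc ia ib ix n (g * f m) := by
  rw [mul_smul_comm, smul_mul_assoc, Finset.mul_sum, Finset.sum_mul]
  congr 1
  exact Finset.sum_congr rfl fun m _ => Yc_conj n g (f m)

theorem DAlgB.cc_pow {A : ι → MonoidAlgebra ℂ (FreeGroup ι)} {i : ι} (h : A i = 0) (k : ℕ) :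
    cc A (FreeGroup.of i ^ k) = 0 := by
  induction k with
  | zero => rw [pow_zero, cc_one]
  | succ k ih => rw [pow_succ, cc_mul, ih, cc_of, h, mul_zero, zero_mul, add_zero]

/-- `c(g_i) = a^(4i+1) c(b) a^-(4i+1)`; `c(b) = (1/n) ∑ Y(b a G_m⁻¹)`; `a^(4i+1) b a = g_i`:
`c(g_i) = (1/n) ∑_m Y(g_i G_m⁻¹)` -/
theorem cc_gg (hab : ia ≠ ib) (hax : ia ≠ ix) (hbx : ib ≠ ix) (n i : ℕ) :
    cc (Af ia ib ix n) (gg ia ib i)
      = (1 / (n : ℂ)) • ∑ m ∈ Finset.range n, Yc ia ib ix n (gg ia ib i * (GG ia ib (m + 1))⁻¹) := by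
  have ha : Af ia ib ix n ia = 0 := Af_other n ia hab hax
  have hb : Af ia ib ix n ib = (1 / (n : ℂ)) • ∑ m ∈ Finset.range n,
      Yc ia ib ix n (FreeGroup.of ib * FreeGroup.of ia * (GG ia ib (m + 1))⁻¹) := by
    unfold Af
    rw [if_neg hbx, if_pos rfl]
  unfold gg
  rw [cc_mul, cc_mul, cc_of, cc_of, ha, mul_zero, zero_mul, add_zero, DAlgB.cc_pow ha, zero_add,
    hb, DAlgB.conj_sum]
  congr 1
  refine Finset.sum_congr rfl fun m _ => ?_
  congr 1
  group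

/-- `c(G_l) = (1/n) ∑_{j<l} ∑_{m<n} Y(G_{j+1} G_{m+1}⁻¹)` -/
theorem cc_GG (hab : ia ≠ ib) (hax : ia ≠ ix) (hbx : ib ≠ ix) (n l : ℕ) :
    cc (Af ia ib ix n) (GG ia ib l)
      = (1 / (n : ℂ)) • ∑ j ∈ Finset.range l, ∑ m ∈ Finset.range n,
          Yc ia ib ix n (GG ia ib (j + 1) * (GG ia ib (m + 1))⁻¹) := by
  induction l with
  | zero =>
    rw [Finset.range_zero, Finset.sum_empty, smul_zero]
    exact cc_one _
  | succ l ih =>
    have h1 : GG ia ib (l + 1) = GG ia ib l * gg ia ib (l + 1) := rfl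
    rw [Finset.sum_range_succ, smul_add, ← ih, h1, cc_mul, cc_gg hab hax hbx, DAlgB.conj_sum]
    congr 2
    refine Finset.sum_congr rfl fun m _ => ?_
    rw [mul_assoc]

/-- `c(r) = Y(1) + (1/n) ∑_{j≠m} Y(G_{j+1} G_{m+1}⁻¹)` -/
theorem cc_r (hab : ia ≠ ib) (hax : ia ≠ ix) (hbx : ib ≠ ix) (n : ℕ) (hn : 1 ≤ n) :
    cc (Af ia ib ix n) (GG ia ib n)
      = Yc ia ib ix n 1 + (1 / (n : ℂ)) • ∑ j ∈ Finset.range n, ∑ m ∈ (Finset.range n).erase j,
          Yc ia ib ix n (GG ia ib (j + 1) * (GG ia ib (m + 1))⁻¹) := by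
  rw [cc_GG hab hax hbx]
  have h1 : ∀ j ∈ Finset.range n, (∑ m ∈ Finset.range n,
      Yc ia ib ix n (GG ia ib (j + 1) * (GG ia ib (m + 1))⁻¹)) =
      Yc ia ib ix n 1 + ∑ m ∈ (Finset.range n).erase j,
          Yc ia ib ix n (GG ia ib (j + 1) * (GG ia ib (m + 1))⁻¹) := by
    intro j hj
    rw [← Finset.add_sum_erase _ _ hj, mul_inv_cancel]
  rw [Finset.sum_congr rfl h1, Finset.sum_add_distrib, smul_add, Finset.sum_const,
    Finset.card_range, ← Nat.cast_smul_eq_nsmul ℂ, smul_smul]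
  have h2 : (1 / (n : ℂ)) * n = 1 := by
    have : (n : ℂ) ≠ 0 := by exact_mod_cast (by omega : n ≠ 0)
    field_simp
  rw [h2, one_smul]

/-- `c(z) = -(1/n) ∑_{j≠m} Y(z G_{j+1} G_{m+1}⁻¹)`, `z = x r⁻¹`, since
`c(x r⁻¹) = c(x) + x c(r⁻¹) x⁻¹ = Y(1) - z c(r) z⁻¹` and `z Y(1) z⁻¹ = Y(z) = Y(1)` -/
theorem cc_z (hab : ia ≠ ib) (hax : ia ≠ ix) (hbx : ib ≠ ix) (n : ℕ) (hn : 1 ≤ n) :
    cc (Af ia ib ix n) (zz ia ib ix n)
      = -((1 / (n : ℂ)) • ∑ j ∈ Finset.range n, ∑ m ∈ (Finset.range n).erase j,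
          Yc ia ib ix n (zz ia ib ix n * (GG ia ib (j + 1) * (GG ia ib (m + 1))⁻¹))) := by
  have hx : Af ia ib ix n ix = Yc ia ib ix n 1 := by
    unfold Af
    rw [if_pos rfl]
  have hz : Yc ia ib ix n (zz ia ib ix n * 1) = Yc ia ib ix n 1 := by
    unfold Yc
    congr 3
    · group
    · group
  set r := GG ia ib n with hr
  have h1 : cc (Af ia ib ix n) (zz ia ib ix n) = Yc ia ib ix n 1 -
      E (zz ia ib ix n) * cc (Af ia ib ix n) r * E (zz ia ib ix n)⁻¹ := by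
    have h2 : zz ia ib ix n = FreeGroup.of ix * r⁻¹ := rfl
    have h3 : (zz ia ib ix n)⁻¹ = r * (FreeGroup.of ix)⁻¹ := by rw [h2]; group
    rw [h3, h2, cc_mul, cc_of, hx, cc_inv, mul_neg, neg_mul, ← sub_eq_add_neg, E_mul, E_mul]
    simp only [mul_assoc]
  rw [h1, hr, cc_r hab hax hbx n hn, mul_add, add_mul, Yc_conj, hz, mul_smul_comm, smul_mul_assoc,
    Finset.mul_sum, Finset.sum_mul]
  have h4 : ∀ j ∈ Finset.range n, E (zz ia ib ix n) * (∑ m ∈ (Finset.range n).erase j,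
      Yc ia ib ix n (GG ia ib (j + 1) * (GG ia ib (m + 1))⁻¹)) * E (zz ia ib ix n)⁻¹ =
      ∑ m ∈ (Finset.range n).erase j,
        Yc ia ib ix n (zz ia ib ix n * (GG ia ib (j + 1) * (GG ia ib (m + 1))⁻¹)) := by
    intro j _
    rw [Finset.mul_sum, Finset.sum_mul]
    exact Finset.sum_congr rfl fun m _ => Yc_conj n _ _
  rw [Finset.sum_congr rfl h4]
  abel

/-- `D x = (x r⁻¹ x - r)/2` -/
theorem der_x (n : ℕ) :
    der (Af ia ib ix n) (E (FreeGroup.of ix))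
      = (1 / 2 : ℂ) • (E (FreeGroup.of ix * (GG ia ib n)⁻¹ * FreeGroup.of ix)
          - E (GG ia ib n)) := by
  have hx : Af ia ib ix n ix = Yc ia ib ix n 1 := by
    unfold Af
    rw [if_pos rfl]
  rw [der_E, dg_of, hx]
  unfold Yc
  rw [smul_mul_assoc, sub_mul, ← E_mul, ← E_mul]
  congr 3
  · unfold zz; group
  · unfold zz; group

end Crest.Agent.R134
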