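import Crest.Agent.R134.DefsA
import Crest.Agent.R134.Word

/-!
# Row 134, part (A2): distinctness of the elements occurring in `D`

* `zz_comm`: an element `k` of degree 0 commuting with `z = x r⁻¹` is 1.  (`deg r = 0`.  The automorphism
  `x ↦ x r`, fixing the other letters, sends `z` to `x`, `k` to `k`; if `k ≠ 1` commutes with `x`, then
  `k.toWord ++ [x] = [x] ++ k.toWord` by `cat_toWord`, so `k` contains the letter `x`.)
* `zz_conj_inj`: uses the homomorphism `G → ℤ` counting `x` for `e = e'`.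
* `GG_inj`, `hh_inj`: representation `κ : G → Perm ℚ`, `a ↦ (t ↦ t + 1/4)`, `b ↦ (t ↦ 2t - 3/4)`, other
  letters `↦ 1`: `κ(gg i) = (t ↦ 2t + i)`, `κ(GG m) = (t ↦ 2^m t + (m-1) 2^m + 1)`,
  `κ(GG l (GG m)⁻¹) = (t ↦ 2^(l-m) t + (l-m) 2^l + 1 - 2^(l-m))`.
-/

set_option autoImplicit false
set_option linter.unusedSectionVars false

namespace Crest.Agent.R134

variable {ι : Type} [DecidableEq ι] {ia ib ix : ι}

theorem deg_of_pow (hax : ia ≠ ix) (n : ℕ) : deg ix (FreeGroup.of ia ^ n) = 0 := by
  induction n with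
  | zero => rw [pow_zero]; exact deg_one ix
  | succ n ih => rw [pow_succ, deg_mul_left ix ih]; exact deg_of_ne ix hax

theorem deg_gg (hax : ia ≠ ix) (hbx : ib ≠ ix) (i : ℕ) : deg ix (gg ia ib i) = 0 := by
  unfold gg
  rw [mul_assoc, deg_mul_left ix (deg_of_pow hax _), deg_mul_left ix (deg_of_ne ix hbx)]
  exact deg_of_ne ix hax

theorem deg_GG (hax : ia ≠ ix) (hbx : ib ≠ ix) (m : ℕ) : deg ix (GG ia ib m) = 0 := by
  induction m with
  | zero => exact deg_one ix
  | succ m ih =>
    show deg ix (GG ia ib m * gg ia ib (m + 1)) = 0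
    rw [deg_mul_left ix ih]; exact deg_gg hax hbx _

theorem toWord_of' (i : ι) : (FreeGroup.of i).toWord = [(i, true)] := FreeGroup.toWord_of i

theorem hd_of' (i : ι) : hd (FreeGroup.of i) = some i := by
  unfold hd; rw [toWord_of']; rfl

theorem lst_of' (i : ι) : lst (FreeGroup.of i) = some i := by
  unfold lst; rw [toWord_of']; rfl

theorem hd_ne_of_deg {k : FreeGroup ι} (hk : deg ix k = 0) : hd k ≠ some ix := by
  intro h
  unfold hd at h
  rw [Option.map_eq_some_iff] at h
  obtain ⟨p, hp, hpx⟩ := h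
  have hmem : p ∈ k.toWord := List.mem_of_head? hp
  unfold deg at hk
  rw [List.countP_eq_zero] at hk
  exact hk p hmem (by simpa using hpx)

theorem lst_ne_of_deg {k : FreeGroup ι} (hk : deg ix k = 0) : lst k ≠ some ix := by
  intro h
  unfold lst at h
  rw [Option.map_eq_some_iff] at h
  obtain ⟨p, hp, hpx⟩ := h
  have hmem : p ∈ k.toWord := List.mem_of_getLast? hp
  unfold deg at hk
  rw [List.countP_eq_zero] at hk
  exact hk p hmem (by simpa using hpx)

theorem deg_x_k_x {k : FreeGroup ι} (hk : deg ix k = 0) :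
    deg ix (FreeGroup.of ix * k * FreeGroup.of ix) = 2 := by
  by_cases h1 : k = 1
  · subst h1
    rw [mul_one]
    have h : (FreeGroup.of ix * FreeGroup.of ix).toWord = [(ix, true), (ix, true)] := by
      have := toWord_of_pow ix 2
      rw [pow_two] at this
      rw [this]; rfl
    unfold deg
    rw [h]
    simp
  · have e1 : ∀ i, lst (FreeGroup.of ix) = some i → hd k ≠ some i := by
      intro i hi
      rw [lst_of', Option.some.injEq] at hi
      subst hi
      exact hd_ne_of_deg hk
    have e2 : ∀ i, lst (FreeGroup.of ix * k) = some i → hd (FreeGroup.of ix) ≠ some i := by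
      intro i hi
      rw [cat_lst _ _ h1 e1] at hi
      rw [hd_of']
      intro h
      rw [← h] at hi
      exact lst_ne_of_deg hk hi
    rw [cat_deg ix _ _ e2, cat_deg ix _ _ e1, deg_of_self, hk]

theorem deg_xrx (hax : ia ≠ ix) (hbx : ib ≠ ix) (m : ℕ) :
    deg ix (FreeGroup.of ix * (GG ia ib m)⁻¹ * FreeGroup.of ix) = 2 := by
  apply deg_x_k_x
  rw [deg_inv]
  exact deg_GG hax hbx m

/-- an element of degree 0 commuting with `x` is trivial -/
theorem comm_x {k : FreeGroup ι} (hk : deg ix k = 0)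
    (h : k * FreeGroup.of ix = FreeGroup.of ix * k) : k = 1 := by
  by_contra h1
  have e1 : ∀ i, lst (FreeGroup.of ix) = some i → hd k ≠ some i := by
    intro i hi
    rw [lst_of', Option.some.injEq] at hi
    subst hi
    exact hd_ne_of_deg hk
  have e2 : ∀ i, lst k = some i → hd (FreeGroup.of ix) ≠ some i := by
    intro i hi
    rw [hd_of']
    intro h
    rw [← h] at hi
    exact lst_ne_of_deg hk hi
  have a1 := cat_hd _ _ h1 e2
  have a2 := cat_hd _ _ (FreeGroup.of_ne_one ix) e1
  rw [h, a2, hd_of'] at a1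
  exact hd_ne_of_deg hk a1.symm

/-- a homomorphism fixing the letters other than `x` fixes the elements of degree 0 -/
theorem hom_fix (f : FreeGroup ι →* FreeGroup ι) (hf : ∀ i, i ≠ ix → f (FreeGroup.of i) = FreeGroup.of i)
    {k : FreeGroup ι} (hk : deg ix k = 0) : f k = k := by
  obtain ⟨g, rfl⟩ := (deg_eq_zero_iff ix (fun i : {i : ι // i ≠ ix} => (i : ι))
    Subtype.val_injective (by intro i; simp) k).1 hk
  induction g using FreeGroup.induction_on with
  | C1 => simp
  | of i => simpa using hf i.1 i.2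
  | inv_of i h =>
    rw [map_inv, map_inv]
    rw [FreeGroup.map.of]
    rw [hf i.1 i.2]
  | mul x y hx hy =>
    have h1 : ∀ g : FreeGroup {i : ι // i ≠ ix},
        deg ix (FreeGroup.map (fun i : {i : ι // i ≠ ix} => (i : ι)) g) = 0 := fun g =>
      (deg_eq_zero_iff ix (fun i : {i : ι // i ≠ ix} => (i : ι))
        Subtype.val_injective (by intro i; simp) _).2 ⟨g, rfl⟩
    rw [map_mul, map_mul, hx (h1 x), hy (h1 y)]

theorem zz_comm (hax : ia ≠ ix) (hbx : ib ≠ ix) (n : ℕ) (k : FreeGroup ι) (hk : deg ix k = 0)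
    (h : k * zz ia ib ix n = zz ia ib ix n * k) : k = 1 := by
  let f : FreeGroup ι →* FreeGroup ι := FreeGroup.lift
    (fun i => if i = ix then FreeGroup.of ix * GG ia ib n else FreeGroup.of i)
  have hf : ∀ i, i ≠ ix → f (FreeGroup.of i) = FreeGroup.of i := by
    intro i hi
    simp only [f, FreeGroup.lift_apply_of, if_neg hi]
  have hfx : f (FreeGroup.of ix) = FreeGroup.of ix * GG ia ib n := by
    simp only [f, FreeGroup.lift_apply_of, if_true]
  have hfz : f (zz ia ib ix n) = FreeGroup.of ix := by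
    unfold zz
    rw [map_mul, map_inv, hfx, hom_fix f hf (deg_GG hax hbx n), mul_inv_cancel_right]
  have h2 := congrArg f h
  rw [map_mul, map_mul, hfz, hom_fix f hf hk] at h2
  exact comm_x hk h2

theorem zz_conj_inj (hax : ia ≠ ix) (hbx : ib ≠ ix) (n : ℕ) (h h' : FreeGroup ι)
    (hh : deg ix h = 0) (hh' : deg ix h' = 0)
    (e : h * zz ia ib ix n * h⁻¹ = h' * zz ia ib ix n * h'⁻¹) : h = h' := by
  have hk : deg ix (h'⁻¹ * h) = 0 := by
    rw [deg_mul_left ix (by rw [deg_inv]; exact hh'), hh]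
  have hc : (h'⁻¹ * h) * zz ia ib ix n = zz ia ib ix n * (h'⁻¹ * h) := by
    calc (h'⁻¹ * h) * zz ia ib ix n = h'⁻¹ * (h * zz ia ib ix n * h⁻¹) * h := by group
      _ = h'⁻¹ * (h' * zz ia ib ix n * h'⁻¹) * h := by rw [e]
      _ = zz ia ib ix n * (h'⁻¹ * h) := by group
  have := zz_comm hax hbx n _ hk hc
  exact (inv_mul_eq_one.1 this).symm

theorem zz_conj_ne (hax : ia ≠ ix) (hbx : ib ≠ ix) (n : ℕ) (h h' : FreeGroup ι) :
    h * zz ia ib ix n * h⁻¹ ≠ h' * (zz ia ib ix n)⁻¹ * h'⁻¹ := by
  intro e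
  let f : FreeGroup ι →* Multiplicative ℤ := FreeGroup.lift
    (fun i => if i = ix then Multiplicative.ofAdd 1 else 1)
  have hf : ∀ i, i ≠ ix → f (FreeGroup.of i) = 1 := by
    intro i hi
    simp only [f, FreeGroup.lift_apply_of, if_neg hi]
  have hfx : f (FreeGroup.of ix) = Multiplicative.ofAdd 1 := by
    simp only [f, FreeGroup.lift_apply_of, if_true]
  have hG : ∀ m, f (GG ia ib m) = 1 := by
    intro m
    induction m with
    | zero => exact map_one f
    | succ m ih =>
      show f (GG ia ib m * gg ia ib (m + 1)) = 1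
      rw [map_mul, ih, one_mul]
      unfold gg
      rw [map_mul, map_mul, map_pow, hf ia hax, hf ib hbx, one_pow, one_mul, one_mul]
  have hz : f (zz ia ib ix n) = Multiplicative.ofAdd 1 := by
    unfold zz
    rw [map_mul, map_inv, hfx, hG, inv_one, mul_one]
  have h2 := congrArg f e
  simp only [map_mul, map_inv, hz] at h2
  rw [mul_right_comm, mul_inv_cancel, one_mul, mul_right_comm, mul_inv_cancel, one_mul] at h2
  have h3 := congrArg Multiplicative.toAdd h2
  simp at h3

end Crest.Agent.R134
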