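import Crest.Agent.R134.DefsA
import Crest.Agent.R134.Word
import Crest.Agent.R134.DCombA

/-!
# Row 134, part (A2): distinctness of the elements occurring in `D`

* `zz_comm`: an element `k` of degree 0 commuting with `z = x r⁻¹` is 1.  (`deg r = 0`.  The automorphism
  `x ↦ x r`, fixing the other letters, sends `z` to `x`, `k` to `k`; if `k ≠ 1` commutes with `x`, then
  `k.toWord ++ [x] = [x] ++ k.toWord` by `cat_toWord`, so `k` contains the letter `x`.)
* `zz_conj_inj`: uses the homomorphism `G → ℤ` counting `x` for `e = e'`.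
* `GG_inj`, `hh_inj`: representation `κ : G → Perm ℚ`, `a ↦ (t ↦ t + 1/4)`, `b ↦ (t ↦ 2t - 3/4)`, other
  letters `↦ 1`: `κ(gg i) = (t ↦ 2t + i)`, `κ(GG m) = (t ↦ 2^m t + (m-1) 2^m + 1)`,
  `κ(GG l (GG m)⁻¹) = (t ↦ 2^(l-m) t + (l-m) 2^l + 1 - 2^(l-m))`.
-/

set_option autoImplicit false
set_option linter.unusedSectionVars false

namespace Crest.Agent.R134

variable {ι : Type} [DecidableEq ι] {ia ib ix : ι}

/-- translation by `1/4` -/
def kapA : Equiv.Perm ℚ where
  toFun t := t + 1 / 4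
  invFun t := t - 1 / 4
  left_inv t := by ring
  right_inv t := by ring

/-- `t ↦ 2 t - 3/4` -/
def kapB : Equiv.Perm ℚ where
  toFun t := 2 * t - 3 / 4
  invFun t := (t + 3 / 4) / 2
  left_inv t := by ring
  right_inv t := by ring

theorem kapA_apply (t : ℚ) : kapA t = t + 1 / 4 := rfl

theorem kapB_apply (t : ℚ) : kapB t = 2 * t - 3 / 4 := rfl

theorem kapA_pow (n : ℕ) (t : ℚ) : (kapA ^ n) t = t + n / 4 := by
  induction n with
  | zero => simp
  | succ n ih =>
    rw [pow_succ', Equiv.Perm.mul_apply, ih, kapA_apply]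
    push_cast
    ring

/-- the representation by affine maps of `ℚ`: `G_m` acts as `t ↦ 2^m t + (m-1) 2^m + 1` -/
theorem exists_kappa (hab : ia ≠ ib) :
    ∃ κ : FreeGroup ι →* Equiv.Perm ℚ, ∀ (m : ℕ) (t : ℚ),
      κ (GG ia ib m) t = 2 ^ m * t + (((m : ℚ) - 1) * 2 ^ m + 1) := by
  let κ : FreeGroup ι →* Equiv.Perm ℚ := FreeGroup.lift
    (fun i => if i = ia then kapA else if i = ib then kapB else 1)
  have hA : κ (FreeGroup.of ia) = kapA := by
    simp only [κ, FreeGroup.lift_apply_of, if_true]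
  have hB : κ (FreeGroup.of ib) = kapB := by
    simp only [κ, FreeGroup.lift_apply_of, if_true, if_neg (Ne.symm hab)]
  have hg : ∀ (i : ℕ) (t : ℚ), κ (gg ia ib i) t = 2 * t + i := by
    intro i t
    unfold gg
    rw [map_mul, map_mul, map_pow, hA, hB, Equiv.Perm.mul_apply, Equiv.Perm.mul_apply,
      kapA_pow, kapA_apply, kapB_apply]
    push_cast
    ring
  refine ⟨κ, fun m => ?_⟩
  induction m with
  | zero =>
    intro t
    show κ 1 t = _
    rw [map_one, Equiv.Perm.one_apply]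
    simp
  | succ m ih =>
    intro t
    show κ (GG ia ib m * gg ia ib (m + 1)) t = _
    rw [map_mul, Equiv.Perm.mul_apply, ih, hg]
    push_cast
    ring

theorem GG_inj (hab : ia ≠ ib) (l m : ℕ) (h : GG ia ib l = GG ia ib m) : l = m := by
  obtain ⟨κ, hκ⟩ := exists_kappa hab
  have h0 := hκ l 0
  have h1 := hκ l 1
  rw [h, hκ] at h0 h1
  have h2 : (2 : ℚ) ^ m = 2 ^ l := by linarith
  have h3 : (2 : ℕ) ^ m = 2 ^ l := by exact_mod_cast h2
  exact (Nat.pow_right_injective (le_refl 2) h3).symm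

theorem hh_inj (hab : ia ≠ ib) (l m l' m' : ℕ) (h1 : l ≠ m) (h2 : l' ≠ m')
    (h : GG ia ib l * (GG ia ib m)⁻¹ = GG ia ib l' * (GG ia ib m')⁻¹) : l = l' ∧ m = m' := by
  obtain ⟨κ, hκ⟩ := exists_kappa hab
  have hinv : ∀ (m : ℕ) (t : ℚ), (κ (GG ia ib m))⁻¹ t = (t - (((m : ℚ) - 1) * 2 ^ m + 1)) / 2 ^ m := by
    intro m t
    rw [Equiv.Perm.inv_eq_iff_eq, hκ]
    have : (2 : ℚ) ^ m ≠ 0 := by positivity
    field_simp
    ring
  have hval : ∀ (l m : ℕ) (t : ℚ), κ (GG ia ib l * (GG ia ib m)⁻¹) t =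
      2 ^ l / 2 ^ m * t + (((l : ℚ) - m) * 2 ^ l + 1 - 2 ^ l / 2 ^ m) := by
    intro l m t
    rw [map_mul, map_inv, Equiv.Perm.mul_apply, hinv, hκ]
    have : (2 : ℚ) ^ m ≠ 0 := by positivity
    field_simp
    ring
  have e0 := hval l m 0
  have e1 := hval l m 1
  rw [h, hval] at e0 e1
  have hq : (2 : ℚ) ^ l' / 2 ^ m' = 2 ^ l / 2 ^ m := by linarith
  have hz : ((l' : ℚ) - m') * 2 ^ l' = ((l : ℚ) - m) * 2 ^ l := by linarith
  have hq2 : (2 : ℚ) ^ (l' + m) = 2 ^ (l + m') := by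
    rw [div_eq_div_iff (by positivity) (by positivity)] at hq
    rw [pow_add, pow_add]
    exact hq
  have hq3 : (2 : ℕ) ^ (l' + m) = 2 ^ (l + m') := by exact_mod_cast hq2
  have hq4 : l' + m = l + m' := Nat.pow_right_injective (le_refl 2) hq3
  have hq5 : (l' : ℚ) - m' = (l : ℚ) - m := by
    have : (l' : ℚ) + m = l + m' := by exact_mod_cast hq4
    linarith
  rw [hq5] at hz
  have hne : (l : ℚ) - m ≠ 0 := by
    intro h0
    apply h1
    have : (l : ℚ) = m := by linarith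
    exact_mod_cast this
  have hp : (2 : ℚ) ^ l' = 2 ^ l := mul_left_cancel₀ hne hz
  have hp2 : (2 : ℕ) ^ l' = 2 ^ l := by exact_mod_cast hp
  have hp3 : l' = l := Nat.pow_right_injective (le_refl 2) hp2
  omega

end Crest.Agent.R134
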