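import Crest.Agent.R134.DAlg

/-!
# Row 134, part (A2): `D` preserves `ℂ[H]`, `H = ⟨x, a^4, a b a⟩`

`g_i = a^(4i) (a b a) ∈ H`, so `r, z ∈ H`.  `D x = (x r⁻¹ x - r)/2`, `D a = 0`, `D(a b a) = a c(b) a⁻¹ (a b a)` and
`a c(b) a⁻¹ = (1/n) ∑ Y(a b a G_m⁻¹)`.  Then closure induction with Leibniz: `dg_mul`, `dg_inv`.
-/

set_option autoImplicit false
set_option linter.unusedSectionVars false
open Crest.OpAlg

namespace Crest.Agent.R134

variable {ι : Type} [DecidableEq ι] {ia ib ix : ι}

theorem GG_mem_HH (m : ℕ) : GG ia ib m ∈ HH ia ib ix := by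
  have ha4 : FreeGroup.of ia ^ 4 ∈ HH ia ib ix :=
    Subgroup.subset_closure (by simp)
  have haba : FreeGroup.of ia * FreeGroup.of ib * FreeGroup.of ia ∈ HH ia ib ix :=
    Subgroup.subset_closure (by simp)
  induction m with
  | zero => exact one_mem _
  | succ m ih =>
    rw [GG]
    refine mul_mem ih ?_
    have : gg ia ib (m + 1) = (FreeGroup.of ia ^ 4) ^ (m + 1) *
        (FreeGroup.of ia * FreeGroup.of ib * FreeGroup.of ia) := by
      rw [gg, pow_succ, pow_mul]
      simp only [mul_assoc]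
    rw [this]
    exact mul_mem (pow_mem ha4 _) haba

namespace DHAux

/-- membership in `ℂ[H]` -/
def InS (S : Subgroup (FreeGroup ι)) (p : MonoidAlgebra ℂ (FreeGroup ι)) : Prop :=
  ∀ h, h ∉ S → p.coeff h = 0

theorem InS.add {S : Subgroup (FreeGroup ι)} {p q : MonoidAlgebra ℂ (FreeGroup ι)}
    (hp : InS S p) (hq : InS S q) : InS S (p + q) := by
  intro h hh
  rw [MonoidAlgebra.coeff_add, Finsupp.add_apply, hp h hh, hq h hh, add_zero]

theorem InS.smul {S : Subgroup (FreeGroup ι)} {p : MonoidAlgebra ℂ (FreeGroup ι)} (c : ℂ)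
    (hp : InS S p) : InS S (c • p) := by
  intro h hh
  rw [MonoidAlgebra.coeff_smul, Finsupp.smul_apply, hp h hh, smul_zero]

theorem InS.neg {S : Subgroup (FreeGroup ι)} {p : MonoidAlgebra ℂ (FreeGroup ι)}
    (hp : InS S p) : InS S (-p) := by
  rw [← neg_one_smul ℂ p]
  exact hp.smul _

theorem InS.sub {S : Subgroup (FreeGroup ι)} {p q : MonoidAlgebra ℂ (FreeGroup ι)}
    (hp : InS S p) (hq : InS S q) : InS S (p - q) := by
  rw [sub_eq_add_neg]
  exact hp.add hq.neg

theorem InS.zero {S : Subgroup (FreeGroup ι)} : InS S (0 : MonoidAlgebra ℂ (FreeGroup ι)) := by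
  intro h _
  simp

theorem InS.sum {S : Subgroup (FreeGroup ι)} {α : Type} (s : Finset α)
    (f : α → MonoidAlgebra ℂ (FreeGroup ι)) (hf : ∀ i ∈ s, InS S (f i)) :
    InS S (∑ i ∈ s, f i) := by
  classical
  induction s using Finset.induction_on with
  | empty => simpa using InS.zero
  | insert a s ha ih =>
    rw [Finset.sum_insert ha]
    exact (hf a (Finset.mem_insert_self _ _)).add
      (ih fun i hi => hf i (Finset.mem_insert_of_mem hi))

theorem InS.mul {S : Subgroup (FreeGroup ι)} {p q : MonoidAlgebra ℂ (FreeGroup ι)}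
    (hp : InS S p) (hq : InS S q) : InS S (p * q) := by
  intro h hh
  rw [MonoidAlgebra.coeff_mul]
  unfold Finsupp.sum
  apply Finset.sum_eq_zero
  intro m₁ h₁
  apply Finset.sum_eq_zero
  intro m₂ h₂
  beta_reduce
  rw [if_neg]
  rintro rfl
  have k₁ : m₁ ∈ S := by
    by_contra hc
    exact (Finsupp.mem_support_iff.mp h₁) (hp _ hc)
  have k₂ : m₂ ∈ S := by
    by_contra hc
    exact (Finsupp.mem_support_iff.mp h₂) (hq _ hc)
  exact hh (mul_mem k₁ k₂)

theorem InS.E {S : Subgroup (FreeGroup ι)} {g : FreeGroup ι} (hg : g ∈ S) : InS S (E g) := by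
  intro h hh
  unfold R134.E
  rw [MonoidAlgebra.coeff_single, Finsupp.single_apply, if_neg]
  rintro rfl
  exact hh hg

theorem InS.Yc (n : ℕ) {h : FreeGroup ι} (hh : h ∈ HH ia ib ix) :
    InS (HH ia ib ix) (Yc ia ib ix n h) := by
  have hx : FreeGroup.of ix ∈ HH ia ib ix := Subgroup.subset_closure (by simp)
  have hz : zz ia ib ix n ∈ HH ia ib ix := mul_mem hx (inv_mem (GG_mem_HH n))
  unfold R134.Yc
  apply InS.smul
  exact (InS.E (mul_mem (mul_mem hh hz) (inv_mem hh))).sub
    (InS.E (mul_mem (mul_mem hh (inv_mem hz)) (inv_mem hh)))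

end DHAux

open DHAux in
theorem Af_HH (hab : ia ≠ ib) (hax : ia ≠ ix) (hbx : ib ≠ ix) (n : ℕ) (g : FreeGroup ι)
    (hg : g ∈ HH ia ib ix) (h : FreeGroup ι) (hh : (dg (Af ia ib ix n) g).coeff h ≠ 0) :
    h ∈ HH ia ib ix := by
  suffices H : InS (HH ia ib ix) (dg (Af ia ib ix n) g) by
    by_contra hc
    exact hh (H h hc)
  clear hh h
  have hx : FreeGroup.of ix ∈ HH ia ib ix := Subgroup.subset_closure (by simp)
  have haba : FreeGroup.of ia * FreeGroup.of ib * FreeGroup.of ia ∈ HH ia ib ix :=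
    Subgroup.subset_closure (by simp)
  induction hg using Subgroup.closure_induction with
  | mem g hg =>
    simp only [Set.mem_insert_iff, Set.mem_singleton_iff] at hg
    have hda : dg (Af ia ib ix n) (FreeGroup.of ia) = 0 := by
      rw [dg_of, Af_other n ia hab hax, zero_mul]
    rcases hg with rfl | rfl | rfl
    · rw [dg_of]
      refine InS.mul ?_ (InS.E hx)
      unfold Af
      rw [if_pos rfl]
      exact InS.Yc n (one_mem _)
    · have : ∀ k : ℕ, dg (Af ia ib ix n) (FreeGroup.of ia ^ k) = 0 := by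
        intro k
        induction k with
        | zero => rw [pow_zero, dg_one]
        | succ k ih => rw [pow_succ, dg_mul, ih, hda, zero_mul, mul_zero, add_zero]
      rw [this]
      exact InS.zero
    · rw [dg_mul, dg_mul, hda, mul_zero, zero_mul, zero_add, add_zero, dg_of]
      unfold Af
      rw [if_neg hbx, if_pos rfl]
      have key : E (FreeGroup.of ia) * ((1 / (n : ℂ)) • ∑ m ∈ Finset.range n,
            Yc ia ib ix n (FreeGroup.of ib * FreeGroup.of ia * (GG ia ib (m + 1))⁻¹) *
              E (FreeGroup.of ib)) * E (FreeGroup.of ia)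
          = ((1 / (n : ℂ)) • ∑ m ∈ Finset.range n,
            Yc ia ib ix n (FreeGroup.of ia * FreeGroup.of ib * FreeGroup.of ia *
              (GG ia ib (m + 1))⁻¹)) *
              E (FreeGroup.of ia * FreeGroup.of ib * FreeGroup.of ia) := by
        rw [mul_smul_comm, smul_mul_assoc, smul_mul_assoc, Finset.mul_sum, Finset.sum_mul,
          Finset.sum_mul]
        congr 1
        apply Finset.sum_congr rfl
        intro m _
        rw [show FreeGroup.of ia * FreeGroup.of ib * FreeGroup.of ia * (GG ia ib (m + 1))⁻¹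
          = FreeGroup.of ia * (FreeGroup.of ib * FreeGroup.of ia * (GG ia ib (m + 1))⁻¹) by
            simp only [mul_assoc],
          ← Yc_conj n (FreeGroup.of ia) (FreeGroup.of ib * FreeGroup.of ia * (GG ia ib (m + 1))⁻¹)]
        have hinv : E (FreeGroup.of ia)⁻¹ * E (FreeGroup.of ia)
            = (1 : MonoidAlgebra ℂ (FreeGroup ι)) := by
          rw [← E_mul, inv_mul_cancel, E_one]
        generalize Yc ia ib ix n (FreeGroup.of ib * FreeGroup.of ia * (GG ia ib (m + 1))⁻¹) = Y
        rw [E_mul, E_mul]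
        simp only [mul_assoc]
        rw [← mul_assoc (E (FreeGroup.of ia)⁻¹) (E (FreeGroup.of ia)), hinv, one_mul]
      have hrew : (1 / (n : ℂ)) • (∑ m ∈ Finset.range n,
            Yc ia ib ix n (FreeGroup.of ib * FreeGroup.of ia * (GG ia ib (m + 1))⁻¹)) *
              E (FreeGroup.of ib) = (1 / (n : ℂ)) • ∑ m ∈ Finset.range n,
            Yc ia ib ix n (FreeGroup.of ib * FreeGroup.of ia * (GG ia ib (m + 1))⁻¹) *
              E (FreeGroup.of ib) := by
        rw [smul_mul_assoc, Finset.sum_mul]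
      rw [hrew, key]
      refine InS.mul (InS.smul _ (InS.sum _ _ ?_)) (InS.E haba)
      intro m _
      exact InS.Yc n (mul_mem haba (inv_mem (GG_mem_HH _)))
  | one => rw [dg_one]; exact InS.zero
  | mul g h hg hh ihg ihh =>
    rw [dg_mul]
    exact (ihg.mul (InS.E hh)).add ((InS.E hg).mul ihh)
  | inv g hg ihg =>
    rw [dg_inv]
    exact (((InS.E (inv_mem hg)).mul ihg).mul (InS.E (inv_mem hg))).neg

end Crest.Agent.R134
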