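import Crest.Agent.R134.DAlg
import Crest.Agent.R134.DComb

/-!
# Row 134, part (A2): norms

`‖vec D b‖² = 1/(2n)`, `‖vec D x‖ ≤ 1`, `‖vec D r‖ ≤ 1`, `‖vec D² x‖ ≤ 2`.
`‖vec (p * E g)‖ = ‖vec p‖ = ‖vec (E g * p)‖`.  `D g = c(g) g`, so `‖D g‖ = ‖c(g)‖`.
`c(b) = (1/n) ∑_{m<n} (1/2)(δ_{h_m z h_m⁻¹} - δ_{h_m z⁻¹ h_m⁻¹})`, `h_m = b a G_{m+1}⁻¹`: `2n` distinct elements
(`zz_conj_inj`, `zz_conj_ne`, `GG_inj`).  `c(r)` by `cc_r`: distinct elements by `hh_inj` (and `≠ 1`), so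
`‖c(r)‖² ≤ 1/2 + n(n-1)/(2 n²) ≤ 1`.
`D² x = (1/2) (D(x r⁻¹ x) - D r)`, `D(x r⁻¹ x) = Dx r⁻¹ x - x r⁻¹ (Dr) r⁻¹ x + x r⁻¹ Dx`, so
`‖D² x‖ ≤ ‖Dx‖ + ‖Dr‖ ≤ 2`.
-/

set_option autoImplicit false
set_option linter.unusedSectionVars false
open Crest.OpAlg

namespace Crest.Agent.R134

variable {G : Type} [Group G] [DecidableEq G]

/-- Pythagoras for distinct basis vectors -/
theorem norm_sq_sum_dl {α : Type} (s : Finset α) (f : α → G) (c : α → ℂ)
    (hf : ∀ i ∈ s, ∀ j ∈ s, f i = f j → i = j) :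
    ‖∑ i ∈ s, c i • dl (f i)‖ ^ 2 = ∑ i ∈ s, ‖c i‖ ^ 2 := by
  classical
  induction s using Finset.induction_on with
  | empty => simp
  | insert a s ha ih =>
    rw [Finset.sum_insert ha, Finset.sum_insert ha]
    have h0 : inner ℂ (c a • dl (f a)) (∑ i ∈ s, c i • dl (f i)) = 0 := by
      rw [inner_smul_left, inner_sum]
      rw [Finset.sum_eq_zero, mul_zero]
      intro i hi
      rw [inner_smul_right, inner_dl, dl_apply, if_neg, mul_zero]
      intro h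
      exact ha (hf a (Finset.mem_insert_self _ _) i (Finset.mem_insert_of_mem hi) h ▸ hi)
    have h1 := norm_add_sq_eq_norm_sq_add_norm_sq_of_inner_eq_zero _ _ h0
    rw [← pow_two, ← pow_two, ← pow_two] at h1
    rw [h1, ih fun i hi j hj => hf i (Finset.mem_insert_of_mem hi) j (Finset.mem_insert_of_mem hj),
      norm_smul, norm_dl, mul_one]

theorem norm_vec_mul_E (p : MonoidAlgebra ℂ G) (g : G) : ‖vec (p * E g)‖ = ‖vec p‖ := by
  have h1 : vec (p * E g) = rr g⁻¹ (vec p) := by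
    rw [← lam_vec, vec_E, ← lam_dl_one p]
    have h2 : dl g = rr g⁻¹ (dl 1) := by rw [rr_dl]; simp
    rw [h2, lam, Finsupp.sum, ContinuousLinearMap.sum_apply, ContinuousLinearMap.sum_apply, map_sum]
    refine Finset.sum_congr rfl fun h _ => ?_
    rw [ContinuousLinearMap.smul_apply, ContinuousLinearMap.smul_apply, map_smul, leftRegular_rr]
  rw [h1, norm_rr]

theorem norm_vec_E_mul (p : MonoidAlgebra ℂ G) (g : G) : ‖vec (E g * p)‖ = ‖vec p‖ := by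
  rw [← lam_vec, lam_E, norm_leftRegular]

end Crest.Agent.R134
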