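import Crest.Agent.R134.DAlg
import Crest.Agent.R134.DComb
import Crest.Agent.R134.DNormA

/-!
# Row 134, part (A2): norms

`‖vec D b‖² = 1/(2n)`, `‖vec D x‖ ≤ 1`, `‖vec D r‖ ≤ 1`, `‖vec D² x‖ ≤ 2`.
`‖vec (p * E g)‖ = ‖vec p‖ = ‖vec (E g * p)‖`.  `D g = c(g) g`, so `‖D g‖ = ‖c(g)‖`.
`c(b) = (1/n) ∑_{m<n} (1/2)(δ_{h_m z h_m⁻¹} - δ_{h_m z⁻¹ h_m⁻¹})`, `h_m = b a G_{m+1}⁻¹`: `2n` distinct elements
(`zz_conj_inj`, `zz_conj_ne`, `GG_inj`).  `c(r)` by `cc_r`: distinct elements by `hh_inj` (and `≠ 1`), so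
`‖c(r)‖² ≤ 1/2 + n(n-1)/(2 n²) ≤ 1`.
`D² x = (1/2) (D(x r⁻¹ x) - D r)`, `D(x r⁻¹ x) = Dx r⁻¹ x - x r⁻¹ (Dr) r⁻¹ x + x r⁻¹ Dx`, so
`‖D² x‖ ≤ ‖Dx‖ + ‖Dr‖ ≤ 2`.
-/

set_option autoImplicit false
set_option linter.unusedSectionVars false
open Crest.OpAlg

namespace Crest.Agent.R134

variable {ι : Type} [DecidableEq ι] {ia ib ix : ι}

/-- norm of an average of `Y(h_i)` over distinct elements `h_i` of degree 0 -/
theorem norm_sum_Yc (hax : ia ≠ ix) (hbx : ib ≠ ix) (n : ℕ) {α : Type} (s : Finset α)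
    (f : α → FreeGroup ι) (hf : ∀ i ∈ s, ∀ j ∈ s, f i = f j → i = j)
    (hd : ∀ i ∈ s, deg ix (f i) = 0) :
    ‖vec (∑ i ∈ s, Yc ia ib ix n (f i))‖ ^ 2 = (s.card : ℝ) / 2 := by
  classical
  set z := zz ia ib ix n with hz
  have hv : vec (∑ i ∈ s, Yc ia ib ix n (f i)) =
      ∑ p ∈ s ×ˢ (Finset.univ : Finset Bool), (if p.2 then (1 / 2 : ℂ) else -(1 / 2 : ℂ)) •
        dl (if p.2 then f p.1 * z * (f p.1)⁻¹ else f p.1 * z⁻¹ * (f p.1)⁻¹) := by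
    rw [Finset.sum_product, vec_sum]
    refine Finset.sum_congr rfl fun i _ => ?_
    rw [Fintype.sum_bool, Yc, vec_smul, sub_eq_add_neg, vec_add]
    have h1 : -E (f i * z⁻¹ * (f i)⁻¹) = (-1 : ℂ) • E (f i * z⁻¹ * (f i)⁻¹) := by
      rw [neg_smul, one_smul]
    rw [h1, vec_smul, vec_E, vec_E, smul_add]
    simp [← hz]
  rw [hv, norm_sq_sum_dl]
  · rw [Finset.sum_product]
    simp only [Fintype.sum_bool]
    simp
    ring
  · rintro ⟨i, b⟩ hi ⟨j, b'⟩ hj h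
    simp only [Finset.mem_product, Finset.mem_univ, and_true] at hi hj
    cases b <;> cases b' <;> simp only [if_true, if_false, Bool.false_eq_true] at h
    · have h2 : f i * z * (f i)⁻¹ = f j * z * (f j)⁻¹ := by
        have := congrArg (·⁻¹) h
        simpa [mul_assoc] using this
      rw [hf i hi j hj (zz_conj_inj hax hbx n _ _ (hd i hi) (hd j hj) h2)]
    · exact absurd h.symm (zz_conj_ne hax hbx n _ _)
    · exact absurd h (zz_conj_ne hax hbx n _ _)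
    · rw [hf i hi j hj (zz_conj_inj hax hbx n _ _ (hd i hi) (hd j hj) h)]

theorem norm_der_b (hab : ia ≠ ib) (hax : ia ≠ ix) (hbx : ib ≠ ix) (n : ℕ) (hn : 1 ≤ n) :
    ‖vec (der (Af ia ib ix n) (E (FreeGroup.of ib)))‖ ^ 2 = 1 / (2 * n) := by
  have hn0 : (n : ℝ) ≠ 0 := by exact_mod_cast (by omega : n ≠ 0)
  rw [der_E, dg_of, norm_vec_mul_E, Af, if_neg hbx, if_pos rfl, vec_smul, norm_smul, mul_pow,
    norm_sum_Yc hax hbx n (Finset.range n)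
      (fun m => FreeGroup.of ib * FreeGroup.of ia * (GG ia ib (m + 1))⁻¹)]
  · rw [Finset.card_range, norm_div, norm_one, Complex.norm_natCast]
    field_simp
  · intro i _ j _ h
    have h1 := mul_left_cancel h
    have h2 := GG_inj hab _ _ (inv_injective h1)
    omega
  · intro i _
    rw [mul_assoc, deg_mul_left (ix := ix) (deg_of_ne (ix := ix) hbx),
      deg_mul_left (ix := ix) (deg_of_ne (ix := ix) hax), deg_inv, deg_GG hax hbx]

end Crest.Agent.R134
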