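import Crest.Agent.R134.DAlg
import Crest.Agent.R134.DComb
import Crest.Agent.R134.DNormB

/-!
# Row 134, part (A2): norms

`‖vec D b‖² = 1/(2n)`, `‖vec D x‖ ≤ 1`, `‖vec D r‖ ≤ 1`, `‖vec D² x‖ ≤ 2`.
`‖vec (p * E g)‖ = ‖vec p‖ = ‖vec (E g * p)‖`.  `D g = c(g) g`, so `‖D g‖ = ‖c(g)‖`.
`c(b) = (1/n) ∑_{m<n} (1/2)(δ_{h_m z h_m⁻¹} - δ_{h_m z⁻¹ h_m⁻¹})`, `h_m = b a G_{m+1}⁻¹`: `2n` distinct elements
(`zz_conj_inj`, `zz_conj_ne`, `GG_inj`).  `c(r)` by `cc_r`: distinct elements by `hh_inj` (and `≠ 1`), so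
`‖c(r)‖² ≤ 1/2 + n(n-1)/(2 n²) ≤ 1`.
`D² x = (1/2) (D(x r⁻¹ x) - D r)`, `D(x r⁻¹ x) = Dx r⁻¹ x - x r⁻¹ (Dr) r⁻¹ x + x r⁻¹ Dx`, so
`‖D² x‖ ≤ ‖Dx‖ + ‖Dr‖ ≤ 2`.
-/

set_option autoImplicit false
set_option linter.unusedSectionVars false
open Crest.OpAlg

namespace Crest.Agent.R134

variable {ι : Type} [DecidableEq ι] {ia ib ix : ι}

theorem vec_neg' {G : Type} [Group G] [DecidableEq G] (p : MonoidAlgebra ℂ G) :
    vec (-p) = -vec p := by
  have := vec_smul (-1 : ℂ) p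
  rwa [neg_one_smul, neg_one_smul] at this

theorem norm_der_x (hax : ia ≠ ix) (hbx : ib ≠ ix) (n : ℕ) :
    ‖vec (der (Af ia ib ix n) (E (FreeGroup.of ix)))‖ ≤ 1 := by
  rw [der_x, vec_smul, Fl.vec_sub, vec_E, vec_E, norm_smul]
  have h1 := norm_sub_le (dl (FreeGroup.of ix * (GG ia ib n)⁻¹ * FreeGroup.of ix))
    (dl (GG ia ib n))
  rw [norm_dl, norm_dl] at h1
  have h2 : ‖(1 / 2 : ℂ)‖ = 1 / 2 := by simp
  rw [h2]
  linarith

theorem offDiag_sum {M : Type} [AddCommMonoid M] (n : ℕ) (F : ℕ → ℕ → M) :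
    ∑ j ∈ Finset.range n, ∑ m ∈ (Finset.range n).erase j, F j m =
      ∑ p ∈ (Finset.range n).offDiag, F p.1 p.2 := by
  have h1 : (Finset.range n).offDiag =
      (Finset.range n ×ˢ Finset.range n).filter (fun p => p.2 ≠ p.1) := by
    ext p
    simp only [Finset.mem_offDiag, Finset.mem_filter, Finset.mem_product]
    constructor
    · rintro ⟨a, b, c⟩; exact ⟨⟨a, b⟩, c.symm⟩
    · rintro ⟨⟨a, b⟩, c⟩; exact ⟨a, b, c.symm⟩
  rw [h1, Finset.sum_filter, Finset.sum_product]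
  refine Finset.sum_congr rfl fun j _ => ?_
  rw [← Finset.filter_ne', Finset.sum_filter]

theorem norm_der_r (hab : ia ≠ ib) (hax : ia ≠ ix) (hbx : ib ≠ ix) (n : ℕ) (hn : 1 ≤ n) :
    ‖vec (der (Af ia ib ix n) (E (GG ia ib n)))‖ ≤ 1 := by
  rw [der_E, dg_eq_cc, norm_vec_mul_E, cc_r hab hax hbx n hn, offDiag_sum]
  set f : ℕ × ℕ → FreeGroup ι := fun p => GG ia ib (p.1 + 1) * (GG ia ib (p.2 + 1))⁻¹ with hf
  have hdeg : ∀ p, deg ix (f p) = 0 := by
    intro p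
    simp only [hf]
    rw [deg_mul_left ix (deg_GG hax hbx _), deg_inv]
    exact deg_GG hax hbx _
  have h00 : f (0, 0) = 1 := by simp [hf]
  have hne1 : ∀ p ∈ (Finset.range n).offDiag, f p ≠ 1 := by
    intro p hp h
    have h2 := GG_inj hab _ _ (mul_inv_eq_one.1 h)
    exact (Finset.mem_offDiag.1 hp).2.2 (by omega)
  have hinj : ∀ p ∈ (Finset.range n).offDiag, ∀ q ∈ (Finset.range n).offDiag,
      f p = f q → p = q := by
    intro p hp q hq h
    have e1 := (Finset.mem_offDiag.1 hp).2.2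
    have e2 := (Finset.mem_offDiag.1 hq).2.2
    obtain ⟨a, b⟩ := hh_inj hab _ _ _ _ (by omega) (by omega) h
    exact Prod.ext (by omega) (by omega)
  have h0n : ((0 : ℕ), (0 : ℕ)) ∉ (Finset.range n).offDiag := by
    intro h
    exact (Finset.mem_offDiag.1 h).2.2 rfl
  have hinj2 : ∀ p ∈ insert ((0 : ℕ), (0 : ℕ)) (Finset.range n).offDiag,
      ∀ q ∈ insert ((0 : ℕ), (0 : ℕ)) (Finset.range n).offDiag, f p = f q → p = q := by
    intro p hp q hq h
    rcases Finset.mem_insert.1 hp with rfl | hp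
    · rcases Finset.mem_insert.1 hq with rfl | hq
      · rfl
      · exact absurd (h.symm.trans h00) (hne1 q hq)
    · rcases Finset.mem_insert.1 hq with rfl | hq
      · exact absurd (h.trans h00) (hne1 p hp)
      · exact hinj p hp q hq h
  have hcard : ((Finset.range n).offDiag.card : ℝ) = (n : ℝ) * n - n := by
    rw [Finset.offDiag_card, Finset.card_range, Nat.cast_sub (Nat.le_mul_self n)]
    push_cast
    ring
  have k1 := norm_sum_Yc hax hbx n (Finset.range n).offDiag f hinj fun p _ => hdeg p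
  have k2 := norm_sum_Yc hax hbx n (insert ((0 : ℕ), (0 : ℕ)) (Finset.range n).offDiag) f hinj2
    fun p _ => hdeg p
  have k3 := norm_sum_Yc hax hbx n ({((0 : ℕ), (0 : ℕ))} : Finset (ℕ × ℕ)) f
    (by
      intro p hp q hq _
      rw [Finset.mem_singleton] at hp hq
      rw [hp, hq]) fun p _ => hdeg p
  rw [Finset.sum_insert h0n, Finset.card_insert_of_notMem h0n, h00, vec_add] at k2
  rw [Finset.sum_singleton, Finset.card_singleton, h00] at k3
  set a := vec (Yc ia ib ix n 1) with ha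
  set S := vec (∑ p ∈ (Finset.range n).offDiag, Yc ia ib ix n (f p)) with hS
  rw [vec_add, vec_smul]
  have q1 := @norm_add_sq ℂ _ _ _ _ a S
  have q2 := @norm_add_sq ℂ _ _ _ _ a ((1 / (n : ℂ)) • S)
  have hn0 : (0 : ℝ) < n := by exact_mod_cast hn
  have q3 : RCLike.re (inner ℂ a S) = 0 := by
    rw [k2, k3, k1] at q1
    push_cast at q1
    linarith
  have q4 : RCLike.re (inner ℂ a ((1 / (n : ℂ)) • S)) = 0 := by
    rw [inner_smul_right]
    have : (1 / (n : ℂ)) = ((1 / (n : ℝ) : ℝ) : ℂ) := by push_cast; rfl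
    rw [this]
    have h := RCLike.re_ofReal_mul (K := ℂ) (1 / (n : ℝ)) (inner ℂ a S)
    rw [q3, mul_zero] at h
    exact h
  have q5 : ‖(1 / (n : ℂ)) • S‖ ^ 2 = 1 / (n : ℝ) ^ 2 * (((n : ℝ) * n - n) / 2) := by
    rw [norm_smul, mul_pow, k1, hcard]
    congr 1
    rw [norm_div, norm_one, Complex.norm_natCast, div_pow, one_pow]
  rw [q4, q5, k3] at q2
  have hle : 1 / (n : ℝ) ^ 2 * (((n : ℝ) * n - n) / 2) ≤ 1 / 2 := by
    rw [div_mul_eq_mul_div, one_mul, div_le_iff₀ (by positivity)]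
    nlinarith
  have hfin : ‖a + (1 / (n : ℂ)) • S‖ ^ 2 ≤ 1 := by
    rw [q2]
    push_cast
    linarith
  exact (sq_le_one_iff₀ (norm_nonneg _)).1 hfin

theorem norm_der_der_x (hab : ia ≠ ib) (hax : ia ≠ ix) (hbx : ib ≠ ix) (n : ℕ) (hn : 1 ≤ n) :
    ‖vec (der (Af ia ib ix n) (der (Af ia ib ix n) (E (FreeGroup.of ix))))‖ ≤ 2 := by
  have hx := norm_der_x (ia := ia) (ib := ib) hax hbx n
  have hr := norm_der_r hab hax hbx n hn
  rw [der_E] at hx hr
  rw [der_x, map_smul, map_sub, der_E, der_E, vec_smul, Fl.vec_sub, norm_smul]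
  have h2 : ‖(1 / 2 : ℂ)‖ = 1 / 2 := by simp
  rw [h2]
  set r := GG ia ib n with hrdef
  set A := Af ia ib ix n with hA
  have e1 : dg A (FreeGroup.of ix * r⁻¹ * FreeGroup.of ix) =
      dg A (FreeGroup.of ix) * E r⁻¹ * E (FreeGroup.of ix)
        + -(E (FreeGroup.of ix) * (E r⁻¹ * (dg A r * E r⁻¹)) * E (FreeGroup.of ix))
        + E (FreeGroup.of ix * r⁻¹) * dg A (FreeGroup.of ix) := by
    rw [dg_mul, dg_mul, dg_inv]
    simp only [mul_neg, add_mul, neg_mul, mul_assoc]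
  have n1 : ‖vec (dg A (FreeGroup.of ix) * E r⁻¹ * E (FreeGroup.of ix))‖ ≤ 1 := by
    rw [norm_vec_mul_E, norm_vec_mul_E]; exact hx
  have n2 : ‖vec (-(E (FreeGroup.of ix) * (E r⁻¹ * (dg A r * E r⁻¹)) * E (FreeGroup.of ix)))‖
      ≤ 1 := by
    rw [vec_neg', norm_neg, norm_vec_mul_E, norm_vec_E_mul, norm_vec_E_mul, norm_vec_mul_E]
    exact hr
  have n3 : ‖vec (E (FreeGroup.of ix * r⁻¹) * dg A (FreeGroup.of ix))‖ ≤ 1 := by
    rw [norm_vec_E_mul]; exact hx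
  have n4 : ‖vec (dg A (FreeGroup.of ix * r⁻¹ * FreeGroup.of ix))‖ ≤ 3 := by
    rw [e1, vec_add, vec_add]
    refine (norm_add_le _ _).trans ?_
    have := norm_add_le (vec (dg A (FreeGroup.of ix) * E r⁻¹ * E (FreeGroup.of ix)))
      (vec (-(E (FreeGroup.of ix) * (E r⁻¹ * (dg A r * E r⁻¹)) * E (FreeGroup.of ix))))
    linarith
  have n5 := norm_sub_le (vec (dg A (FreeGroup.of ix * r⁻¹ * FreeGroup.of ix))) (vec (dg A r))
  linarith

end Crest.Agent.R134
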