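import Crest.Agent.R134.DAlg
import Crest.Agent.R134.DComb

/-!
# Row 134, part (A2): `τ(D g) = 0`, i.e. the coefficient of `D g` at 1 vanishes

`D g = c(g) g`, `c(g)` is a combination of elements `h z^{±1} h⁻¹` (closure under the cocycle rule), so the
coefficient of `D g` at `1` (= that of `c(g)` at `g⁻¹`) vanishes unless `g = h z^{±1} h⁻¹`.  Moreover
`τ(D(h g h⁻¹)) = τ(D g)` (`D(h g h⁻¹) = D(h) g h⁻¹ + h D(g) h⁻¹ - h g h⁻¹ D(h) h⁻¹`, `τ(pq) = τ(qp)`), and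
`τ(D z) = ` coefficient of `c(z)` at `z⁻¹`, `τ(D z⁻¹) = -` coefficient of `c(z)` at `z`; these vanish by `cc_z`:
`z h z^{±1} h⁻¹ z⁻¹ = z^{±1}` would give (`zz_conj_inj`, `zz_conj_ne`) `h = G_l G_m⁻¹ = 1`, `l = m`.
-/

set_option autoImplicit false
set_option linter.unusedSectionVars false

namespace Crest.Agent.R134

variable {ι : Type} [DecidableEq ι] (A : ι → MonoidAlgebra ℂ (FreeGroup ι))

theorem coeff_mul_E_aux {G : Type} [Group G] (p : MonoidAlgebra ℂ G) (g h : G) :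
    (p * E g).coeff h = p.coeff (h * g⁻¹) := by
  unfold E
  rw [MonoidAlgebra.coeff_mul_single_eq_coeff_mul (h * g⁻¹) (fun m _ => by
    constructor
    · intro H; rw [← H]; group
    · intro H; rw [H]; group), mul_one]

theorem coeff_E_mul_aux {G : Type} [Group G] (p : MonoidAlgebra ℂ G) (g h : G) :
    (E g * p).coeff h = p.coeff (g⁻¹ * h) := by
  unfold E
  rw [MonoidAlgebra.coeff_single_mul_eq_mul_coeff (g⁻¹ * h) (fun m _ => by
    constructor
    · intro H; rw [← H]; group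
    · intro H; rw [H]; group), one_mul]

/-- `τ(D(h g h⁻¹)) = τ(D g)` -/
theorem tau_conj (g h : FreeGroup ι) : (dg A (h * g * h⁻¹)).coeff 1 = (dg A g).coeff 1 := by
  rw [dg_mul, dg_mul, dg_inv]
  rw [mul_neg, ← mul_assoc, ← mul_assoc, ← E_mul, add_mul, MonoidAlgebra.coeff_add,
    MonoidAlgebra.coeff_neg, MonoidAlgebra.coeff_add]
  simp only [Finsupp.add_apply, Finsupp.neg_apply, coeff_mul_E_aux, coeff_E_mul_aux]
  have e1 : (1 : FreeGroup ι) * h⁻¹⁻¹ * g⁻¹ = (h * g * h⁻¹)⁻¹ * (1 * h⁻¹⁻¹) := by group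
  have e2 : h⁻¹ * (1 * h⁻¹⁻¹) = 1 := by group
  rw [e1, e2]
  ring

theorem tau_dg (g : FreeGroup ι) : (dg A g).coeff 1 = (cc A g).coeff g⁻¹ := by
  rw [dg_eq_cc, coeff_mul_E_aux, one_mul]

theorem tau_dg_inv (g : FreeGroup ι) : (dg A g⁻¹).coeff 1 = -(cc A g).coeff g := by
  rw [dg_inv, MonoidAlgebra.coeff_neg, Finsupp.neg_apply, dg_eq_cc, coeff_mul_E_aux,
    coeff_E_mul_aux, coeff_mul_E_aux]
  have : g⁻¹⁻¹ * (1 * g⁻¹⁻¹) * g⁻¹ = g := by group
  rw [this]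

end Crest.Agent.R134
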