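import Crest.Agent.R134.DAlg
import Crest.Agent.R134.DComb
import Crest.Agent.R134.DTauA

/-!
# Row 134, part (A2): `τ(D g) = 0`, i.e. the coefficient of `D g` at 1 vanishes

`D g = c(g) g`, `c(g)` is a combination of elements `h z^{±1} h⁻¹` (closure under the cocycle rule), so the
coefficient of `D g` at `1` (= that of `c(g)` at `g⁻¹`) vanishes unless `g = h z^{±1} h⁻¹`.  Moreover
`τ(D(h g h⁻¹)) = τ(D g)` (`D(h g h⁻¹) = D(h) g h⁻¹ + h D(g) h⁻¹ - h g h⁻¹ D(h) h⁻¹`, `τ(pq) = τ(qp)`), and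
`τ(D z) = ` coefficient of `c(z)` at `z⁻¹`, `τ(D z⁻¹) = -` coefficient of `c(z)` at `z`; these vanish by `cc_z`:
`z h z^{±1} h⁻¹ z⁻¹ = z^{±1}` would give (`zz_conj_inj`, `zz_conj_ne`) `h = G_l G_m⁻¹ = 1`, `l = m`.
-/

set_option autoImplicit false
set_option linter.unusedSectionVars false

namespace Crest.Agent.R134

variable {ι : Type} [DecidableEq ι] {ia ib ix : ι}

/-- support in the conjugates of `z^{±1}` -/
def Sp (ia ib ix : ι) (n : ℕ) (p : MonoidAlgebra ℂ (FreeGroup ι)) : Prop :=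
  ∀ k, p.coeff k ≠ 0 →
    ∃ h, k = h * zz ia ib ix n * h⁻¹ ∨ k = h * (zz ia ib ix n)⁻¹ * h⁻¹

theorem Sp_zero (n : ℕ) : Sp ia ib ix n 0 := fun _ hk => absurd rfl hk

theorem Sp_add {n : ℕ} {p q : MonoidAlgebra ℂ (FreeGroup ι)} (hp : Sp ia ib ix n p)
    (hq : Sp ia ib ix n q) : Sp ia ib ix n (p + q) := by
  intro k hk
  by_cases h1 : p.coeff k = 0
  · by_cases h2 : q.coeff k = 0
    · exfalso
      apply hk
      rw [MonoidAlgebra.coeff_add, Finsupp.add_apply, h1, h2, add_zero]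
    · exact hq k h2
  · exact hp k h1

theorem Sp_smul {n : ℕ} {p : MonoidAlgebra ℂ (FreeGroup ι)} (c : ℂ) (hp : Sp ia ib ix n p) :
    Sp ia ib ix n (c • p) := by
  intro k hk
  apply hp k
  intro h
  apply hk
  rw [MonoidAlgebra.coeff_smul, Finsupp.smul_apply, h, smul_zero]

theorem Sp_neg {n : ℕ} {p : MonoidAlgebra ℂ (FreeGroup ι)} (hp : Sp ia ib ix n p) :
    Sp ia ib ix n (-p) := by
  have := Sp_smul (-1 : ℂ) hp
  rwa [neg_one_smul] at this

theorem Sp_sum {n : ℕ} {α : Type} (s : Finset α) (f : α → MonoidAlgebra ℂ (FreeGroup ι))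
    (hf : ∀ i ∈ s, Sp ia ib ix n (f i)) : Sp ia ib ix n (∑ i ∈ s, f i) := by
  classical
  induction s using Finset.induction_on with
  | empty => exact Sp_zero n
  | insert a s ha ih =>
    rw [Finset.sum_insert ha]
    exact Sp_add (hf a (Finset.mem_insert_self a s))
      (ih fun i hi => hf i (Finset.mem_insert_of_mem hi))

theorem Sp_conj {n : ℕ} {p : MonoidAlgebra ℂ (FreeGroup ι)} (g : FreeGroup ι)
    (hp : Sp ia ib ix n p) : Sp ia ib ix n (E g * p * E g⁻¹) := by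
  intro k hk
  have h1 : p.coeff (g⁻¹ * (k * g)) ≠ 0 := by
    intro h
    apply hk
    unfold E
    rw [MonoidAlgebra.coeff_mul_single_apply, MonoidAlgebra.coeff_single_mul_apply, inv_inv, h]
    simp
  obtain ⟨h, hh | hh⟩ := hp _ h1
  · refine ⟨g * h, Or.inl ?_⟩
    have : k = g * (g⁻¹ * (k * g)) * g⁻¹ := by group
    rw [this, hh]
    group
  · refine ⟨g * h, Or.inr ?_⟩
    have : k = g * (g⁻¹ * (k * g)) * g⁻¹ := by group
    rw [this, hh]
    group

theorem Yc_coeff (n : ℕ) (h k : FreeGroup ι) : (Yc ia ib ix n h).coeff k =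
    (1 / 2 : ℂ) * ((if h * zz ia ib ix n * h⁻¹ = k then 1 else 0)
      - (if h * (zz ia ib ix n)⁻¹ * h⁻¹ = k then 1 else 0)) := by
  unfold Yc E
  rw [MonoidAlgebra.coeff_smul, Finsupp.smul_apply, MonoidAlgebra.coeff_sub, Finsupp.sub_apply]
  simp only [MonoidAlgebra.coeff_single, Finsupp.single_apply, smul_eq_mul]

theorem Sp_Yc (n : ℕ) (h : FreeGroup ι) : Sp ia ib ix n (Yc ia ib ix n h) := by
  intro k hk
  rw [Yc_coeff] at hk
  by_cases h1 : h * zz ia ib ix n * h⁻¹ = k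
  · exact ⟨h, Or.inl h1.symm⟩
  · by_cases h2 : h * (zz ia ib ix n)⁻¹ * h⁻¹ = k
    · exact ⟨h, Or.inr h2.symm⟩
    · exfalso
      apply hk
      rw [if_neg h1, if_neg h2]
      simp

theorem Sp_Af (n : ℕ) (i : ι) : Sp ia ib ix n (Af ia ib ix n i) := by
  unfold Af
  split_ifs with h1 h2
  · exact Sp_Yc n 1
  · exact Sp_smul _ (Sp_sum _ _ fun m _ => Sp_Yc n _)
  · exact Sp_zero n

theorem Sp_cc (n : ℕ) (g : FreeGroup ι) : Sp ia ib ix n (cc (Af ia ib ix n) g) := by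
  induction g using FreeGroup.induction_on with
  | C1 => rw [cc_one]; exact Sp_zero n
  | of i => rw [cc_of]; exact Sp_Af n i
  | inv_of i h =>
    rw [cc_inv]
    apply Sp_neg
    have := Sp_conj (FreeGroup.of i)⁻¹ h
    rwa [inv_inv] at this
  | mul x y hx hy =>
    rw [cc_mul]
    exact Sp_add hx (Sp_conj x hy)

/-- the support of the cocycle consists of conjugates of `z^{±1}` -/
theorem cc_supp (hab : ia ≠ ib) (hax : ia ≠ ix) (hbx : ib ≠ ix) (n : ℕ) (g k : FreeGroup ι)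
    (hk : (cc (Af ia ib ix n) g).coeff k ≠ 0) :
    ∃ h, k = h * zz ia ib ix n * h⁻¹ ∨ k = h * (zz ia ib ix n)⁻¹ * h⁻¹ :=
  Sp_cc n g k hk

/-- for `h ≠ 1` of degree 0, `z^{±1}` are not in the support of `Y(z h)` -/
theorem Yc_z_coeff (hax : ia ≠ ix) (hbx : ib ≠ ix) (n : ℕ) (h : FreeGroup ι)
    (hd : deg ix h = 0) (h1 : h ≠ 1) :
    (Yc ia ib ix n (zz ia ib ix n * h)).coeff (zz ia ib ix n) = 0 ∧
      (Yc ia ib ix n (zz ia ib ix n * h)).coeff (zz ia ib ix n)⁻¹ = 0 := by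
  have a1 : zz ia ib ix n * h * zz ia ib ix n * (zz ia ib ix n * h)⁻¹ ≠ zz ia ib ix n := by
    intro e
    have e2 : h * zz ia ib ix n * h⁻¹ = 1 * zz ia ib ix n * 1⁻¹ := by
      calc h * zz ia ib ix n * h⁻¹ = (zz ia ib ix n)⁻¹ *
            (zz ia ib ix n * h * zz ia ib ix n * (zz ia ib ix n * h)⁻¹) * zz ia ib ix n := by group
        _ = (zz ia ib ix n)⁻¹ * zz ia ib ix n * zz ia ib ix n := by rw [e]
        _ = 1 * zz ia ib ix n * 1⁻¹ := by group
    exact h1 (zz_conj_inj hax hbx n h 1 hd (deg_one ix) e2)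
  have a2 : zz ia ib ix n * h * (zz ia ib ix n)⁻¹ * (zz ia ib ix n * h)⁻¹ ≠ zz ia ib ix n := by
    intro e
    apply zz_conj_ne hax hbx n 1 (zz ia ib ix n * h)
    rw [e]
    group
  have a3 : zz ia ib ix n * h * zz ia ib ix n * (zz ia ib ix n * h)⁻¹ ≠ (zz ia ib ix n)⁻¹ := by
    intro e
    apply zz_conj_ne hax hbx n (zz ia ib ix n * h) 1
    rw [e]
    group
  have a4 : zz ia ib ix n * h * (zz ia ib ix n)⁻¹ * (zz ia ib ix n * h)⁻¹ ≠
      (zz ia ib ix n)⁻¹ := by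
    intro e
    apply a1
    have e2 := congrArg (fun t => t⁻¹) e
    simp only [mul_inv_rev, inv_inv] at e2
    rw [mul_inv_rev]
    simpa only [mul_assoc] using e2
  constructor
  · rw [Yc_coeff, if_neg a1, if_neg a2]; simp
  · rw [Yc_coeff, if_neg a3, if_neg a4]; simp

/-- the coefficients of `c(z)` at `z^{±1}` vanish -/
theorem cc_z_coeff (hab : ia ≠ ib) (hax : ia ≠ ix) (hbx : ib ≠ ix) (n : ℕ) (hn : 1 ≤ n) :
    (cc (Af ia ib ix n) (zz ia ib ix n)).coeff (zz ia ib ix n) = 0 ∧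
      (cc (Af ia ib ix n) (zz ia ib ix n)).coeff (zz ia ib ix n)⁻¹ = 0 := by
  have key : ∀ j ∈ Finset.range n, ∀ m ∈ (Finset.range n).erase j,
      (Yc ia ib ix n (zz ia ib ix n * (GG ia ib (j + 1) * (GG ia ib (m + 1))⁻¹))).coeff
        (zz ia ib ix n) = 0 ∧
      (Yc ia ib ix n (zz ia ib ix n * (GG ia ib (j + 1) * (GG ia ib (m + 1))⁻¹))).coeff
        (zz ia ib ix n)⁻¹ = 0 := by
    intro j _ m hm
    apply Yc_z_coeff hax hbx
    · rw [deg_mul_left ix (deg_GG hax hbx _), deg_inv]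
      exact deg_GG hax hbx _
    · intro h
      have h2 := GG_inj hab _ _ (mul_inv_eq_one.1 h)
      exact (Finset.ne_of_mem_erase hm) (by omega)
  rw [cc_z hab hax hbx n hn]
  constructor
  · rw [MonoidAlgebra.coeff_neg, Finsupp.neg_apply, MonoidAlgebra.coeff_smul, Finsupp.smul_apply,
      neg_eq_zero, smul_eq_zero]
    right
    rw [MonoidAlgebra.coeff_sum, Finsupp.finsetSum_apply]
    refine Finset.sum_eq_zero fun j hj => ?_
    rw [MonoidAlgebra.coeff_sum, Finsupp.finsetSum_apply]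
    exact Finset.sum_eq_zero fun m hm => (key j hj m hm).1
  · rw [MonoidAlgebra.coeff_neg, Finsupp.neg_apply, MonoidAlgebra.coeff_smul, Finsupp.smul_apply,
      neg_eq_zero, smul_eq_zero]
    right
    rw [MonoidAlgebra.coeff_sum, Finsupp.finsetSum_apply]
    refine Finset.sum_eq_zero fun j hj => ?_
    rw [MonoidAlgebra.coeff_sum, Finsupp.finsetSum_apply]
    exact Finset.sum_eq_zero fun m hm => (key j hj m hm).2

theorem Af_tau (hab : ia ≠ ib) (hax : ia ≠ ix) (hbx : ib ≠ ix) (n : ℕ) (hn : 1 ≤ n)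
    (g : FreeGroup ι) : (dg (Af ia ib ix n) g).coeff 1 = 0 := by
  obtain ⟨c1, c2⟩ := cc_z_coeff hab hax hbx n hn
  by_contra hne
  have h1 := hne
  rw [tau_dg] at h1
  obtain ⟨h, hh | hh⟩ := cc_supp hab hax hbx n g _ h1
  · have hg : g = h * (zz ia ib ix n)⁻¹ * h⁻¹ := by
      rw [← inv_inv g, hh]; group
    apply hne
    rw [hg, tau_conj, tau_dg_inv, c1, neg_zero]
  · have hg : g = h * zz ia ib ix n * h⁻¹ := by
      rw [← inv_inv g, hh]; group
    apply hne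
    rw [hg, tau_conj, tau_dg, c2]

end Crest.Agent.R134
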