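import Mathlib
import Crest.Prelude.Def_GroupVNA

/-!
# Row 134 (free group factors): common definitions (helper34)

`G` a group, `ltwo G = ℓ²(G)`, `dl g = δ_g`, `leftRegular g = λ(g)`, `rr g` the right translation,
`groupVNA G = L(G)`.  `Good V`: the unitary `V` of `ℓ²(G)` fixes `δ_1` and normalises `L(G)`.
`MonoidAlgebra ℂ G = ℂ[G]`; `vec p ∈ ℓ²(G)`, `lam p ∈ B(ℓ²(G))` its left convolution operator,
`st p = p*`, `n1 p = ‖p‖_1`.
For a free group `FreeGroup ι` with a distinguished letter `ix` (called x): `deg ix g` = number of letters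
x^{±1} in the reduced word, `gen ix ξ t = ∑_g |ξ(g)|² t^{deg g}`.
-/

set_option autoImplicit false
open Crest.OpAlg
open scoped InnerProductSpace

namespace Crest.Agent.R134

section General
variable {G : Type} [Group G] [DecidableEq G]

/-- `δ_g ∈ ℓ²(G)`. -/
noncomputable def dl (g : G) : ltwo G := lp.single 2 g (1 : ℂ)

/-- the right translation `ρ(g)`: `rr g (dl h) = dl (h * g⁻¹)` -/
noncomputable def rr {G : Type} [Group G] (g : G) : ltwo G →L[ℂ] ltwo G :=
  ((ltwoReindex (Equiv.mulRight g) : ltwo G ≃ₗᵢ[ℂ] ltwo G) : ltwo G →L[ℂ] ltwo G)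

/-- conjugation of operators by a unitary: `cj V m = V m V*` -/
noncomputable def cj {G : Type} (V : ltwo G ≃ₗᵢ[ℂ] ltwo G) (m : ltwo G →L[ℂ] ltwo G) :
    ltwo G →L[ℂ] ltwo G :=
  (V : ltwo G →L[ℂ] ltwo G) ∘L m ∘L (V.symm : ltwo G →L[ℂ] ltwo G)

/-- a unitary of `ℓ²(G)` which fixes `δ_1` and normalises `L(G)` -/
structure Good (V : ltwo G ≃ₗᵢ[ℂ] ltwo G) : Prop where
  one : V (dl 1) = dl 1
  mem : ∀ m ∈ groupVNA G, cj V m ∈ groupVNA G
  mem' : ∀ m ∈ groupVNA G, cj V.symm m ∈ groupVNA G

/-- the vector of an element of the group algebra -/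
noncomputable def vec (p : MonoidAlgebra ℂ G) : ltwo G := p.coeff.sum fun g c => c • dl g

/-- the left convolution operator of an element of the group algebra -/
noncomputable def lam (p : MonoidAlgebra ℂ G) : ltwo G →L[ℂ] ltwo G :=
  p.coeff.sum fun g c => c • leftRegular g

/-- the adjoint in the group algebra -/
noncomputable def st (p : MonoidAlgebra ℂ G) : MonoidAlgebra ℂ G :=
  p.coeff.sum fun g c => MonoidAlgebra.single g⁻¹ (star c)

/-- the group element `g` in `ℂ[G]` -/
noncomputable def E {G : Type} (g : G) : MonoidAlgebra ℂ G := MonoidAlgebra.single g 1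

/-- the ℓ¹ norm -/
noncomputable def n1 (p : MonoidAlgebra ℂ G) : ℝ := p.coeff.sum fun _ c => ‖c‖

end General

section Free
variable {ι : Type} [DecidableEq ι]

/-- number of letters `x^{±1}` of the reduced word of `g` -/
def deg (ix : ι) (g : FreeGroup ι) : ℕ := g.toWord.countP fun l => decide (l.1 = ix)

/-- the generating function of the degree distribution of a vector -/
noncomputable def gen (ix : ι) (ξ : ltwo (FreeGroup ι)) (t : ℝ) : ℝ :=
  ∑' g, ‖ξ g‖ ^ 2 * t ^ deg ix g

/-- generator of the first letter of the reduced word -/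
def hd (g : FreeGroup ι) : Option ι := g.toWord.head?.map Prod.fst

/-- generator of the last letter of the reduced word -/
def lst (g : FreeGroup ι) : Option ι := g.toWord.getLast?.map Prod.fst

theorem E_mul {G : Type} [Group G] (g h : G) : E (g * h) = E g * E h := by
  simp [E, MonoidAlgebra.single_mul_single]

theorem E_one {G : Type} [Group G] : E (1 : G) = 1 := rfl

/-- matrix form of the derivation on a generator -/
noncomputable def du (A : ι → MonoidAlgebra ℂ (FreeGroup ι)) (i : ι) :
    (Matrix (Fin 2) (Fin 2) (MonoidAlgebra ℂ (FreeGroup ι)))ˣ where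
  val := !![E (FreeGroup.of i), A i * E (FreeGroup.of i); 0, E (FreeGroup.of i)]
  inv := !![E (FreeGroup.of i)⁻¹, -(E (FreeGroup.of i)⁻¹ * A i); 0, E (FreeGroup.of i)⁻¹]
  val_inv := by
    have h : E (FreeGroup.of i) * E (FreeGroup.of i)⁻¹ = (1 : MonoidAlgebra ℂ (FreeGroup ι)) := by
      rw [← E_mul, mul_inv_cancel, E_one]
    rw [Matrix.mul_fin_two, Matrix.one_fin_two]
    simp only [mul_neg, mul_zero, zero_mul, add_zero, mul_assoc, h, mul_one]
    rw [← mul_assoc, h, one_mul, neg_add_cancel, neg_zero, zero_add]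
  inv_val := by
    rw [Matrix.mul_fin_two, Matrix.one_fin_two]
    simp only [← E_mul, inv_mul_cancel, E_one, mul_zero, zero_mul, add_zero, zero_add,
      neg_mul, mul_assoc, add_neg_cancel]

/-- the derivation on group elements: `D(u_i) = A_i u_i` -/
noncomputable def dg (A : ι → MonoidAlgebra ℂ (FreeGroup ι)) (g : FreeGroup ι) :
    MonoidAlgebra ℂ (FreeGroup ι) :=
  (FreeGroup.lift (du A) g : Matrix (Fin 2) (Fin 2) (MonoidAlgebra ℂ (FreeGroup ι))) 0 1

/-- the derivation `D` of `ℂ[G]` with `D(u_i) = A_i u_i` -/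
noncomputable def der (A : ι → MonoidAlgebra ℂ (FreeGroup ι)) :
    MonoidAlgebra ℂ (FreeGroup ι) →ₗ[ℂ] MonoidAlgebra ℂ (FreeGroup ι) where
  toFun p := p.coeff.sum fun g c => c • dg A g
  map_add' p q := by
    rw [MonoidAlgebra.coeff_add]
    exact Finsupp.sum_add_index' (by simp) (by intro a b c; rw [add_smul])
  map_smul' c p := by
    rw [MonoidAlgebra.coeff_smul, Finsupp.sum_smul_index (by simp), RingHom.id_apply,
      Finsupp.smul_sum]
    simp only [mul_smul]

/-- the function `psi` of one absorption step -/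
noncomputable def psi (t : ℝ) : ℝ := t + (1 - t) ^ 6 / 18432

end Free

end Crest.Agent.R134
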