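import Crest.Agent.R134.Defs

/-!
# Row 134: the concrete derivation (definitions)

Letters `ia`, `ib`, `ix` (distinct); `a = of ia`, `b = of ib`, `x = of ix`.
`gg i = a^(4i+1) b a`, `GG m = gg 1 ⋯ gg m`, `r = GG n`, `zz n = x r⁻¹`,
`Yc n h = (1/2)(h z h⁻¹ - h z⁻¹ h⁻¹)` (skew-adjoint),
`Af n ix = Yc n 1`, `Af n ib = (1/n) ∑_{m=1}^n Yc n (b a (GG m)⁻¹)`, `Af n i = 0` otherwise.
The derivation is `D = der (Af n)`: `D(u_i) = Af n i * u_i`.
`HH` = the subgroup generated by `x`, `a^4`, `a b a`.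
-/

set_option autoImplicit false
open Crest.OpAlg
open scoped InnerProductSpace

namespace Crest.Agent.R134

section Concrete
variable {ι : Type} [DecidableEq ι] (ia ib ix : ι)

/-- `g_i = a^(4i+1) b a` -/
def gg (i : ℕ) : FreeGroup ι :=
  FreeGroup.of ia ^ (4 * i + 1) * FreeGroup.of ib * FreeGroup.of ia

/-- `G_m = g_1 ⋯ g_m` -/
def GG : ℕ → FreeGroup ι
  | 0 => 1
  | m + 1 => GG m * gg ia ib (m + 1)

/-- `z = x r⁻¹`, `r = G_n` -/
def zz (n : ℕ) : FreeGroup ι := FreeGroup.of ix * (GG ia ib n)⁻¹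

/-- `Y(h) = (h z h⁻¹ - h z⁻¹ h⁻¹)/2` -/
noncomputable def Yc (n : ℕ) (h : FreeGroup ι) : MonoidAlgebra ℂ (FreeGroup ι) :=
  (1 / 2 : ℂ) • (E (h * zz ia ib ix n * h⁻¹) - E (h * (zz ia ib ix n)⁻¹ * h⁻¹))

/-- the coefficients `D(u_i) u_i⁻¹` of the derivation -/
noncomputable def Af (n : ℕ) (i : ι) : MonoidAlgebra ℂ (FreeGroup ι) :=
  if i = ix then Yc ia ib ix n 1
  else if i = ib then
    (1 / (n : ℂ)) • ∑ m ∈ Finset.range n,
      Yc ia ib ix n (FreeGroup.of ib * FreeGroup.of ia * (GG ia ib (m + 1))⁻¹)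
  else 0

/-- the subgroup generated by `x`, `a^4`, `a b a` -/
def HH : Subgroup (FreeGroup ι) :=
  Subgroup.closure {FreeGroup.of ix, FreeGroup.of ia ^ 4,
    FreeGroup.of ia * FreeGroup.of ib * FreeGroup.of ia}

end Concrete

end Crest.Agent.R134
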