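import Crest.Agent.R134.Lim
import Crest.Agent.R134.Iso

/-!
# Row 134: the isomorphism `L(F_n) ≅ L(F_{n+1})`, `n ≥ 2`
-/

set_option autoImplicit false
open Crest.OpAlg
open scoped InnerProductSpace

namespace Crest.Agent.R134

theorem final (n : ℕ) (hn : 2 ≤ n) :
    ∃ Φ : (groupVNA (FreeGroup (Fin n))).toStarSubalgebra ≃⋆ₐ[ℂ]
        (groupVNA (FreeGroup (Fin (n + 1)))).toStarSubalgebra,
      ∀ x : (groupVNA (FreeGroup (Fin n))).toStarSubalgebra,
        groupTrace (FreeGroup (Fin (n + 1)))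
          ((Φ x : (groupVNA (FreeGroup (Fin (n + 1)))).toStarSubalgebra) :
            ltwo (FreeGroup (Fin (n + 1))) →L[ℂ] ltwo (FreeGroup (Fin (n + 1)))) =
          groupTrace (FreeGroup (Fin n))
            (x : ltwo (FreeGroup (Fin n)) →L[ℂ] ltwo (FreeGroup (Fin n))) := by
  obtain ⟨U, hU, htr, hden⟩ := exists_lim (κ := Fin n) (ι := Fin (n + 1))
    (ia := ⟨0, by omega⟩) (ib := ⟨1, by omega⟩) (ix := Fin.last n) Fin.castSucc
    (by simp [Fin.ext_iff]) (by simp [Fin.ext_iff]; omega) (by simp [Fin.ext_iff]; omega)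
    (Fin.castSucc_injective n)
    (by
      intro i
      constructor
      · rintro ⟨k, rfl⟩
        exact (Fin.castSucc_lt_last k).ne
      · intro h
        exact ⟨i.castPred h, Fin.castSucc_castPred i h⟩)
  exact iso_of (TU Fin.castSucc _ U) (fun f => TU_mem _ _ U hU f) htr hden

end Crest.Agent.R134
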