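import Crest.Agent.R134.BasicV

/-!
# Row 134: further API for `vec`, `lam`, `st`, `n1` (namespace `R134`; proofs in `FlBasic`)
-/

set_option autoImplicit false
set_option linter.unusedSectionVars false
open Crest.OpAlg
open scoped InnerProductSpace

namespace Crest.Agent.R134

section General
variable {G : Type} [Group G] [DecidableEq G]

theorem single_eq_smul_E (g : G) (c : ℂ) :
    (MonoidAlgebra.single g c : MonoidAlgebra ℂ G) = c • E g := Fl.single_eq_smul_E g c

theorem vec_single (g : G) (c : ℂ) : vec (MonoidAlgebra.single g c) = c • dl g :=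
  Fl.vec_single g c

theorem vec_sub (p q : MonoidAlgebra ℂ G) : vec (p - q) = vec p - vec q := Fl.vec_sub p q

theorem vec_neg (p : MonoidAlgebra ℂ G) : vec (-p) = -vec p := by
  rw [← zero_sub, vec_sub, vec_zero, zero_sub]

theorem vec_injective : Function.Injective (vec : MonoidAlgebra ℂ G → ltwo G) := Fl.vec_injective

theorem vec_dense : DenseRange (vec : MonoidAlgebra ℂ G → ltwo G) := Fl.vec_dense

theorem lam_one : lam (1 : MonoidAlgebra ℂ G) = 1 := Fl.lam_one

theorem st_zero : st (0 : MonoidAlgebra ℂ G) = 0 := Fl.st_zero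

theorem st_add (p q : MonoidAlgebra ℂ G) : st (p + q) = st p + st q := Fl.st_add p q

theorem st_smul (c : ℂ) (p : MonoidAlgebra ℂ G) : st (c • p) = star c • st p := Fl.st_smul c p

theorem st_st (p : MonoidAlgebra ℂ G) : st (st p) = p := Fl.st_st p

theorem st_neg (p : MonoidAlgebra ℂ G) : st (-p) = -st p := Fl.st_neg p

theorem st_sub (p q : MonoidAlgebra ℂ G) : st (p - q) = st p - st q := by
  rw [sub_eq_add_neg, st_add, st_neg, sub_eq_add_neg]

theorem st_sum {κ : Type*} (s : Finset κ) (f : κ → MonoidAlgebra ℂ G) :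
    st (∑ i ∈ s, f i) = ∑ i ∈ s, st (f i) := by
  classical
  induction s using Finset.induction_on with
  | empty => simp [st_zero]
  | insert a s ha ih => rw [Finset.sum_insert ha, Finset.sum_insert ha, st_add, ih]

theorem st_E (g : G) : st (E g) = E g⁻¹ := Fl.st_E g

theorem st_mul (p q : MonoidAlgebra ℂ G) : st (p * q) = st q * st p := Fl.st_mul p q

theorem inner_vec (p q : MonoidAlgebra ℂ G) : ⟪vec p, vec q⟫_ℂ = (st p * q).coeff 1 :=
  Fl.inner_vec p q

theorem n1_nonneg (p : MonoidAlgebra ℂ G) : 0 ≤ n1 p := Fl.n1_nonneg p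

theorem n1_zero : n1 (0 : MonoidAlgebra ℂ G) = 0 := Fl.n1_zero

theorem n1_add_le (p q : MonoidAlgebra ℂ G) : n1 (p + q) ≤ n1 p + n1 q := Fl.n1_add_le p q

theorem n1_sum_le {κ : Type*} (s : Finset κ) (f : κ → MonoidAlgebra ℂ G) :
    n1 (∑ i ∈ s, f i) ≤ ∑ i ∈ s, n1 (f i) := Fl.n1_sum_le s f

theorem n1_smul (c : ℂ) (p : MonoidAlgebra ℂ G) : n1 (c • p) = ‖c‖ * n1 p := Fl.n1_smul c p

theorem n1_neg (p : MonoidAlgebra ℂ G) : n1 (-p) = n1 p := Fl.n1_neg p

theorem n1_E (g : G) : n1 (E g) = 1 := Fl.n1_E g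

theorem n1_mul_le (p q : MonoidAlgebra ℂ G) : n1 (p * q) ≤ n1 p * n1 q := Fl.n1_mul_le p q

theorem eq_sum_E (p : MonoidAlgebra ℂ G) : p = ∑ g ∈ p.coeff.support, p.coeff g • E g :=
  Fl.eq_sum_E p

end General

end Crest.Agent.R134
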