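import Crest.Agent.R134.FlBasic

/-!
# Row 134, flow part: algebraic facts of the derivation `D = der A`, `D(u_i) = A_i u_i`

`dg A g` is the `(0,1)` entry of the lift of `u_i ↦ [[u_i, A_i u_i],[0, u_i]]`; by induction on `g`
(`FreeGroup.induction_on`) the lift of `g` is `[[E g, dg A g],[0, E g]]`.  So
`dg (g h) = E g * dg h + dg g * E h`, `dg 1 = 0`, `der (E g) = dg g`, Leibniz by bilinearity.
Star: if `st (A i) = - A i` then `dg g⁻¹ = st (dg g)`: on a generator
`dg u⁻¹ = - E u⁻¹ (A u) E u⁻¹ = - E u⁻¹ A`, `st (A E u) = E u⁻¹ st A = - E u⁻¹ A`; products by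
Leibniz.  Iterated Leibniz: `D^k (p q) = ∑_{j ≤ k} C(k,j) D^j p * D^(k-j) q`.
-/

set_option autoImplicit false
open Crest.OpAlg
open scoped InnerProductSpace TensorProduct

namespace Crest.Agent.R134.Fl

variable {ι : Type} [DecidableEq ι] (A : ι → MonoidAlgebra ℂ (FreeGroup ι))

theorem lift_one_mat : (FreeGroup.lift (du A) 1 :
    Matrix (Fin 2) (Fin 2) (MonoidAlgebra ℂ (FreeGroup ι))) = 1 := by
  rw [map_one, Units.val_one]

theorem lift_entries (g : FreeGroup ι) :
    (FreeGroup.lift (du A) g : Matrix (Fin 2) (Fin 2) (MonoidAlgebra ℂ (FreeGroup ι))) 0 0 = E g ∧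
    (FreeGroup.lift (du A) g : Matrix (Fin 2) (Fin 2) (MonoidAlgebra ℂ (FreeGroup ι))) 1 0 = 0 ∧
    (FreeGroup.lift (du A) g : Matrix (Fin 2) (Fin 2) (MonoidAlgebra ℂ (FreeGroup ι))) 1 1 =
      E g := by
  induction g using FreeGroup.induction_on with
  | C1 => rw [lift_one_mat]; simp [E_one]
  | of i =>
    rw [FreeGroup.lift_apply_of]
    exact ⟨rfl, rfl, rfl⟩
  | inv_of i _ =>
    rw [map_inv, FreeGroup.lift_apply_of]
    exact ⟨rfl, rfl, rfl⟩
  | mul x y hx hy =>
    rw [map_mul, Units.val_mul]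
    simp only [Matrix.mul_apply, Fin.sum_univ_two]
    rw [hx.1, hx.2.1, hx.2.2, hy.1, hy.2.1, hy.2.2]
    simp [E_mul]

theorem dg_one : dg A 1 = 0 := by
  unfold dg
  rw [lift_one_mat]
  simp

theorem dg_mul (g h : FreeGroup ι) : dg A (g * h) = E g * dg A h + dg A g * E h := by
  unfold dg
  rw [map_mul, Units.val_mul]
  simp only [Matrix.mul_apply, Fin.sum_univ_two]
  rw [(lift_entries A g).1, (lift_entries A h).2.2]

theorem dg_of (i : ι) : dg A (FreeGroup.of i) = A i * E (FreeGroup.of i) := by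
  unfold dg
  rw [FreeGroup.lift_apply_of]
  rfl

theorem dg_of_inv (i : ι) : dg A (FreeGroup.of i)⁻¹ = -(E (FreeGroup.of i)⁻¹ * A i) := by
  unfold dg
  rw [map_inv, FreeGroup.lift_apply_of]
  rfl

theorem der_E (g : FreeGroup ι) : der A (E g) = dg A g := by
  show (MonoidAlgebra.single g (1 : ℂ)).coeff.sum (fun g c => c • dg A g) = dg A g
  rw [MonoidAlgebra.coeff_single, Finsupp.sum_single_index (by simp), one_smul]

theorem single_eq (g : FreeGroup ι) (c : ℂ) :
    (MonoidAlgebra.single g c : MonoidAlgebra ℂ (FreeGroup ι)) = c • E g := by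
  rw [E, MonoidAlgebra.smul_single', mul_one]

/-- Leibniz rule -/
theorem der_mul (p q : MonoidAlgebra ℂ (FreeGroup ι)) :
    der A (p * q) = p * der A q + der A p * q := by
  induction p using MonoidAlgebra.induction_linear with
  | zero => simp
  | add p p' hp hp' =>
    rw [add_mul, map_add, hp, hp', map_add, add_mul, add_mul]
    abel
  | single g c =>
    induction q using MonoidAlgebra.induction_linear with
    | zero => simp
    | add q q' hq hq' =>
      rw [mul_add, map_add, hq, hq', map_add, mul_add, mul_add]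
      abel
    | single h d =>
      rw [single_eq, single_eq, smul_mul_smul_comm, map_smul, map_smul, map_smul, ← E_mul, der_E,
        der_E, der_E, dg_mul, smul_mul_smul_comm, smul_mul_smul_comm, smul_add]

theorem st_zero' : st (0 : MonoidAlgebra ℂ (FreeGroup ι)) = 0 := by
  have h := st_smul (0 : ℂ) (0 : MonoidAlgebra ℂ (FreeGroup ι))
  rwa [zero_smul, star_zero, zero_smul] at h

theorem dg_inv (hA : ∀ i, st (A i) = -A i) (g : FreeGroup ι) : dg A g⁻¹ = st (dg A g) := by
  induction g using FreeGroup.induction_on with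
  | C1 => rw [inv_one, dg_one, st_zero']
  | of i =>
    show dg A (FreeGroup.of i)⁻¹ = st (dg A (FreeGroup.of i))
    rw [dg_of_inv, dg_of, st_mul, st_E, hA, mul_neg]
  | inv_of i _ =>
    show dg A (FreeGroup.of i)⁻¹⁻¹ = st (dg A (FreeGroup.of i)⁻¹)
    rw [dg_of_inv, inv_inv, dg_of, st_neg, st_mul, st_E, hA, inv_inv, neg_mul, neg_neg]
  | mul x y hx hy =>
    rw [mul_inv_rev, dg_mul, dg_mul, hx, hy, st_add, st_mul, st_mul, st_E, st_E, add_comm]

theorem der_st (hA : ∀ i, st (A i) = -A i) (p : MonoidAlgebra ℂ (FreeGroup ι)) :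
    der A (st p) = st (der A p) := by
  induction p using MonoidAlgebra.induction_linear with
  | zero => rw [st_zero', map_zero, st_zero']
  | add p p' hp hp' => rw [st_add, map_add, hp, hp', map_add, st_add]
  | single g c =>
    rw [single_eq, st_smul, map_smul, map_smul, st_smul, st_E, der_E, der_E, dg_inv A hA]

theorem derk_st (hA : ∀ i, st (A i) = -A i) (k : ℕ) (p : MonoidAlgebra ℂ (FreeGroup ι)) :
    ((der A) ^ k) (st p) = st (((der A) ^ k) p) := by
  induction k generalizing p with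
  | zero => simp
  | succ k ih =>
    rw [pow_succ, Module.End.mul_apply, Module.End.mul_apply, der_st A hA, ih]

/-- iterated Leibniz rule -/
theorem derk_mul (k : ℕ) (p q : MonoidAlgebra ℂ (FreeGroup ι)) :
    ((der A) ^ k) (p * q) = ∑ j ∈ Finset.range (k + 1),
      (Nat.choose k j : ℂ) • (((der A) ^ j) p * ((der A) ^ (k - j)) q) := by
  set D := der A with hD
  set X := LinearMap.rTensor (MonoidAlgebra ℂ (FreeGroup ι)) D with hX
  set Y := LinearMap.lTensor (MonoidAlgebra ℂ (FreeGroup ι)) D with hY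
  set μ := LinearMap.mul' ℂ (MonoidAlgebra ℂ (FreeGroup ι)) with hμ
  have hcomm : Commute X Y := by
    show X * Y = Y * X
    apply TensorProduct.ext'
    intro a b
    simp [hX, hY]
  have h1 : D ∘ₗ μ = μ ∘ₗ (X + Y) := by
    apply TensorProduct.ext'
    intro a b
    simp only [LinearMap.comp_apply, LinearMap.add_apply, hX, hY, hμ, LinearMap.rTensor_tmul,
      LinearMap.lTensor_tmul, LinearMap.mul'_apply, map_add, hD]
    rw [der_mul, add_comm]
  have h2 : ∀ (n : ℕ) (z), (D ^ n) (μ z) = μ (((X + Y) ^ n) z) := by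
    intro n
    induction n with
    | zero => intro z; simp
    | succ n ih =>
      intro z
      rw [pow_succ, Module.End.mul_apply, pow_succ, Module.End.mul_apply, ← ih]
      congr 1
      exact LinearMap.congr_fun h1 z
  have h3 := h2 k (p ⊗ₜ[ℂ] q)
  rw [hμ, LinearMap.mul'_apply] at h3
  rw [h3, hcomm.add_pow]
  simp only [LinearMap.sum_apply, map_sum]
  refine Finset.sum_congr rfl fun j _ => ?_
  rw [← nsmul_eq_mul', LinearMap.smul_apply, map_nsmul, Module.End.mul_apply, hX, hY,
    LinearMap.rTensor_pow, LinearMap.lTensor_pow, LinearMap.lTensor_tmul, LinearMap.rTensor_tmul,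
    LinearMap.mul'_apply, Nat.cast_smul_eq_nsmul]

/-- trace-free -/
theorem der_tau (hτ : ∀ g, (dg A g).coeff 1 = 0) (p : MonoidAlgebra ℂ (FreeGroup ι)) :
    (der A p).coeff 1 = 0 := by
  have h : (der A p).coeff 1 = p.coeff.sum fun g c => c * (dg A g).coeff 1 := by
    show ((p.coeff.sum fun g c => c • dg A g) : MonoidAlgebra ℂ (FreeGroup ι)).coeff 1 = _
    rw [Finsupp.sum, Finsupp.sum, MonoidAlgebra.coeff_sum, Finsupp.finset_sum_apply]
    refine Finset.sum_congr rfl fun g _ => ?_
    rw [MonoidAlgebra.coeff_smul, Finsupp.smul_apply, smul_eq_mul]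
  rw [h, Finsupp.sum]
  exact Finset.sum_eq_zero fun g _ => by rw [hτ g, mul_zero]

/-- skew-symmetry for the trace form -/
theorem der_skew (hA : ∀ i, st (A i) = -A i) (hτ : ∀ g, (dg A g).coeff 1 = 0)
    (p q : MonoidAlgebra ℂ (FreeGroup ι)) :
    ⟪vec (der A p), vec q⟫_ℂ = -⟪vec p, vec (der A q)⟫_ℂ := by
  rw [inner_vec, inner_vec, ← der_st A hA p]
  have h := der_tau A hτ (st p * q)
  rw [der_mul, MonoidAlgebra.coeff_add, Finsupp.add_apply] at h
  linear_combination h

theorem derk_skew (hA : ∀ i, st (A i) = -A i) (hτ : ∀ g, (dg A g).coeff 1 = 0) (k : ℕ)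
    (p q : MonoidAlgebra ℂ (FreeGroup ι)) :
    ⟪vec (((der A) ^ k) p), vec q⟫_ℂ = (-1) ^ k * ⟪vec p, vec (((der A) ^ k) q)⟫_ℂ := by
  induction k generalizing q with
  | zero => simp
  | succ k ih =>
    rw [pow_succ' (der A) k, Module.End.mul_apply, der_skew A hA hτ, ih, ← Module.End.mul_apply,
      ← pow_succ (der A) k, pow_succ' (der A) k, pow_succ]
    ring

/-- support in a subgroup is preserved -/
theorem derk_supp (H : Subgroup (FreeGroup ι))
    (hH : ∀ g ∈ H, ∀ h, (dg A g).coeff h ≠ 0 → h ∈ H) (k : ℕ)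
    (p : MonoidAlgebra ℂ (FreeGroup ι)) (hp : ∀ h, p.coeff h ≠ 0 → h ∈ H) :
    ∀ h, (((der A) ^ k) p).coeff h ≠ 0 → h ∈ H := by
  induction k with
  | zero => simpa using hp
  | succ k ih =>
    intro h hh
    rw [pow_succ' (der A) k, Module.End.mul_apply] at hh
    set r := ((der A) ^ k) p with hr
    have hs : (der A r).coeff h = r.coeff.sum fun g c => c * (dg A g).coeff h := by
      show ((r.coeff.sum fun g c => c • dg A g) : MonoidAlgebra ℂ (FreeGroup ι)).coeff h = _
      rw [Finsupp.sum, Finsupp.sum, MonoidAlgebra.coeff_sum, Finsupp.finset_sum_apply]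
      refine Finset.sum_congr rfl fun g _ => ?_
      rw [MonoidAlgebra.coeff_smul, Finsupp.smul_apply, smul_eq_mul]
    rw [hs, Finsupp.sum] at hh
    obtain ⟨g, _, hg⟩ := Finset.exists_ne_zero_of_sum_ne_zero hh
    exact hH g (ih g (left_ne_zero_of_mul hg)) h (right_ne_zero_of_mul hg)

end Crest.Agent.R134.Fl
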