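import Crest.Agent.R134.FlUni

/-!
# Row 134, flow part: `V_t` is Good

`V λ(g) = TT t (E g) V` (check on `vec q`: `V λ(g) vec q = V vec (E g * q) = ww t (E g * q)
= TT t (E g * q) δ = TT t (E g) TT t q δ = TT t (E g) V vec q`).  General lemma `good_mem`: if
`V λ(g) V* ∈ M` for all `g` then `V m V* ∈ M` for all `m ∈ M = groupVNA G`: for `T ∈ M'` the operator
`V* T V` commutes with all `λ(g)` and their adjoints `λ(g⁻¹)`, so `m` commutes with it (definition of
`groupVNA` as bicommutant).  `V δ_1 = ww t (E 1) = δ_1` as `D 1 = 0`.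
The same for `V.symm` (it is the `V` of `-t`).
-/

set_option autoImplicit false
set_option linter.unusedSectionVars false
set_option linter.deprecated false
open Crest.OpAlg
open scoped InnerProductSpace

namespace Crest.Agent.R134.Fl

theorem cj_mul {G : Type} (V : ltwo G ≃ₗᵢ[ℂ] ltwo G) (a b : ltwo G →L[ℂ] ltwo G) :
    cj V (a * b) = cj V a * cj V b := by
  ext ξ : 1
  simp [cj]

theorem cj_symm_cj {G : Type} (V : ltwo G ≃ₗᵢ[ℂ] ltwo G) (a : ltwo G →L[ℂ] ltwo G) :
    cj V.symm (cj V a) = a := by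
  ext ξ : 1
  simp [cj]

theorem cj_cj_symm {G : Type} (V : ltwo G ≃ₗᵢ[ℂ] ltwo G) (a : ltwo G →L[ℂ] ltwo G) :
    cj V (cj V.symm a) = a := by
  ext ξ : 1
  simp [cj]

theorem mem_groupVNA_iff {G : Type} [Group G] {m : ltwo G →L[ℂ] ltwo G} :
    m ∈ groupVNA G ↔ ∀ y : ltwo G →L[ℂ] ltwo G, (∀ g : G, leftRegular g * y = y * leftRegular g) →
      y * m = m * y := by
  have hstar : ∀ g : G, star (leftRegular g) = leftRegular g⁻¹ := by
    classical
    intro g; exact lr_star g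
  constructor
  · intro hm y hy
    have hm' : m ∈ StarSubalgebra.centralizer ℂ ((StarSubalgebra.centralizer ℂ
        (Set.range (leftRegular (G := G))) : Set (ltwo G →L[ℂ] ltwo G))) := hm
    rw [StarSubalgebra.mem_centralizer_iff] at hm'
    refine (hm' y ?_).1
    change y ∈ StarSubalgebra.centralizer ℂ (Set.range (leftRegular (G := G)))
    rw [StarSubalgebra.mem_centralizer_iff]
    rintro _ ⟨g, rfl⟩
    exact ⟨hy g, by rw [hstar]; exact hy g⁻¹⟩
  · intro h
    change m ∈ StarSubalgebra.centralizer ℂ ((StarSubalgebra.centralizer ℂ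
        (Set.range (leftRegular (G := G))) : Set (ltwo G →L[ℂ] ltwo G)))
    rw [StarSubalgebra.mem_centralizer_iff]
    intro y hy
    have hy1 : y ∈ StarSubalgebra.centralizer ℂ (Set.range (leftRegular (G := G))) := hy
    have hy2 : star y ∈ StarSubalgebra.centralizer ℂ (Set.range (leftRegular (G := G))) :=
      star_mem hy1
    rw [StarSubalgebra.mem_centralizer_iff] at hy1 hy2
    exact ⟨h y fun g => (hy1 _ ⟨g, rfl⟩).1, h (star y) fun g => (hy2 _ ⟨g, rfl⟩).1⟩

theorem good_mem {G : Type} [Group G] [DecidableEq G] (V : ltwo G ≃ₗᵢ[ℂ] ltwo G)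
    (h : ∀ g, cj V (leftRegular g) ∈ groupVNA G) :
    ∀ m ∈ groupVNA G, cj V m ∈ groupVNA G := by
  intro m hm
  rw [mem_groupVNA_iff]
  intro y hy
  have h1 : ∀ g : G, leftRegular g * cj V.symm y = cj V.symm y * leftRegular g := by
    intro g
    have h2 := mem_groupVNA_iff.1 (h g) y hy
    have h3 := congrArg (cj V.symm) h2
    rw [cj_mul, cj_mul, cj_symm_cj] at h3
    exact h3.symm
  have h4 := mem_groupVNA_iff.1 hm (cj V.symm y) h1
  have h5 := congrArg (cj V) h4
  rw [cj_mul, cj_mul, cj_cj_symm] at h5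
  exact h5

variable {ι : Type} [DecidableEq ι] {A : ι → MonoidAlgebra ℂ (FreeGroup ι)}

theorem cj_left {R : ℝ} (hR : Gr A R) {t : ℝ} (ht : |t| * R ≤ 1 / 2)
    (V : ltwo (FreeGroup ι) ≃ₗᵢ[ℂ] ltwo (FreeGroup ι)) (hV : ∀ p, V (vec p) = ww A t p)
    (g : FreeGroup ι) : cj V (leftRegular g) = TT A t (E g) := by
  have hd : DenseRange (vec : MonoidAlgebra ℂ (FreeGroup ι) → ltwo (FreeGroup ι)) := vec_dense
  have h1 : ∀ ξ, V (leftRegular g ξ) = TT A t (E g) (V ξ) := by
    intro ξ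
    refine hd.induction_on (p := fun ξ => V (leftRegular g ξ) = TT A t (E g) (V ξ)) ξ
      (isClosed_eq (V.continuous.comp (leftRegular g).continuous)
        ((TT A t (E g)).continuous.comp V.continuous)) fun q => ?_
    rw [← lam_E, lam_vec, hV, ← TT_dl_one hR ht, TT_mul hR ht, hV, ← TT_dl_one hR ht]
    rfl
  ext ξ : 1
  have h2 := h1 (V.symm ξ)
  rw [V.apply_symm_apply] at h2
  exact h2

theorem good_V {R : ℝ} (hR : Gr A R) {t : ℝ} (ht : |t| * R ≤ 1 / 2)
    (V : ltwo (FreeGroup ι) ≃ₗᵢ[ℂ] ltwo (FreeGroup ι)) (hV : ∀ p, V (vec p) = ww A t p)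
    (hV' : ∀ p, V.symm (vec p) = ww A (-t) p) : Good V := by
  have ht' : |-t| * R ≤ 1 / 2 := by rwa [abs_neg]
  refine ⟨?_, ?_, ?_⟩
  · rw [← vec_E, hV, ww_of_der_eq_zero]
    rw [der_E, dg_one]
  · refine good_mem V fun g => ?_
    rw [cj_left hR ht V hV]
    exact TT_mem hR ht _
  · refine good_mem V.symm fun g => ?_
    rw [cj_left hR ht' V.symm hV']
    exact TT_mem hR ht' _

end Crest.Agent.R134.Fl
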