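import Crest.Agent.R134.FlDer

/-!
# Row 134, flow part: growth of the iterates

Let all `A i` have `n1 (A i) ≤ c`, `c ≥ 1`, and supports in words of length `≤ L`, `L ≥ 1` (`ι` finite).
For a word `g` of length `ℓ`: `n1 (dg A g) ≤ c ℓ` and its support is in words of length `≤ ℓ + L`
(induction over `g.toWord`, `dg_mul`, `FreeGroup.norm_mul_le`; `FreeGroup.norm g` is the length of the
reduced word).  So for `p` supported in length `≤ ℓ`: `n1 (D p) ≤ c ℓ n1 p`, support `≤ ℓ + L`, and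
`n1 (D^k p) ≤ c^k ∏_{j<k} (ℓ + j L) n1 p`.  With `ℓ ≤ m L`, `m ≥ 1`:
`∏_{j<k} (m + j) = k! C(m+k-1, k) ≤ k! 2^(m+k)`.
So `n1 (D^k p) ≤ k! (2 c L)^k 2^m n1 p`: radius of convergence `≥ 1/(2cL)` for all `p`.
-/

set_option autoImplicit false
open Crest.OpAlg
open scoped InnerProductSpace

namespace Crest.Agent.R134.Fl

variable {ι : Type} [DecidableEq ι] (A : ι → MonoidAlgebra ℂ (FreeGroup ι))

theorem grow_E_mul {G : Type} [Group G] [DecidableEq G] (g : G) (p : MonoidAlgebra ℂ G) :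
    n1 (E g * p) ≤ n1 p := by
  have := n1_mul_le (E g) p
  rwa [n1_E, one_mul] at this

theorem grow_mul_E {G : Type} [Group G] [DecidableEq G] (g : G) (p : MonoidAlgebra ℂ G) :
    n1 (p * E g) ≤ n1 p := by
  have := n1_mul_le p (E g)
  rwa [n1_E, mul_one] at this

theorem grow_coeff_E_mul {G : Type} [Group G] [DecidableEq G] (g h : G) (p : MonoidAlgebra ℂ G) :
    (E g * p).coeff h = p.coeff (g⁻¹ * h) := by
  rw [E, MonoidAlgebra.coeff_single_mul_apply, one_mul]

theorem grow_coeff_mul_E {G : Type} [Group G] [DecidableEq G] (g h : G) (p : MonoidAlgebra ℂ G) :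
    (p * E g).coeff h = p.coeff (h * g⁻¹) := by
  rw [E, MonoidAlgebra.coeff_mul_single_apply, mul_one]

theorem grow_len_mul (g h : FreeGroup ι) :
    (g * h).toWord.length ≤ g.toWord.length + h.toWord.length := FreeGroup.norm_mul_le g h

theorem grow_len_mk (w : List (ι × Bool)) : (FreeGroup.mk w).toWord.length ≤ w.length :=
  FreeGroup.norm_mk_le

theorem grow_letter (c : ℝ) (hA : ∀ i, n1 (A i) ≤ c) (L : ℕ)
    (hAL : ∀ i, ∀ h, (A i).coeff h ≠ 0 → h.toWord.length ≤ L) (x : ι × Bool) :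
    n1 (dg A (FreeGroup.mk [x])) ≤ c ∧
      ∀ h, (dg A (FreeGroup.mk [x])).coeff h ≠ 0 → h.toWord.length ≤ 1 + L := by
  obtain ⟨i, b⟩ := x
  cases b with
  | true =>
    have e : (FreeGroup.mk [(i, true)] : FreeGroup ι) = FreeGroup.of i := rfl
    rw [e, dg_of]
    refine ⟨(grow_mul_E _ _).trans (hA i), fun h hh => ?_⟩
    rw [grow_coeff_mul_E] at hh
    have h1 := hAL i _ hh
    have h2 := grow_len_mul (h * (FreeGroup.of i)⁻¹) (FreeGroup.of i)
    rw [inv_mul_cancel_right] at h2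
    have h3 : (FreeGroup.of i).toWord.length = 1 := by simp
    omega
  | false =>
    have e : (FreeGroup.mk [(i, false)] : FreeGroup ι) = (FreeGroup.of i)⁻¹ := rfl
    rw [e, dg_of_inv]
    refine ⟨?_, fun h hh => ?_⟩
    · rw [n1_neg]
      exact (grow_E_mul _ _).trans (hA i)
    · rw [MonoidAlgebra.coeff_neg, Finsupp.neg_apply, neg_ne_zero, grow_coeff_E_mul] at hh
      have h1 := hAL i _ hh
      have h2 := grow_len_mul (FreeGroup.of i)⁻¹ ((FreeGroup.of i)⁻¹⁻¹ * h)
      rw [← mul_assoc, mul_inv_cancel, one_mul] at h2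
      have h3 : ((FreeGroup.of i)⁻¹).toWord.length = 1 := by
        have := FreeGroup.norm_inv_eq (x := FreeGroup.of i)
        simpa [FreeGroup.norm] using this
      omega

theorem dg_growth (c : ℝ) (hc : 1 ≤ c) (hA : ∀ i, n1 (A i) ≤ c) (L : ℕ) (hL : 1 ≤ L)
    (hAL : ∀ i, ∀ h, (A i).coeff h ≠ 0 → h.toWord.length ≤ L) (g : FreeGroup ι) :
    n1 (dg A g) ≤ c * g.toWord.length ∧
      ∀ h, (dg A g).coeff h ≠ 0 → h.toWord.length ≤ g.toWord.length + L := by
  have key : ∀ w : List (ι × Bool), n1 (dg A (FreeGroup.mk w)) ≤ c * w.length ∧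
      ∀ h, (dg A (FreeGroup.mk w)).coeff h ≠ 0 → h.toWord.length ≤ w.length + L := by
    intro w
    induction w with
    | nil =>
      have e : (FreeGroup.mk ([] : List (ι × Bool)) : FreeGroup ι) = 1 := rfl
      rw [e, dg_one]
      refine ⟨by simp [n1_zero], fun h hh => absurd (by simp) hh⟩
    | cons x w ih =>
      have e : (FreeGroup.mk (x :: w) : FreeGroup ι) = FreeGroup.mk [x] * FreeGroup.mk w := by
        rw [FreeGroup.mul_mk]; rfl
      obtain ⟨hx1, hx2⟩ := grow_letter A c hA L hAL x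
      rw [e, dg_mul]
      refine ⟨?_, fun h hh => ?_⟩
      · refine (n1_add_le _ _).trans ?_
        have h1 := grow_E_mul (FreeGroup.mk [x]) (dg A (FreeGroup.mk w))
        have h2 := grow_mul_E (FreeGroup.mk w) (dg A (FreeGroup.mk [x]))
        rw [List.length_cons]
        push_cast
        linarith [ih.1]
      · rw [MonoidAlgebra.coeff_add, Finsupp.add_apply, grow_coeff_E_mul, grow_coeff_mul_E] at hh
        rw [List.length_cons]
        by_cases h0 : (dg A (FreeGroup.mk w)).coeff ((FreeGroup.mk [x])⁻¹ * h) = 0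
        · rw [h0, zero_add] at hh
          have h1 := hx2 _ hh
          have h2 := grow_len_mul (h * (FreeGroup.mk w)⁻¹) (FreeGroup.mk w)
          rw [inv_mul_cancel_right] at h2
          have h3 := grow_len_mk w
          omega
        · have h1 := ih.2 _ h0
          have h2 := grow_len_mul (FreeGroup.mk [x]) ((FreeGroup.mk [x])⁻¹ * h)
          rw [← mul_assoc, mul_inv_cancel, one_mul] at h2
          have h3 := grow_len_mk [x]
          simp only [List.length_singleton] at h3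
          omega
  have := key g.toWord
  rwa [FreeGroup.mk_toWord] at this

theorem der_growth (c : ℝ) (hc : 1 ≤ c) (hA : ∀ i, n1 (A i) ≤ c) (L : ℕ) (hL : 1 ≤ L)
    (hAL : ∀ i, ∀ h, (A i).coeff h ≠ 0 → h.toWord.length ≤ L)
    (p : MonoidAlgebra ℂ (FreeGroup ι)) (ℓ : ℕ)
    (hp : ∀ h, p.coeff h ≠ 0 → h.toWord.length ≤ ℓ) :
    n1 (der A p) ≤ c * ℓ * n1 p ∧ ∀ h, (der A p).coeff h ≠ 0 → h.toWord.length ≤ ℓ + L := by
  have e : der A p = ∑ g ∈ p.coeff.support, p.coeff g • dg A g := rfl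
  have e1 : n1 p = ∑ g ∈ p.coeff.support, ‖p.coeff g‖ := rfl
  rw [e]
  refine ⟨?_, fun h hh => ?_⟩
  · refine (n1_sum_le _ _).trans ?_
    rw [e1, Finset.mul_sum]
    refine Finset.sum_le_sum fun g hg => ?_
    rw [n1_smul, mul_comm]
    refine mul_le_mul_of_nonneg_right ?_ (norm_nonneg _)
    have h1 := (dg_growth A c hc hA L hL hAL g).1
    have h2 : (g.toWord.length : ℝ) ≤ ℓ := by
      exact_mod_cast hp g (Finsupp.mem_support_iff.1 hg)
    nlinarith
  · by_contra hcon
    apply hh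
    rw [MonoidAlgebra.coeff_sum, Finsupp.finset_sum_apply]
    refine Finset.sum_eq_zero fun g hg => ?_
    rw [MonoidAlgebra.coeff_smul, Finsupp.smul_apply]
    by_cases h0 : (dg A g).coeff h = 0
    · rw [h0, smul_zero]
    · exfalso
      have h1 := (dg_growth A c hc hA L hL hAL g).2 h h0
      have h2 := hp g (Finsupp.mem_support_iff.1 hg)
      omega

theorem derk_growth (c : ℝ) (hc : 1 ≤ c) (hA : ∀ i, n1 (A i) ≤ c) (L : ℕ) (hL : 1 ≤ L)
    (hAL : ∀ i, ∀ h, (A i).coeff h ≠ 0 → h.toWord.length ≤ L)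
    (p : MonoidAlgebra ℂ (FreeGroup ι)) (ℓ : ℕ)
    (hp : ∀ h, p.coeff h ≠ 0 → h.toWord.length ≤ ℓ) (k : ℕ) :
    n1 (((der A) ^ k) p) ≤ c ^ k * (∏ j ∈ Finset.range k, ((ℓ : ℝ) + j * L)) * n1 p := by
  have key : ∀ k : ℕ, n1 (((der A) ^ k) p) ≤
      c ^ k * (∏ j ∈ Finset.range k, ((ℓ : ℝ) + j * L)) * n1 p ∧
      ∀ h, (((der A) ^ k) p).coeff h ≠ 0 → h.toWord.length ≤ ℓ + k * L := by
    intro k
    induction k with
    | zero => simpa using hp
    | succ k ih =>
      obtain ⟨h1, h2⟩ := der_growth A c hc hA L hL hAL (((der A) ^ k) p) (ℓ + k * L) ih.2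
      have e : ((der A) ^ (k + 1)) p = der A (((der A) ^ k) p) := by
        rw [pow_succ', Module.End.mul_apply]
      rw [e]
      refine ⟨?_, fun h hh => ?_⟩
      · refine h1.trans ?_
        rw [Finset.prod_range_succ, pow_succ]
        have h3 : 0 ≤ c * ((ℓ + k * L : ℕ) : ℝ) := by positivity
        calc c * ((ℓ + k * L : ℕ) : ℝ) * n1 (((der A) ^ k) p)
            ≤ c * ((ℓ + k * L : ℕ) : ℝ) *
              (c ^ k * (∏ j ∈ Finset.range k, ((ℓ : ℝ) + j * L)) * n1 p) :=
              mul_le_mul_of_nonneg_left ih.1 h3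
          _ = _ := by push_cast; ring
      · have := h2 h hh
        rw [Nat.succ_mul]
        omega
  exact (key k).1

theorem grow_prod (m k : ℕ) : (∏ j ∈ Finset.range k, (m + j)) ≤ Nat.factorial k * 2 ^ (m + k) := by
  have h1 : (∏ j ∈ Finset.range k, (m + j)) ≤ ∏ j ∈ Finset.range k, (m + 1 + j) :=
    Finset.prod_le_prod' fun j _ => by omega
  refine h1.trans ?_
  rw [← Nat.ascFactorial_eq_prod_range, Nat.ascFactorial_eq_factorial_mul_choose]
  exact Nat.mul_le_mul_left _ (Nat.choose_le_two_pow _ _)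

/-- the form used below -/
theorem derk_bound [Fintype ι] :
    ∃ R : ℝ, 0 < R ∧ ∀ p : MonoidAlgebra ℂ (FreeGroup ι), ∃ C : ℝ, 0 ≤ C ∧
      ∀ k : ℕ, n1 (((der A) ^ k) p) ≤ C * R ^ k * (Nat.factorial k) := by
  classical
  set c : ℝ := 1 + ∑ i, n1 (A i) with hc
  have hc1 : 1 ≤ c := by
    have : 0 ≤ ∑ i, n1 (A i) := Finset.sum_nonneg fun i _ => n1_nonneg _
    linarith
  have hA : ∀ i, n1 (A i) ≤ c := by
    intro i
    have : n1 (A i) ≤ ∑ i, n1 (A i) :=
      Finset.single_le_sum (f := fun i => n1 (A i)) (fun i _ => n1_nonneg _) (Finset.mem_univ i)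
    linarith
  set L : ℕ := 1 + ∑ i, ∑ h ∈ (A i).coeff.support, h.toWord.length with hLdef
  have hL : 1 ≤ L := by omega
  have hAL : ∀ i, ∀ h, (A i).coeff h ≠ 0 → h.toWord.length ≤ L := by
    intro i h hh
    have h1 : h.toWord.length ≤ ∑ h ∈ (A i).coeff.support, h.toWord.length :=
      Finset.single_le_sum (f := fun h : FreeGroup ι => h.toWord.length) (fun _ _ => Nat.zero_le _)
        (Finsupp.mem_support_iff.2 hh)
    have h2 : ∑ h ∈ (A i).coeff.support, h.toWord.length ≤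
        ∑ i, ∑ h ∈ (A i).coeff.support, h.toWord.length :=
      Finset.single_le_sum (f := fun i => ∑ h ∈ (A i).coeff.support, h.toWord.length)
        (fun _ _ => Nat.zero_le _) (Finset.mem_univ i)
    omega
  have hL0 : (0 : ℝ) < L := by exact_mod_cast hL
  refine ⟨2 * c * L, by positivity, fun p => ?_⟩
  set m : ℕ := ∑ h ∈ p.coeff.support, h.toWord.length with hm
  have hp : ∀ h, p.coeff h ≠ 0 → h.toWord.length ≤ m := by
    intro h hh
    exact Finset.single_le_sum (f := fun h : FreeGroup ι => h.toWord.length)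
      (fun _ _ => Nat.zero_le _) (Finsupp.mem_support_iff.2 hh)
  refine ⟨2 ^ m * n1 p, by have := n1_nonneg p; positivity, fun k => ?_⟩
  refine (derk_growth A c hc1 hA L hL hAL p m hp k).trans ?_
  have h1 : (∏ j ∈ Finset.range k, ((m : ℝ) + j * L)) ≤
      (L : ℝ) ^ k * ((Nat.factorial k : ℝ) * 2 ^ (m + k)) := by
    have h2 : (∏ j ∈ Finset.range k, ((m : ℝ) + j * L)) ≤
        ∏ j ∈ Finset.range k, ((L : ℝ) * ((m : ℝ) + j)) := by
      refine Finset.prod_le_prod (fun j _ => by positivity) fun j _ => ?_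
      have h3 : (1 : ℝ) ≤ L := by exact_mod_cast hL
      have h4 : (0 : ℝ) ≤ m := Nat.cast_nonneg m
      nlinarith
    refine h2.trans ?_
    rw [Finset.prod_mul_distrib, Finset.prod_const, Finset.card_range]
    refine mul_le_mul_of_nonneg_left ?_ (by positivity)
    have h3 := grow_prod m k
    calc (∏ j ∈ Finset.range k, ((m : ℝ) + j)) = ((∏ j ∈ Finset.range k, (m + j) : ℕ) : ℝ) := by
          push_cast; rfl
      _ ≤ ((Nat.factorial k * 2 ^ (m + k) : ℕ) : ℝ) := by exact_mod_cast h3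
      _ = _ := by push_cast; ring
  have h5 : 0 ≤ n1 p := n1_nonneg p
  calc c ^ k * (∏ j ∈ Finset.range k, ((m : ℝ) + j * L)) * n1 p
      ≤ c ^ k * ((L : ℝ) ^ k * ((Nat.factorial k : ℝ) * 2 ^ (m + k))) * n1 p := by
        gcongr
    _ = 2 ^ m * n1 p * (2 * c * L) ^ k * (Nat.factorial k) := by
        rw [pow_add, mul_pow, mul_pow]; ring

end Crest.Agent.R134.Fl
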