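import Crest.Agent.R134.FlT

/-!
# Row 134, flow part: the inner products of the vector series

`⟪ww t p, ww t q⟫ = ⟪TT t p δ, TT t q δ⟫ = ⟪δ, TT t (st p * q) δ⟫ = ⟪δ, ww t (st p * q)⟫
= ∑ t^k/k! (D^k (st p * q)).coeff 1 = (st p * q).coeff 1 = ⟪vec p, vec q⟫` (terms `k ≥ 1` vanish by
`der_tau`).  `⟪ww t p, vec q⟫ = ⟪vec p, ww (-t) q⟫` termwise from `derk_skew`.
-/

set_option autoImplicit false
open Crest.OpAlg
open scoped InnerProductSpace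

namespace Crest.Agent.R134.Fl

variable {ι : Type} [DecidableEq ι] {A : ι → MonoidAlgebra ℂ (FreeGroup ι)}

theorem ww_inner (hA : ∀ i, st (A i) = -A i) (hτ : ∀ g, (dg A g).coeff 1 = 0) {R : ℝ}
    (hR : Gr A R) {t : ℝ} (ht : |t| * R ≤ 1 / 2) (p q : MonoidAlgebra ℂ (FreeGroup ι)) :
    ⟪ww A t p, ww A t q⟫_ℂ = ⟪vec p, vec q⟫_ℂ := by
  have h0 : ∀ r : MonoidAlgebra ℂ (FreeGroup ι), ⟪dl (1 : FreeGroup ι), vec r⟫_ℂ = r.coeff 1 := by
    intro r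
    rw [inner_dl_left, vec_apply]
  have h1 : ⟪ww A t p, ww A t q⟫_ℂ = ⟪dl (1 : FreeGroup ι), ww A t (st p * q)⟫_ℂ := by
    rw [← TT_dl_one hR ht, ← TT_dl_one hR ht, ← TT_dl_one hR ht, TT_mul hR ht, TT_st hA hR ht,
      ContinuousLinearMap.star_eq_adjoint]
    change _ = ⟪dl (1 : FreeGroup ι),
      (ContinuousLinearMap.adjoint (TT A t p)) ((TT A t q) (dl 1))⟫_ℂ
    rw [ContinuousLinearMap.adjoint_inner_right]
  rw [h1, inner_vec, ww]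
  have hs := (ww_summable hR ht (st p * q)).of_norm
  have h2 : ⟪dl (1 : FreeGroup ι),
      ∑' k : ℕ, (((t ^ k / Nat.factorial k : ℝ)) : ℂ) • vec (((der A) ^ k) (st p * q))⟫_ℂ
      = ∑' k : ℕ, ⟪dl (1 : FreeGroup ι),
        (((t ^ k / Nat.factorial k : ℝ)) : ℂ) • vec (((der A) ^ k) (st p * q))⟫_ℂ :=
    (innerSL ℂ (dl (1 : FreeGroup ι))).map_tsum hs
  rw [h2, tsum_eq_single 0]
  · simp [h0]
  · intro k hk
    obtain ⟨m, rfl⟩ := Nat.exists_eq_succ_of_ne_zero hk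
    have h4 : ((der A) ^ (m.succ)) (st p * q) = der A (((der A) ^ m) (st p * q)) := by
      rw [Nat.succ_eq_add_one, pow_succ']; rfl
    rw [inner_smul_right, h0, h4, der_tau A hτ, mul_zero]

theorem ww_adj (hA : ∀ i, st (A i) = -A i) (hτ : ∀ g, (dg A g).coeff 1 = 0) {R : ℝ}
    (hR : Gr A R) {t : ℝ} (ht : |t| * R ≤ 1 / 2) (p q : MonoidAlgebra ℂ (FreeGroup ι)) :
    ⟪ww A t p, vec q⟫_ℂ = ⟪vec p, ww A (-t) q⟫_ℂ := by
  have ht' : |(-t)| * R ≤ 1 / 2 := by rwa [abs_neg]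
  have hs := (ww_summable hR ht p).of_norm
  have hs' := (ww_summable hR ht' q).of_norm
  have h2 : ⟪vec q, ww A t p⟫_ℂ = ∑' k : ℕ, ⟪vec q,
        (((t ^ k / Nat.factorial k : ℝ)) : ℂ) • vec (((der A) ^ k) p)⟫_ℂ :=
    (innerSL ℂ (vec q)).map_tsum hs
  have h3 : ⟪vec p, ww A (-t) q⟫_ℂ = ∑' k : ℕ, ⟪vec p,
        ((((-t) ^ k / Nat.factorial k : ℝ)) : ℂ) • vec (((der A) ^ k) q)⟫_ℂ :=
    (innerSL ℂ (vec p)).map_tsum hs'
  rw [← inner_conj_symm, h2, h3, Complex.conj_tsum]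
  refine tsum_congr fun k => ?_
  rw [inner_smul_right, inner_smul_right, map_mul, inner_conj_symm, Complex.conj_ofReal,
    derk_skew A hA hτ]
  have : (((-t) ^ k / Nat.factorial k : ℝ) : ℂ)
      = (((t ^ k / Nat.factorial k : ℝ)) : ℂ) * (-1) ^ k := by
    rw [neg_pow]; push_cast; ring
  rw [this, mul_assoc]

end Crest.Agent.R134.Fl
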