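import Crest.Agent.R134.FlGood
import Crest.Agent.R134.FlGrow

/-!
# Row 134, flow part: small times, summary

From `derk_bound`, `exists_V`, `good_V`, `ww_taylor`, `ww_of_der_eq_zero`, `ww_supp`.
Support for general `ξ` supported on `H`: approximate `ξ` by `vec p`, `p` supported in `H` (restrict
a dense approximation to `H`), `V` isometric, coordinates continuous.
-/

set_option autoImplicit false
open Crest.OpAlg
open scoped InnerProductSpace

namespace Crest.Agent.R134.Fl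

variable {ι : Type} [DecidableEq ι] [Fintype ι] {A : ι → MonoidAlgebra ℂ (FreeGroup ι)}

/-- support: from finitely supported vectors to all vectors -/
theorem supp_ext (V : ltwo (FreeGroup ι) →L[ℂ] ltwo (FreeGroup ι)) (H : Subgroup (FreeGroup ι))
    (hV : ∀ p : MonoidAlgebra ℂ (FreeGroup ι), (∀ h, p.coeff h ≠ 0 → h ∈ H) →
      ∀ h, h ∉ H → V (vec p) h = 0)
    (ξ : ltwo (FreeGroup ι)) (hξ : ∀ h, h ∉ H → ξ h = 0) (h : FreeGroup ι) (hh : h ∉ H) :
    V ξ h = 0 := by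
  have h1 : HasSum (fun g => (lp.single 2 g (ξ g) : ltwo (FreeGroup ι))) ξ :=
    lp.hasSum_single (by norm_num) ξ
  have h2 := (h1.mapL V).mapL (innerSL ℂ (dl h))
  have h3 : ∀ g, (innerSL ℂ (dl h)) (V (lp.single 2 g (ξ g) : ltwo (FreeGroup ι))) = 0 := by
    intro g
    have e : (lp.single 2 g (ξ g) : ltwo (FreeGroup ι)) = vec (MonoidAlgebra.single g (ξ g)) := by
      rw [show vec (MonoidAlgebra.single g (ξ g)) = ξ g • dl g by
        rw [← vec_E, ← vec_smul, E, MonoidAlgebra.smul_single, smul_eq_mul, mul_one],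
        dl, ← lp.single_smul, smul_eq_mul, mul_one]
    rw [e, innerSL_apply_apply, inner_dl_left]
    refine hV _ (fun k hk => ?_) h hh
    by_contra hkH
    apply hk
    rw [MonoidAlgebra.coeff_single, Finsupp.single_apply]
    split_ifs with hgk
    · rw [hgk]; exact hξ k hkH
    · rfl
  have h4 : (innerSL ℂ (dl h)) (V ξ) = 0 := by
    refine h2.unique ?_
    simp only [h3]
    exact hasSum_zero
  rwa [innerSL_apply_apply, inner_dl_left] at h4

theorem flow_small (hA : ∀ i, st (A i) = -A i) (hτ : ∀ g, (dg A g).coeff 1 = 0) :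
    ∃ (t₀ : ℝ) (V : ℝ → (ltwo (FreeGroup ι) ≃ₗᵢ[ℂ] ltwo (FreeGroup ι))), 0 < t₀ ∧
      (∀ t, |t| ≤ t₀ → Good (V t)) ∧
      (∀ t, |t| ≤ t₀ → ∀ p, der A p = 0 → V t (vec p) = vec p) ∧
      (∀ p, ∃ C : ℝ, 0 ≤ C ∧ ∀ t, |t| ≤ t₀ →
        ‖V t (vec p) - vec p - (t : ℂ) • vec (der A p)‖ ≤ C * t ^ 2 ∧
        ‖(V t).symm (vec p) - vec p + (t : ℂ) • vec (der A p)‖ ≤ C * t ^ 2) ∧
      (∀ t, |t| ≤ t₀ → ∀ H : Subgroup (FreeGroup ι),
        (∀ g ∈ H, ∀ h, (dg A g).coeff h ≠ 0 → h ∈ H) →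
        ∀ ξ : ltwo (FreeGroup ι), (∀ h, h ∉ H → ξ h = 0) → ∀ h, h ∉ H → (V t).symm ξ h = 0) := by
  obtain ⟨R, hR0, hR1⟩ := derk_bound A
  have hR : Gr A R := ⟨hR0, hR1⟩
  have key : ∀ t : ℝ, |t| ≤ 1 / (2 * R) → |t| * R ≤ 1 / 2 := by
    intro t ht
    have := mul_le_mul_of_nonneg_right ht hR0.le
    refine this.trans (le_of_eq ?_)
    field_simp
  have keyn : ∀ t : ℝ, |t| ≤ 1 / (2 * R) → |(-t)| * R ≤ 1 / 2 := by
    intro t ht
    rw [abs_neg]; exact key t ht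
  have hex : ∀ t : ℝ, ∃ V : ltwo (FreeGroup ι) ≃ₗᵢ[ℂ] ltwo (FreeGroup ι),
      |t| * R ≤ 1 / 2 → ((∀ p, V (vec p) = ww A t p) ∧ ∀ p, V.symm (vec p) = ww A (-t) p) := by
    intro t
    by_cases h : |t| * R ≤ 1 / 2
    · obtain ⟨V, h1, h2⟩ := exists_V hA hτ hR h
      exact ⟨V, fun _ => ⟨h1, h2⟩⟩
    · exact ⟨LinearIsometryEquiv.refl ℂ _, fun h' => absurd h' h⟩
  choose V hV using hex
  refine ⟨1 / (2 * R), V, by positivity, ?_, ?_, ?_, ?_⟩
  · intro t ht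
    exact good_V hR (key t ht) (V t) (hV t (key t ht)).1 (hV t (key t ht)).2
  · intro t ht p hp
    rw [(hV t (key t ht)).1, ww_of_der_eq_zero t p hp]
  · intro p
    obtain ⟨C, hC0, hC⟩ := ww_taylor hR p
    refine ⟨C, hC0, fun t ht => ⟨?_, ?_⟩⟩
    · rw [(hV t (key t ht)).1]
      exact hC t (key t ht)
    · rw [(hV t (key t ht)).2]
      have h := hC (-t) (keyn t ht)
      rw [neg_sq, Complex.ofReal_neg, neg_smul, sub_neg_eq_add] at h
      exact h
  · intro t ht H hH ξ hξ h hh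
    refine supp_ext ((V t).symm : ltwo (FreeGroup ι) →L[ℂ] ltwo (FreeGroup ι)) H ?_ ξ hξ h hh
    intro p hp k hk
    show (V t).symm (vec p) k = 0
    rw [(hV t (key t ht)).2]
    exact ww_supp hR (keyn t ht) H hH p hp k hk

end Crest.Agent.R134.Fl
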