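import Crest.Agent.R134.FlDer

/-!
# Row 134, flow part: the operator series `TT A t p = ∑_k t^k/k! lam (D^k p)`

`hR`: for all `p` there is `C` with `n1 (D^k p) ≤ C R^k k!`; `|t| R ≤ 1/2`.  The series converges
absolutely in operator norm (`≤ C 2^{-k}`).  Multiplicativity: Cauchy product
(`tsum_mul_tsum_eq_tsum_sum_antidiagonal_of_summable_norm`) and `derk_mul`.  Star:
`derk_st` and continuity.  `TT ∈ groupVNA`: norm closed (a von Neumann algebra is a commutant).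
`TT (dl 1) = ∑_k t^k/k! vec (D^k p) =: ww A t p` .
-/

set_option autoImplicit false
open Crest.OpAlg
open scoped InnerProductSpace

namespace Crest.Agent.R134.Fl

variable {ι : Type} [DecidableEq ι] (A : ι → MonoidAlgebra ℂ (FreeGroup ι))

/-- the operator series -/
noncomputable def TT (t : ℝ) (p : MonoidAlgebra ℂ (FreeGroup ι)) :
    ltwo (FreeGroup ι) →L[ℂ] ltwo (FreeGroup ι) :=
  ∑' k : ℕ, (((t ^ k / Nat.factorial k : ℝ)) : ℂ) • lam (((der A) ^ k) p)

/-- the vector series -/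
noncomputable def ww (t : ℝ) (p : MonoidAlgebra ℂ (FreeGroup ι)) : ltwo (FreeGroup ι) :=
  ∑' k : ℕ, (((t ^ k / Nat.factorial k : ℝ)) : ℂ) • vec (((der A) ^ k) p)

/-- the growth hypothesis -/
def Gr (R : ℝ) : Prop :=
  0 < R ∧ ∀ p : MonoidAlgebra ℂ (FreeGroup ι), ∃ C : ℝ, 0 ≤ C ∧
      ∀ k : ℕ, n1 (((der A) ^ k) p) ≤ C * R ^ k * (Nat.factorial k)

variable {A}

private theorem tt_coef {R : ℝ} (hR0 : 0 < R) {t : ℝ} (ht : |t| * R ≤ 1 / 2) {C : ℝ}
    (hC0 : 0 ≤ C) (k : ℕ) {a : ℝ} (ha : a ≤ C * R ^ k * (Nat.factorial k)) :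
    ‖(((t ^ k / Nat.factorial k : ℝ)) : ℂ)‖ * a ≤ C * (1 / 2) ^ k := by
  have hf : (0 : ℝ) < Nat.factorial k := by exact_mod_cast Nat.factorial_pos k
  rw [Complex.norm_real, norm_div, norm_pow, Real.norm_eq_abs, Real.norm_eq_abs,
    abs_of_pos hf]
  have h1 : |t| ^ k / (Nat.factorial k : ℝ) * a ≤
      |t| ^ k / (Nat.factorial k : ℝ) * (C * R ^ k * (Nat.factorial k)) :=
    mul_le_mul_of_nonneg_left ha (by positivity)
  have h2 : |t| ^ k / (Nat.factorial k : ℝ) * (C * R ^ k * (Nat.factorial k)) =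
      C * (|t| * R) ^ k := by
    rw [mul_pow]
    field_simp
  rw [h2] at h1
  refine h1.trans (mul_le_mul_of_nonneg_left ?_ hC0)
  exact pow_le_pow_left₀ (by positivity) ht k

private theorem tt_geom (C : ℝ) : Summable (fun k : ℕ => C * (1 / 2 : ℝ) ^ k) :=
  (summable_geometric_of_lt_one (by norm_num) (by norm_num)).mul_left C

theorem TT_summable {R : ℝ} (hR : Gr A R) {t : ℝ} (ht : |t| * R ≤ 1 / 2)
    (p : MonoidAlgebra ℂ (FreeGroup ι)) :
    Summable (fun k : ℕ => ‖(((t ^ k / Nat.factorial k : ℝ)) : ℂ) • lam (((der A) ^ k) p)‖) := by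
  obtain ⟨C, hC0, hC⟩ := hR.2 p
  refine Summable.of_nonneg_of_le (fun k => norm_nonneg _) (fun k => ?_) (tt_geom C)
  rw [norm_smul]
  exact tt_coef hR.1 ht hC0 k ((norm_lam_le _).trans (hC k))

theorem ww_summable {R : ℝ} (hR : Gr A R) {t : ℝ} (ht : |t| * R ≤ 1 / 2)
    (p : MonoidAlgebra ℂ (FreeGroup ι)) :
    Summable (fun k : ℕ => ‖(((t ^ k / Nat.factorial k : ℝ)) : ℂ) • vec (((der A) ^ k) p)‖) := by
  obtain ⟨C, hC0, hC⟩ := hR.2 p
  refine Summable.of_nonneg_of_le (fun k => norm_nonneg _) (fun k => ?_) (tt_geom C)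
  rw [norm_smul]
  exact tt_coef hR.1 ht hC0 k ((norm_vec_le _).trans (hC k))

theorem TT_dl_one {R : ℝ} (hR : Gr A R) {t : ℝ} (ht : |t| * R ≤ 1 / 2)
    (p : MonoidAlgebra ℂ (FreeGroup ι)) : TT A t p (dl 1) = ww A t p := by
  have hs : Summable (fun k : ℕ =>
      (((t ^ k / Nat.factorial k : ℝ)) : ℂ) • lam (((der A) ^ k) p)) :=
    (TT_summable hR ht p).of_norm
  have h := (ContinuousLinearMap.apply ℂ (ltwo (FreeGroup ι)) (dl (1 : FreeGroup ι))).map_tsum hs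
  unfold TT ww
  refine h.trans (tsum_congr fun k => ?_)
  show (((t ^ k / Nat.factorial k : ℝ)) : ℂ) • lam (((der A) ^ k) p) (dl 1) = _
  rw [lam_dl_one]

/-- `lam` as an additive map -/
private noncomputable def lamHom :
    MonoidAlgebra ℂ (FreeGroup ι) →+ (ltwo (FreeGroup ι) →L[ℂ] ltwo (FreeGroup ι)) :=
  AddMonoidHom.mk' lam lam_add

private theorem lam_sum' {κ : Type*} (s : Finset κ) (f : κ → MonoidAlgebra ℂ (FreeGroup ι)) :
    lam (∑ i ∈ s, f i) = ∑ i ∈ s, lam (f i) :=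
  map_sum (lamHom (ι := ι)) f s

theorem TT_mul {R : ℝ} (hR : Gr A R) {t : ℝ} (ht : |t| * R ≤ 1 / 2)
    (p q : MonoidAlgebra ℂ (FreeGroup ι)) : TT A t (p * q) = TT A t p * TT A t q := by
  unfold TT
  rw [tsum_mul_tsum_eq_tsum_sum_range_of_summable_norm (TT_summable hR ht p)
    (TT_summable hR ht q)]
  refine tsum_congr fun k => ?_
  rw [derk_mul, lam_sum', Finset.smul_sum]
  refine Finset.sum_congr rfl fun j hj => ?_
  have hjk : j ≤ k := Nat.lt_succ_iff.1 (Finset.mem_range.1 hj)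
  rw [lam_smul, lam_mul, smul_smul, smul_mul_smul_comm]
  congr 1
  have h1 : ((Nat.choose k j : ℕ) : ℝ) * (Nat.factorial j) * (Nat.factorial (k - j)) =
      Nat.factorial k := by exact_mod_cast Nat.choose_mul_factorial_mul_factorial hjk
  have hj0 : (Nat.factorial j : ℝ) ≠ 0 := by exact_mod_cast Nat.factorial_ne_zero j
  have hkj0 : (Nat.factorial (k - j) : ℝ) ≠ 0 := by exact_mod_cast Nat.factorial_ne_zero (k - j)
  have hk0 : (Nat.factorial k : ℝ) ≠ 0 := by exact_mod_cast Nat.factorial_ne_zero k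
  have h2 : (t ^ k / Nat.factorial k : ℝ) * (Nat.choose k j : ℕ) =
      (t ^ j / Nat.factorial j : ℝ) * (t ^ (k - j) / Nat.factorial (k - j)) := by
    rw [← h1]
    have hc0 : ((Nat.choose k j : ℕ) : ℝ) ≠ 0 := by
      exact_mod_cast (Nat.choose_pos hjk).ne'
    have h3 : t ^ k = t ^ j * t ^ (k - j) := by rw [← pow_add, Nat.add_sub_cancel' hjk]
    rw [h3]
    field_simp
  exact_mod_cast h2

theorem TT_st (hA : ∀ i, st (A i) = -A i) {R : ℝ} (hR : Gr A R) {t : ℝ} (ht : |t| * R ≤ 1 / 2)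
    (p : MonoidAlgebra ℂ (FreeGroup ι)) : TT A t (st p) = star (TT A t p) := by
  unfold TT
  rw [tsum_star]
  refine tsum_congr fun k => ?_
  rw [derk_st A hA, lam_st, star_smul]
  congr 1
  exact (Complex.conj_ofReal _).symm

theorem TT_mem {R : ℝ} (hR : Gr A R) {t : ℝ} (ht : |t| * R ≤ 1 / 2)
    (p : MonoidAlgebra ℂ (FreeGroup ι)) : TT A t p ∈ groupVNA (FreeGroup ι) := by
  have hs : Summable (fun k : ℕ =>
      (((t ^ k / Nat.factorial k : ℝ)) : ℂ) • lam (((der A) ^ k) p)) :=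
    (TT_summable hR ht p).of_norm
  rw [← VonNeumannAlgebra.commutant_commutant (groupVNA (FreeGroup ι)),
    VonNeumannAlgebra.mem_commutant_iff]
  intro y hy
  rw [VonNeumannAlgebra.mem_commutant_iff] at hy
  unfold TT
  rw [← hs.tsum_mul_left, ← hs.tsum_mul_right]
  refine tsum_congr fun k => ?_
  rw [mul_smul_comm, smul_mul_assoc]
  congr 1
  exact (hy _ (lam_mem _)).symm

theorem ww_add {R : ℝ} (hR : Gr A R) {t : ℝ} (ht : |t| * R ≤ 1 / 2)
    (p q : MonoidAlgebra ℂ (FreeGroup ι)) : ww A t (p + q) = ww A t p + ww A t q := by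
  have h1 := (ww_summable hR ht p).of_norm
  have h2 := (ww_summable hR ht q).of_norm
  rw [ww, ww, ww, ← h1.tsum_add h2]
  refine tsum_congr fun k => ?_
  rw [map_add, vec_add, smul_add]

theorem ww_smul (t : ℝ) (c : ℂ) (p : MonoidAlgebra ℂ (FreeGroup ι)) :
    ww A t (c • p) = c • ww A t p := by
  rw [ww, ww, ← tsum_const_smul'']
  refine tsum_congr fun k => ?_
  rw [map_smul, vec_smul, smul_comm]

/-- second order Taylor estimate, uniform for small `t` -/
theorem ww_taylor {R : ℝ} (hR : Gr A R) (p : MonoidAlgebra ℂ (FreeGroup ι)) :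
    ∃ C : ℝ, 0 ≤ C ∧ ∀ t : ℝ, |t| * R ≤ 1 / 2 →
      ‖ww A t p - vec p - (t : ℂ) • vec (der A p)‖ ≤ C * t ^ 2 := by
  obtain ⟨hR0, hC'⟩ := hR
  obtain ⟨C, hC0, hC⟩ := hC' p
  refine ⟨C * R ^ 2 * 2, by positivity, fun t ht => ?_⟩
  have hs := (ww_summable ⟨hR0, hC'⟩ ht p).of_norm
  set f : ℕ → ltwo (FreeGroup ι) :=
    fun k : ℕ => (((t ^ k / Nat.factorial k : ℝ)) : ℂ) • vec (((der A) ^ k) p) with hf
  have h2 : ww A t p = ∑ i ∈ Finset.range 2, f i + ∑' k, f (k + 2) :=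
    (hs.sum_add_tsum_nat_add 2).symm
  have h3 : ww A t p - vec p - (t : ℂ) • vec (der A p) = ∑' k, f (k + 2) := by
    rw [h2, Finset.sum_range_succ, Finset.sum_range_one]
    simp only [hf]
    simp
    abel
  rw [h3]
  have hx0 : 0 ≤ |t| * R := by positivity
  have hb : ∀ k, ‖f (k + 2)‖ ≤ C * (|t| * R) ^ (k + 2) := by
    intro k
    simp only [hf]
    rw [norm_smul, Complex.norm_real, Real.norm_eq_abs, abs_div, abs_pow, Nat.abs_cast]
    have hk : (0 : ℝ) < ((k + 2).factorial : ℝ) := by exact_mod_cast Nat.factorial_pos _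
    calc |t| ^ (k + 2) / ((k + 2).factorial : ℝ) * ‖vec (((der A) ^ (k + 2)) p)‖
        ≤ |t| ^ (k + 2) / ((k + 2).factorial : ℝ) * (C * R ^ (k + 2) * ((k + 2).factorial : ℝ)) := by
          gcongr
          exact (norm_vec_le _).trans (hC _)
      _ = C * (|t| * R) ^ (k + 2) := by
          rw [mul_pow]; field_simp
  have hg : HasSum (fun k : ℕ => C * (|t| * R) ^ 2 * (|t| * R) ^ k)
      (C * (|t| * R) ^ 2 * (1 - |t| * R)⁻¹) :=
    (hasSum_geometric_of_lt_one hx0 (by linarith)).mul_left _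
  have hle : ‖∑' k, f (k + 2)‖ ≤ C * (|t| * R) ^ 2 * (1 - |t| * R)⁻¹ := by
    refine tsum_of_norm_bounded hg fun k => (hb k).trans (le_of_eq ?_)
    ring
  refine hle.trans ?_
  have hinv : (1 - |t| * R)⁻¹ ≤ 2 := by
    rw [inv_le_comm₀ (by linarith) (by norm_num)]
    linarith
  calc C * (|t| * R) ^ 2 * (1 - |t| * R)⁻¹ ≤ C * (|t| * R) ^ 2 * 2 := by gcongr
    _ = C * R ^ 2 * 2 * t ^ 2 := by rw [mul_pow, sq_abs]; ring

theorem ww_of_der_eq_zero (t : ℝ) (p : MonoidAlgebra ℂ (FreeGroup ι)) (hp : der A p = 0) :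
    ww A t p = vec p := by
  rw [ww, tsum_eq_single 0]
  · simp
  · intro k hk
    obtain ⟨m, rfl⟩ := Nat.exists_eq_succ_of_ne_zero hk
    have : ((der A) ^ (m + 1)) p = 0 := by
      rw [pow_succ, Module.End.mul_apply, hp, map_zero]
    rw [Nat.succ_eq_add_one, this, vec_zero, smul_zero]

/-- `ww` of elements supported in `H` is supported in `H` -/
theorem ww_supp {R : ℝ} (hR : Gr A R) {t : ℝ} (ht : |t| * R ≤ 1 / 2)
    (H : Subgroup (FreeGroup ι)) (hH : ∀ g ∈ H, ∀ h, (dg A g).coeff h ≠ 0 → h ∈ H)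
    (p : MonoidAlgebra ℂ (FreeGroup ι)) (hp : ∀ h, p.coeff h ≠ 0 → h ∈ H) (h : FreeGroup ι)
    (hh : h ∉ H) : (ww A t p : FreeGroup ι → ℂ) h = 0 := by
  have hs := (ww_summable hR ht p).of_norm
  rw [← inner_dl_left, ← innerSL_apply_apply ℂ, ww, ContinuousLinearMap.map_tsum _ hs]
  refine (tsum_congr fun k => ?_).trans tsum_zero
  rw [map_smul, innerSL_apply_apply, inner_dl_left, vec_apply]
  have : (((der A) ^ k) p).coeff h = 0 := by
    by_contra hne
    exact hh (derk_supp A H hH k p hp h hne)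
  rw [this, smul_zero]

end Crest.Agent.R134.Fl
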