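import Crest.Agent.R134.FlIso

/-!
# Row 134, flow part: the unitary `V_t`

`V_t : vec p ↦ ww t p` is a linear isometry on the dense range of `vec` (`vec_dense`,
`vec_injective`); extend to `ℓ²(G)` (e.g. `LinearIsometry.extend`, `LinearMap.extend`,
`DenseRange`‑extension `ContinuousLinearMap.extend`).  Same for `-t`.  From `ww_adj`
`⟪V_t ξ, η⟫ = ⟪ξ, V_{-t} η⟫` for all `ξ, η`, so `V_{-t} V_t = 1` (isometry) and, exchanging roles,
`V_t V_{-t} = 1`.  Result: a linear isometry equivalence with `V (vec p) = ww t p`,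
`V.symm (vec p) = ww (-t) p`.
-/

set_option autoImplicit false
open Crest.OpAlg
open scoped InnerProductSpace

namespace Crest.Agent.R134.Fl

variable {ι : Type} [DecidableEq ι] {A : ι → MonoidAlgebra ℂ (FreeGroup ι)}

theorem exists_iso (hA : ∀ i, st (A i) = -A i) (hτ : ∀ g, (dg A g).coeff 1 = 0) {R : ℝ}
    (hR : Gr A R) {t : ℝ} (ht : |t| * R ≤ 1 / 2) :
    ∃ V : ltwo (FreeGroup ι) →ₗᵢ[ℂ] ltwo (FreeGroup ι), ∀ p, V (vec p) = ww A t p := by
  have hort : Orthonormal ℂ (fun g : FreeGroup ι => ww A t (E g)) := by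
    rw [orthonormal_iff_ite]
    intro g h
    rw [ww_inner hA hτ hR ht, vec_E, vec_E, inner_dl_left, dl_apply]
  refine ⟨hort.orthogonalFamily.linearIsometry, fun p => ?_⟩
  induction p using MonoidAlgebra.induction_linear with
  | zero =>
    have h0 : ww A t 0 = (0 : ℂ) • ww A t 0 := by
      rw [← ww_smul, smul_zero]
    rw [vec_zero, map_zero, h0, zero_smul]
  | add x y hx hy => rw [vec_add, map_add, hx, hy, ww_add hR ht]
  | single m r =>
    have h1 : (MonoidAlgebra.single m r : MonoidAlgebra ℂ (FreeGroup ι)) = r • E m := by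
      rw [E, MonoidAlgebra.smul_single, smul_eq_mul, mul_one]
    rw [h1, vec_smul, map_smul, ww_smul, vec_E, dl,
      OrthogonalFamily.linearIsometry_apply_single, LinearIsometry.toSpanSingleton_apply, one_smul]

theorem iso_adj (hA : ∀ i, st (A i) = -A i) (hτ : ∀ g, (dg A g).coeff 1 = 0) {R : ℝ}
    (hR : Gr A R) {t : ℝ} (ht : |t| * R ≤ 1 / 2)
    (V W : ltwo (FreeGroup ι) →ₗᵢ[ℂ] ltwo (FreeGroup ι)) (hV : ∀ p, V (vec p) = ww A t p)
    (hW : ∀ p, W (vec p) = ww A (-t) p) (ξ η : ltwo (FreeGroup ι)) :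
    ⟪V ξ, η⟫_ℂ = ⟪ξ, W η⟫_ℂ := by
  have hd : DenseRange (vec : MonoidAlgebra ℂ (FreeGroup ι) → ltwo (FreeGroup ι)) := vec_dense
  refine hd.induction_on (p := fun ξ => ⟪V ξ, η⟫_ℂ = ⟪ξ, W η⟫_ℂ) ξ
    (isClosed_eq (V.continuous.inner continuous_const) (continuous_id.inner continuous_const))
    fun p => ?_
  refine hd.induction_on (p := fun η => ⟪V (vec p), η⟫_ℂ = ⟪vec p, W η⟫_ℂ) η
    (isClosed_eq (continuous_const.inner continuous_id) (continuous_const.inner W.continuous))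
    fun q => ?_
  rw [hV, hW, ww_adj hA hτ hR ht]

theorem exists_V (hA : ∀ i, st (A i) = -A i) (hτ : ∀ g, (dg A g).coeff 1 = 0) {R : ℝ}
    (hR : Gr A R) {t : ℝ} (ht : |t| * R ≤ 1 / 2) :
    ∃ V : ltwo (FreeGroup ι) ≃ₗᵢ[ℂ] ltwo (FreeGroup ι), (∀ p, V (vec p) = ww A t p) ∧
      ∀ p, V.symm (vec p) = ww A (-t) p := by
  have ht' : |-t| * R ≤ 1 / 2 := by rwa [abs_neg]
  obtain ⟨V, hV⟩ := exists_iso hA hτ hR ht
  obtain ⟨W, hW⟩ := exists_iso hA hτ hR ht'
  have h1 := iso_adj hA hτ hR ht V W hV hW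
  have h2 := iso_adj hA hτ hR ht' W V hW (by simpa using hV)
  have hWV : ∀ ξ, W (V ξ) = ξ := fun ξ => by
    refine ext_inner_right ℂ fun η => ?_
    rw [h2, V.inner_map_map]
  have hVW : ∀ ξ, V (W ξ) = ξ := fun ξ => by
    refine ext_inner_right ℂ fun η => ?_
    rw [h1, W.inner_map_map]
  let V' : ltwo (FreeGroup ι) ≃ₗᵢ[ℂ] ltwo (FreeGroup ι) :=
    { toFun := V
      invFun := W
      map_add' := V.map_add
      map_smul' := V.map_smul
      left_inv := hWV
      right_inv := hVW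
      norm_map' := V.norm_map }
  exact ⟨V', hV, hW⟩

end Crest.Agent.R134.Fl
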