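import Crest.Agent.R134.DefsA
import Crest.Agent.R134.Word

/-!
# Row 134: the subgroup `H = ⟨x, a^4, a b a⟩`: no element `≠ 1` begins or ends with `b^{±1}`

Proof (Stallings graph): vertices `Fin 4`, edges `a : i → i+1` (all `i`), `b : 1 → 3`, `x : 0 → 0`
(partial injective maps).  Run a word from a vertex (`Option (Fin 4)`): letter `(i, true)` follows the
edge forwards, `(i, false)` backwards.  Since the edge maps are injective partial maps, if a word `w` runs
from `p` to `q` and `w'` is obtained by a cancellation step `Red.Step w w'`, then `w'` runs from `p` to `q`.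
The generators' words run `0 → 0`; products of loops are loops; inverses of loops are loops; so (closure
induction) the reduced word of every `h ∈ H` runs `0 → 0`.  At vertex 0 no `b`-edge starts or ends
(`b : 1 → 3` only), so the first letter of the reduced word is not `b^{±1}`.
-/

set_option autoImplicit false

namespace Crest.Agent.R134

variable {ι : Type} [DecidableEq ι] {ia ib ix : ι}

namespace HPropAux

/-- one letter of the Stallings graph -/
def stp (ia ib ix : ι) (l : ι × Bool) (p : Fin 4) : Option (Fin 4) :=
  if l.1 = ia then (if l.2 then some (p + 1) else some (p - 1))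
  else if l.1 = ib then
    (if l.2 then (if p = 1 then some 3 else none) else (if p = 3 then some 1 else none))
  else if l.1 = ix then (if p = 0 then some 0 else none)
  else none

/-- run a word -/
def run (ia ib ix : ι) : List (ι × Bool) → Fin 4 → Option (Fin 4)
  | [], p => some p
  | l :: L, p => (stp ia ib ix l p).bind (run ia ib ix L)

theorem run_append (L₁ L₂ : List (ι × Bool)) (p : Fin 4) :
    run ia ib ix (L₁ ++ L₂) p = (run ia ib ix L₁ p).bind (run ia ib ix L₂) := by
  induction L₁ generalizing p with
  | nil => simp [run]
  | cons l L ih =>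
    simp only [List.cons_append, run]
    rcases stp ia ib ix l p with _ | q
    · rfl
    · simpa using ih q

theorem stp_inv (i : ι) (b : Bool) (p q : Fin 4) (h : stp ia ib ix (i, b) p = some q) :
    stp ia ib ix (i, !b) q = some p := by
  unfold stp at h ⊢
  simp only at h ⊢
  split_ifs at h ⊢ with h1 h2 h3 h4 h5 h6 h7 h8 h9 <;>
    simp_all
  all_goals first
    | (subst h; simp; done)
    | (rw [← h]; simp; done)
    | skip

theorem run_step {L₁ L₂ : List (ι × Bool)} (h : FreeGroup.Red.Step L₁ L₂) (p q : Fin 4)
    (hr : run ia ib ix L₁ p = some q) : run ia ib ix L₂ p = some q := by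
  cases h with
  | @not A B i b =>
    rw [run_append] at hr ⊢
    rcases hA : run ia ib ix A p with _ | r
    · rw [hA] at hr; simp at hr
    · rw [hA] at hr
      simp only [Option.bind_some, run] at hr ⊢
      rcases hs : stp ia ib ix (i, b) r with _ | s
      · rw [hs] at hr; simp at hr
      · rw [hs] at hr
        simp only [Option.bind_some] at hr
        rw [stp_inv i b r s hs] at hr
        simpa using hr

theorem run_red {L₁ L₂ : List (ι × Bool)} (h : FreeGroup.Red L₁ L₂) (p q : Fin 4)
    (hr : run ia ib ix L₁ p = some q) : run ia ib ix L₂ p = some q := by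
  induction h with
  | refl => exact hr
  | tail _ hs ih => exact run_step hs p q ih

theorem run_invRev (L : List (ι × Bool)) (p q : Fin 4)
    (hr : run ia ib ix L p = some q) : run ia ib ix (FreeGroup.invRev L) q = some p := by
  induction L generalizing p with
  | nil => simp only [run, Option.some.injEq] at hr; subst hr; simp [FreeGroup.invRev, run]
  | cons l L ih =>
    simp only [run] at hr
    rcases hs : stp ia ib ix l p with _ | s
    · rw [hs] at hr; simp at hr
    · rw [hs] at hr
      simp only [Option.bind_some] at hr
      have h1 := ih s hr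
      have h2 : FreeGroup.invRev (l :: L) = FreeGroup.invRev L ++ [(l.1, !l.2)] := by
        simp [FreeGroup.invRev]
      rw [h2, run_append, h1]
      simp only [Option.bind_some, run]
      rw [stp_inv l.1 l.2 p s hs]
      simp

/-- loops at the base point -/
def Loop (ia ib ix : ι) (g : FreeGroup ι) : Prop := run ia ib ix g.toWord 0 = some 0

theorem loop_mul {g h : FreeGroup ι} (hg : Loop ia ib ix g) (hh : Loop ia ib ix h) :
    Loop ia ib ix (g * h) := by
  unfold Loop at *
  rw [FreeGroup.toWord_mul]
  apply run_red FreeGroup.reduce.red
  rw [run_append, hg]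
  simpa using hh

theorem loop_inv {g : FreeGroup ι} (hg : Loop ia ib ix g) : Loop ia ib ix g⁻¹ := by
  unfold Loop at *
  rw [FreeGroup.toWord_inv]
  exact run_invRev _ _ _ hg

theorem loop_mk (L : List (ι × Bool)) (h : run ia ib ix L 0 = some 0) :
    Loop ia ib ix (FreeGroup.mk L) := by
  unfold Loop
  rw [FreeGroup.toWord_mk]
  exact run_red FreeGroup.reduce.red _ _ h

theorem loop_of_mem (hab : ia ≠ ib) (hax : ia ≠ ix) (hbx : ib ≠ ix) (h : FreeGroup ι)
    (hh : h ∈ HH ia ib ix) : Loop ia ib ix h := by
  induction hh using Subgroup.closure_induction with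
  | mem g hg =>
    simp only [Set.mem_insert_iff, Set.mem_singleton_iff] at hg
    rcases hg with rfl | rfl | rfl
    · have : (FreeGroup.of ix : FreeGroup ι) = FreeGroup.mk [(ix, true)] := rfl
      rw [this]
      apply loop_mk
      simp [run, stp, hax.symm, hbx.symm]
    · have : (FreeGroup.of ia ^ 4 : FreeGroup ι)
          = FreeGroup.mk [(ia, true), (ia, true), (ia, true), (ia, true)] := by
        simp only [pow_succ, pow_zero, one_mul, FreeGroup.of, FreeGroup.mul_mk]
        rfl
      rw [this]
      apply loop_mk
      simp [run, stp]
    · have : (FreeGroup.of ia * FreeGroup.of ib * FreeGroup.of ia : FreeGroup ι)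
          = FreeGroup.mk [(ia, true), (ib, true), (ia, true)] := by
        simp only [FreeGroup.of, FreeGroup.mul_mk]
        rfl
      rw [this]
      apply loop_mk
      simp [run, stp, hab.symm]
  | one => simp [Loop, run]
  | mul g h _ _ hg hh => exact loop_mul hg hh
  | inv g _ hg => exact loop_inv hg

end HPropAux

open HPropAux in
theorem HH_hd (hab : ia ≠ ib) (hax : ia ≠ ix) (hbx : ib ≠ ix) (h : FreeGroup ι)
    (hh : h ∈ HH ia ib ix) : hd h ≠ some ib := by
  intro hc
  have hl := loop_of_mem hab hax hbx h hh
  unfold Loop at hl
  unfold hd at hc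
  rcases hw : h.toWord with _ | ⟨l, L⟩
  · rw [hw] at hc; simp at hc
  · rw [hw] at hc hl
    simp only [List.head?_cons, Option.map_some, Option.some.injEq] at hc
    simp only [run, stp, hc, hab.symm, if_true, if_false] at hl
    rcases l.2 with _ | _ <;> simp at hl

end Crest.Agent.R134
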