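import Crest.Agent.R134.FlowLong
import Crest.Agent.R134.DTau
import Crest.Agent.R134.DNorm
import Crest.Agent.R134.DH
import Crest.Agent.R134.HProp
import Crest.Agent.R134.GoodFacts

/-!
# Row 134, part (A): output (assembly of `flow_long`, `Af_st`, `Af_tau`, `norm_der_b`, `der_x`,
`norm_der_der_x`, `Af_HH`)
-/

set_option autoImplicit false
open Crest.OpAlg
open scoped InnerProductSpace

namespace Crest.Agent.R134

variable {ι : Type} [DecidableEq ι] {ia ib ix : ι}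

theorem flowA [Fintype ι] (hab : ia ≠ ib) (hax : ia ≠ ix) (hbx : ib ≠ ix) (s : ℝ) (hs : 0 < s)
    (hs1 : s ≤ 1) (δ : ℝ) (hδ : 0 < δ) :
    ∃ (V : ltwo (FreeGroup ι) ≃ₗᵢ[ℂ] ltwo (FreeGroup ι)) (p r : FreeGroup ι), Good V ∧
      deg ix p = 2 ∧ deg ix r = 0 ∧
      (∀ i, i ≠ ib → i ≠ ix → V (dl (FreeGroup.of i)) = dl (FreeGroup.of i)) ∧
      ‖V (dl (FreeGroup.of ib)) - dl (FreeGroup.of ib)‖ ≤ δ ∧
      ‖V.symm (dl (FreeGroup.of ix)) - dl (FreeGroup.of ix) + ((s / 2 : ℝ) : ℂ) • dl p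
          - ((s / 2 : ℝ) : ℂ) • dl r‖ ≤ 11 / 10 * s ^ 2 ∧
      (∀ h, V.symm (dl (FreeGroup.of ix)) h ≠ 0 → h ∈ HH ia ib ix) := by
  classical
  obtain ⟨N, hN⟩ := exists_nat_gt (2 * s ^ 2 / δ ^ 2)
  set n : ℕ := N + 1 with hn
  have hn1 : 1 ≤ n := by omega
  have hnpos : (0 : ℝ) < n := by exact_mod_cast hn1
  have hnN : 2 * s ^ 2 / δ ^ 2 < n := by
    have : (N : ℝ) ≤ n := by exact_mod_cast (by omega : N ≤ n)
    linarith
  have hδ2 : 0 < δ ^ 2 := by positivity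
  have hs2 : 0 < s ^ 2 := by positivity
  set A := Af ia ib ix n with hA
  obtain ⟨V, hV, hfix, h1, h2, h3⟩ := flow_long A (Af_st n) (Af_tau hab hax hbx n hn1) s hs.le
    (min (δ / 2) (s ^ 2 / 10)) (by positivity)
    {E (FreeGroup.of ib), E (FreeGroup.of ix)}
  refine ⟨V, FreeGroup.of ix * (GG ia ib n)⁻¹ * FreeGroup.of ix, GG ia ib n, hV,
    deg_xrx hax hbx n, deg_GG hax hbx n, ?_, ?_, ?_, ?_⟩
  · intro i hi1 hi2
    have h4 := hfix (E (FreeGroup.of i)) (by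
      rw [der_E, dg_of, hA, Af_other n i hi1 hi2, zero_mul])
    rwa [vec_E] at h4
  · have h4 := h1 (E (FreeGroup.of ib)) (by simp)
    rw [vec_E] at h4
    refine h4.trans ?_
    have h5 := norm_der_b hab hax hbx n hn1
    have h6 : s * ‖vec (der A (E (FreeGroup.of ib)))‖ ≤ δ / 2 := by
      refine abs_le_of_sq_le_sq' ?_ (by positivity) |>.2
      rw [mul_pow, hA, h5]
      rw [div_lt_iff₀ hδ2] at hnN
      rw [mul_one_div, div_le_iff₀ (by positivity)]
      nlinarith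
    have h7 := min_le_left (δ / 2) (s ^ 2 / 10)
    linarith
  · have h4 := h2 (E (FreeGroup.of ix)) (by simp)
    have h5 := norm_der_der_x (ia := ia) (ib := ib) (ix := ix) hab hax hbx n hn1
    rw [vec_E] at h4
    have h6 : ((s : ℝ) : ℂ) • vec (der A (E (FreeGroup.of ix)))
        = ((s / 2 : ℝ) : ℂ) • dl (FreeGroup.of ix * (GG ia ib n)⁻¹ * FreeGroup.of ix)
          - ((s / 2 : ℝ) : ℂ) • dl (GG ia ib n) := by
      rw [hA, der_x, vec_smul, sub_eq_add_neg, vec_add]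
      have h8 : vec (-E (GG ia ib n)) = -dl (GG ia ib n) := by
        rw [← vec_E, ← neg_one_smul ℂ (E (GG ia ib n)), vec_smul, neg_one_smul]
      rw [h8, vec_E, smul_smul, smul_add, smul_neg, ← sub_eq_add_neg]
      congr 2 <;> push_cast <;> ring
    have h7 : V.symm (dl (FreeGroup.of ix)) - dl (FreeGroup.of ix)
        + ((s / 2 : ℝ) : ℂ) • dl (FreeGroup.of ix * (GG ia ib n)⁻¹ * FreeGroup.of ix)
        - ((s / 2 : ℝ) : ℂ) • dl (GG ia ib n)
        = V.symm (dl (FreeGroup.of ix)) - dl (FreeGroup.of ix)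
          + (s : ℂ) • vec (der A (E (FreeGroup.of ix))) := by
      rw [h6]; abel
    rw [h7]
    refine h4.trans ?_
    have h9 := min_le_right (δ / 2) (s ^ 2 / 10)
    have h10 : s ^ 2 / 2 * ‖vec (der A (der A (E (FreeGroup.of ix))))‖ ≤ s ^ 2 / 2 * 2 :=
      mul_le_mul_of_nonneg_left h5 (by positivity)
    linarith
  · intro h hh
    by_contra hc
    apply hh
    refine h3 (HH ia ib ix) (fun g hg k hk => Af_HH hab hax hbx n g hg k hk) _ ?_ h hc
    intro k hk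
    rw [dl_apply, if_neg]
    rintro rfl
    exact hk (Subgroup.subset_closure (by simp))

end Crest.Agent.R134
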