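import Crest.Agent.R134.FlSmall

/-!
# Row 134, part (A3)/(A4): the flow of a skew, trace-free derivation

OUTPUT of the flow part.  `D = der A` is the derivation of `ℂ[FreeGroup ι]` with `D(u_i) = A_i u_i`.

`V = (V_{s/k})^k` (`V_{s/k}` from `flow_small`), `k` large.  `S` = `V_{s/k}` or its inverse.
* `‖V p - p‖ ≤ k ‖S p - p‖ ≤ s ‖Dp‖ + C s²/k` (telescoping, `S` isometric).
* `S = V_{s/k}.symm`: `S^k p - p + s Dp = ∑_{j<k} S^j (S p - p + (s/k) Dp)
   - (s/k) ∑_{j<k} (S^j Dp - Dp)`, norms `≤ k C (s/k)²` and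
   `(s/k) ∑_{j<k} j ((s/k) ‖D²p‖ + C' (s/k)²) ≤ (s²/2) ‖D²p‖ + C' s³/k`.
-/

set_option autoImplicit false
open Crest.OpAlg
open scoped InnerProductSpace

namespace Crest.Agent.R134

private theorem cj_mul {G : Type} (V W : ltwo G ≃ₗᵢ[ℂ] ltwo G) (m : ltwo G →L[ℂ] ltwo G) :
    cj (V * W) m = cj V (cj W m) := by
  ext1 ξ
  rfl

private theorem cj_one {G : Type} (m : ltwo G →L[ℂ] ltwo G) :
    cj (1 : ltwo G ≃ₗᵢ[ℂ] ltwo G) m = m := by
  ext1 ξ
  rfl

private theorem good_one {G : Type} [Group G] [DecidableEq G] :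
    Good (1 : ltwo G ≃ₗᵢ[ℂ] ltwo G) where
  one := rfl
  mem m hm := by rw [cj_one]; exact hm
  mem' m hm := by
    have : (1 : ltwo G ≃ₗᵢ[ℂ] ltwo G).symm = 1 := rfl
    rw [this, cj_one]; exact hm

private theorem good_mul {G : Type} [Group G] [DecidableEq G] {V W : ltwo G ≃ₗᵢ[ℂ] ltwo G}
    (hV : Good V) (hW : Good W) : Good (V * W) where
  one := by
    show V (W (dl 1)) = dl 1
    rw [hW.one, hV.one]
  mem m hm := by rw [cj_mul]; exact hV.mem _ (hW.mem _ hm)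
  mem' m hm := by
    have : (V * W).symm = W.symm * V.symm := rfl
    rw [this, cj_mul]; exact hW.mem' _ (hV.mem' _ hm)

/-- powers of a Good unitary -/
theorem Fl.good_pow {G : Type} [Group G] [DecidableEq G] {V : ltwo G ≃ₗᵢ[ℂ] ltwo G}
    (hV : Good V) (k : ℕ) : Good (V ^ k) := by
  induction k with
  | zero => rw [pow_zero]; exact good_one
  | succ k ih => rw [pow_succ]; exact good_mul ih hV

/-- abstract telescoping estimates for an isometry `S` of a normed space -/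
theorem Fl.iso_pow_sub {X : Type*} [NormedAddCommGroup X] [NormedSpace ℂ X] (S : X ≃ₗᵢ[ℂ] X)
    (k : ℕ) (ξ : X) : ‖(S ^ k) ξ - ξ‖ ≤ k * ‖S ξ - ξ‖ := by
  induction k with
  | zero => simp
  | succ k ih =>
    have h1 : (S ^ (k + 1)) ξ = (S ^ k) (S ξ) := by rw [pow_succ]; rfl
    have h2 : (S ^ (k + 1)) ξ - ξ = (S ^ k) (S ξ - ξ) + ((S ^ k) ξ - ξ) := by
      rw [h1, map_sub]; abel
    rw [h2]
    refine (norm_add_le _ _).trans ?_
    rw [LinearIsometryEquiv.norm_map]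
    push_cast
    linarith

theorem Fl.iso_pow_taylor {X : Type*} [NormedAddCommGroup X] [NormedSpace ℂ X] (S : X ≃ₗᵢ[ℂ] X)
    (k : ℕ) (u : ℝ) (hu : 0 ≤ u) (ξ η : X) (a b : ℝ) (ha : ‖S ξ - ξ + (u : ℂ) • η‖ ≤ a)
    (hb : ‖S η - η‖ ≤ b) :
    ‖(S ^ k) ξ - ξ + ((k * u : ℝ) : ℂ) • η‖ ≤ k * a + u * (k ^ 2 / 2) * b := by
  have hb0 : 0 ≤ b := (norm_nonneg _).trans hb
  induction k with
  | zero => simp
  | succ k ih =>
    have h1 : (S ^ (k + 1)) ξ = (S ^ k) (S ξ) := by rw [pow_succ]; rfl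
    have h2 : (S ^ (k + 1)) ξ - ξ + (((k + 1 : ℕ) * u : ℝ) : ℂ) • η =
        (S ^ k) (S ξ - ξ + (u : ℂ) • η) - (u : ℂ) • ((S ^ k) η - η) +
          ((S ^ k) ξ - ξ + ((k * u : ℝ) : ℂ) • η) := by
      rw [h1, map_add, map_sub, map_smul]
      push_cast
      module
    rw [h2]
    have h3 : ‖(S ^ k) (S ξ - ξ + (u : ℂ) • η)‖ ≤ a := by
      rw [LinearIsometryEquiv.norm_map]; exact ha
    have h4 : ‖(u : ℂ) • ((S ^ k) η - η)‖ ≤ u * (k * b) := by
      rw [norm_smul, Complex.norm_real, Real.norm_of_nonneg hu]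
      refine mul_le_mul_of_nonneg_left ?_ hu
      refine (Fl.iso_pow_sub S k η).trans ?_
      exact mul_le_mul_of_nonneg_left hb (Nat.cast_nonneg k)
    calc ‖(S ^ k) (S ξ - ξ + (u : ℂ) • η) - (u : ℂ) • ((S ^ k) η - η) +
          ((S ^ k) ξ - ξ + ((k * u : ℝ) : ℂ) • η)‖
        ≤ (a + u * (k * b)) + (k * a + u * (k ^ 2 / 2) * b) := by
          refine (norm_add_le _ _).trans (add_le_add ?_ ih)
          exact (norm_sub_le _ _).trans (add_le_add h3 h4)
      _ ≤ ((k + 1 : ℕ) : ℝ) * a + u * (((k + 1 : ℕ) : ℝ) ^ 2 / 2) * b := by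
          push_cast
          nlinarith [mul_nonneg hu hb0]

theorem flow_long {ι : Type} [DecidableEq ι] [Fintype ι]
    (A : ι → MonoidAlgebra ℂ (FreeGroup ι)) (hA : ∀ i, st (A i) = -A i)
    (hτ : ∀ g, (dg A g).coeff 1 = 0) (s : ℝ) (hs : 0 ≤ s) (η : ℝ) (hη : 0 < η)
    (P : Finset (MonoidAlgebra ℂ (FreeGroup ι))) :
    ∃ V : ltwo (FreeGroup ι) ≃ₗᵢ[ℂ] ltwo (FreeGroup ι), Good V ∧
      (∀ p, der A p = 0 → V (vec p) = vec p) ∧
      (∀ p ∈ P, ‖V (vec p) - vec p‖ ≤ s * ‖vec (der A p)‖ + η) ∧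
      (∀ p ∈ P, ‖V.symm (vec p) - vec p + (s : ℂ) • vec (der A p)‖
        ≤ s ^ 2 / 2 * ‖vec (der A (der A p))‖ + η) ∧
      (∀ H : Subgroup (FreeGroup ι), (∀ g ∈ H, ∀ h, (dg A g).coeff h ≠ 0 → h ∈ H) →
        ∀ ξ : ltwo (FreeGroup ι), (∀ h, h ∉ H → ξ h = 0) → ∀ h, h ∉ H → V.symm ξ h = 0) := by
  obtain ⟨t₀, W, ht₀, hgood, hker, htay, hsupp⟩ := Fl.flow_small hA hτ
  choose C hC0 hC using htay
  -- choose `k`
  have hlim : ∀ c : ℝ, Filter.Tendsto (fun k : ℕ => c / (k : ℝ)) Filter.atTop (nhds 0) :=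
    fun c => tendsto_const_div_atTop_nhds_zero_nat c
  have e1 : ∀ᶠ k : ℕ in Filter.atTop, s / (k : ℝ) ≤ t₀ :=
    (hlim s).eventually (ge_mem_nhds ht₀)
  have e2 : ∀ᶠ k : ℕ in Filter.atTop, ∀ p ∈ P,
      (C p * s ^ 2) / (k : ℝ) ≤ η := by
    rw [Filter.eventually_all_finset]
    intro p _
    exact (hlim _).eventually (ge_mem_nhds hη)
  have e3 : ∀ᶠ k : ℕ in Filter.atTop, ∀ p ∈ P,
      (C p * s ^ 2 + C (der A p) * s ^ 3 / 2) / (k : ℝ) ≤ η := by
    rw [Filter.eventually_all_finset]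
    intro p _
    exact (hlim _).eventually (ge_mem_nhds hη)
  obtain ⟨k, hk1, hk2, hk3, hk0⟩ :=
    (e1.and (e2.and (e3.and (Filter.eventually_gt_atTop 0)))).exists
  have hkpos : (0 : ℝ) < k := by exact_mod_cast hk0
  set u : ℝ := s / k with hu
  have hu0 : 0 ≤ u := div_nonneg hs hkpos.le
  have hut : |u| ≤ t₀ := by rw [abs_of_nonneg hu0]; exact hk1
  have hku : (k : ℝ) * u = s := by rw [hu]; field_simp
  have hsymm : (W u ^ k).symm = (W u).symm ^ k := by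
    have h1 : (W u ^ k).symm = (W u ^ k)⁻¹ := rfl
    have h2 : (W u).symm = (W u)⁻¹ := rfl
    rw [h1, h2, inv_pow]
  refine ⟨W u ^ k, Fl.good_pow (hgood u hut) k, ?_, ?_, ?_, ?_⟩
  · intro p hp
    have h := Fl.iso_pow_sub (W u) k (vec p)
    rw [hker u hut p hp, sub_self, norm_zero, mul_zero] at h
    exact sub_eq_zero.1 (norm_le_zero_iff.1 h)
  · intro p hp
    refine (Fl.iso_pow_sub (W u) k (vec p)).trans ?_
    have h1 : ‖(W u) (vec p) - vec p‖ ≤ C p * u ^ 2 + u * ‖vec (der A p)‖ := by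
      have h2 : (W u) (vec p) - vec p =
          ((W u) (vec p) - vec p - (u : ℂ) • vec (der A p)) + (u : ℂ) • vec (der A p) := by abel
      rw [h2]
      refine (norm_add_le _ _).trans (add_le_add (hC p u hut).1 ?_)
      rw [norm_smul, Complex.norm_real, Real.norm_of_nonneg hu0]
    have h3 : (k : ℝ) * (C p * u ^ 2 + u * ‖vec (der A p)‖) =
        s * ‖vec (der A p)‖ + (C p * s ^ 2) / k := by
      rw [hu]; field_simp; ring
    calc (k : ℝ) * ‖(W u) (vec p) - vec p‖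
        ≤ (k : ℝ) * (C p * u ^ 2 + u * ‖vec (der A p)‖) :=
          mul_le_mul_of_nonneg_left h1 hkpos.le
      _ ≤ s * ‖vec (der A p)‖ + η := by rw [h3]; linarith [hk2 p hp]
  · intro p hp
    rw [hsymm]
    have hb : ‖(W u).symm (vec (der A p)) - vec (der A p)‖ ≤
        C (der A p) * u ^ 2 + u * ‖vec (der A (der A p))‖ := by
      have h2 : (W u).symm (vec (der A p)) - vec (der A p) =
          ((W u).symm (vec (der A p)) - vec (der A p) + (u : ℂ) • vec (der A (der A p))) -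
            (u : ℂ) • vec (der A (der A p)) := by abel
      rw [h2]
      refine (norm_sub_le _ _).trans (add_le_add (hC (der A p) u hut).2 ?_)
      rw [norm_smul, Complex.norm_real, Real.norm_of_nonneg hu0]
    have h := Fl.iso_pow_taylor (W u).symm k u hu0 (vec p) (vec (der A p)) _ _
      (hC p u hut).2 hb
    rw [hku] at h
    refine h.trans ?_
    have h3 : (k : ℝ) * (C p * u ^ 2) +
        u * ((k : ℝ) ^ 2 / 2) * (C (der A p) * u ^ 2 + u * ‖vec (der A (der A p))‖) =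
        s ^ 2 / 2 * ‖vec (der A (der A p))‖ +
          (C p * s ^ 2 + C (der A p) * s ^ 3 / 2) / k := by
      rw [hu]; field_simp; ring
    rw [h3]
    linarith [hk3 p hp]
  · intro H hH ξ hξ
    rw [hsymm]
    have key : ∀ j : ℕ, ∀ h, h ∉ H → ((W u).symm ^ j) ξ h = 0 := by
      intro j
      induction j with
      | zero => rw [pow_zero]; exact hξ
      | succ j ih =>
        have h1 : ((W u).symm ^ (j + 1)) ξ = (W u).symm (((W u).symm ^ j) ξ) := by
          rw [pow_succ']; rfl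
        rw [h1]
        exact hsupp u hut H hH _ ih
    exact key k

end Crest.Agent.R134
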