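import Crest.Agent.R134.MFacts

/-!
# Row 134: the generating function `gen ix ξ t = ∑_g |ξ(g)|² t^{deg g}`
-/

set_option autoImplicit false
set_option linter.unusedSectionVars false
open Crest.OpAlg
open scoped InnerProductSpace

namespace Crest.Agent.R134

variable {ι : Type} [DecidableEq ι] (ix : ι)

theorem gen_summable (ξ : ltwo (FreeGroup ι)) (t : ℝ) (h0 : 0 ≤ t) (h1 : t ≤ 1) :
    Summable fun g => ‖ξ g‖ ^ 2 * t ^ deg ix g := by
  refine Summable.of_nonneg_of_le (fun g => by positivity) (fun g => ?_) (summable_sq ξ)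
  exact mul_le_of_le_one_right (by positivity) (pow_le_one₀ h0 h1)

theorem gen_nonneg (ξ : ltwo (FreeGroup ι)) (t : ℝ) (h0 : 0 ≤ t) : 0 ≤ gen ix ξ t :=
  tsum_nonneg fun g => by positivity

theorem gen_one (ξ : ltwo (FreeGroup ι)) : gen ix ξ 1 = ‖ξ‖ ^ 2 := by
  rw [norm_sq_eq, gen]
  simp

theorem gen_le (ξ : ltwo (FreeGroup ι)) (t : ℝ) (h0 : 0 ≤ t) (h1 : t ≤ 1) :
    gen ix ξ t ≤ ‖ξ‖ ^ 2 := by
  rw [norm_sq_eq, gen]
  refine Summable.tsum_le_tsum (fun g => ?_) (gen_summable ix ξ t h0 h1) (summable_sq ξ)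
  exact mul_le_of_le_one_right (by positivity) (pow_le_one₀ h0 h1)

theorem gen_mono (ξ : ltwo (FreeGroup ι)) (s t : ℝ) (h0 : 0 ≤ s) (hst : s ≤ t) (h1 : t ≤ 1) :
    gen ix ξ s ≤ gen ix ξ t := by
  refine Summable.tsum_le_tsum (fun g => ?_) (gen_summable ix ξ s h0 (hst.trans h1))
    (gen_summable ix ξ t (h0.trans hst) h1)
  exact mul_le_mul_of_nonneg_left (pow_le_pow_left₀ h0 hst _) (by positivity)

end Crest.Agent.R134
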