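import Crest.Agent.R134.MFacts
import Crest.Agent.R134.GenA

/-!
# Row 134: the generating function `gen ix ξ t = ∑_g |ξ(g)|² t^{deg g}`
-/

set_option autoImplicit false
set_option linter.unusedSectionVars false
open Crest.OpAlg
open scoped InnerProductSpace

namespace Crest.Agent.R134

variable {ι : Type} [DecidableEq ι] (ix : ι)

/-- the vector `(√t)^{deg g} ξ(g)` -/
noncomputable def genV (t : ℝ) (h0 : 0 ≤ t) (h1 : t ≤ 1) (ξ : ltwo (FreeGroup ι)) :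
    ltwo (FreeGroup ι) :=
  ⟨fun g => (((√t) ^ deg ix g : ℝ) : ℂ) * ξ g, by
    have h := (lp.memℓp ξ).summable (by norm_num)
    refine memℓp_gen (Summable.of_nonneg_of_le (fun g => by positivity) (fun g => ?_) h)
    have h2 : √t ≤ 1 := Real.sqrt_le_one.2 h1
    have h3 : ‖(((√t) ^ deg ix g : ℝ) : ℂ) * ξ g‖ ≤ ‖ξ g‖ := by
      rw [norm_mul, Complex.norm_real, Real.norm_of_nonneg (by positivity)]
      have : √t ^ deg ix g ≤ 1 := pow_le_one₀ (Real.sqrt_nonneg t) h2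
      nlinarith [norm_nonneg (ξ g)]
    exact Real.rpow_le_rpow (norm_nonneg _) h3 (by norm_num)⟩

theorem genV_apply (t : ℝ) (h0 : 0 ≤ t) (h1 : t ≤ 1) (ξ : ltwo (FreeGroup ι)) (g : FreeGroup ι) :
    genV ix t h0 h1 ξ g = (((√t) ^ deg ix g : ℝ) : ℂ) * ξ g := rfl

theorem norm_genV_sq (t : ℝ) (h0 : 0 ≤ t) (h1 : t ≤ 1) (ξ : ltwo (FreeGroup ι)) :
    ‖genV ix t h0 h1 ξ‖ ^ 2 = gen ix ξ t := by
  rw [norm_sq_eq, gen]
  refine tsum_congr fun g => ?_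
  rw [genV_apply, norm_mul, Complex.norm_real, Real.norm_of_nonneg (by positivity), mul_pow,
    ← pow_mul, mul_comm (deg ix g) 2, pow_mul, Real.sq_sqrt h0, mul_comm]

theorem genV_sub (t : ℝ) (h0 : 0 ≤ t) (h1 : t ≤ 1) (ξ η : ltwo (FreeGroup ι)) :
    genV ix t h0 h1 (ξ - η) = genV ix t h0 h1 ξ - genV ix t h0 h1 η := by
  ext g
  rw [lp.coeFn_sub, Pi.sub_apply, genV_apply, genV_apply, genV_apply, lp.coeFn_sub, Pi.sub_apply,
    mul_sub]

theorem norm_genV_le (t : ℝ) (h0 : 0 ≤ t) (h1 : t ≤ 1) (ξ : ltwo (FreeGroup ι)) :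
    ‖genV ix t h0 h1 ξ‖ ≤ ‖ξ‖ := by
  have h := gen_le ix ξ t h0 h1
  rw [← norm_genV_sq ix t h0 h1] at h
  exact (pow_le_pow_iff_left₀ (norm_nonneg _) (norm_nonneg _) two_ne_zero).1 h

/-- Lipschitz in the vector -/
theorem gen_lip (ξ η : ltwo (FreeGroup ι)) (t : ℝ) (h0 : 0 ≤ t) (h1 : t ≤ 1) :
    |gen ix ξ t - gen ix η t| ≤ (‖ξ‖ + ‖η‖) * ‖ξ - η‖ := by
  rw [← norm_genV_sq ix t h0 h1, ← norm_genV_sq ix t h0 h1]
  have h2 : |‖genV ix t h0 h1 ξ‖ - ‖genV ix t h0 h1 η‖| ≤ ‖ξ - η‖ := by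
    refine (abs_norm_sub_norm_le _ _).trans ?_
    rw [← genV_sub]
    exact norm_genV_le ix t h0 h1 _
  have h3 : ‖genV ix t h0 h1 ξ‖ + ‖genV ix t h0 h1 η‖ ≤ ‖ξ‖ + ‖η‖ :=
    add_le_add (norm_genV_le ix t h0 h1 ξ) (norm_genV_le ix t h0 h1 η)
  rw [sq_sub_sq, abs_mul, abs_of_nonneg (by positivity)]
  exact mul_le_mul h3 h2 (abs_nonneg _) (by positivity)

/-- value at 0: the squared norm of the degree-0 part -/
theorem gen_zero (ξ : ltwo (FreeGroup ι)) :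
    gen ix ξ 0 = ∑' g : FreeGroup ι, if deg ix g = 0 then ‖ξ g‖ ^ 2 else 0 := by
  rw [gen]
  refine tsum_congr fun g => ?_
  by_cases h : deg ix g = 0
  · rw [h, if_pos rfl, pow_zero, mul_one]
  · rw [if_neg h, zero_pow h, mul_zero]

/-- left continuity at 1 -/
theorem gen_tendsto_one (ξ : ltwo (FreeGroup ι)) (ε : ℝ) (hε : 0 < ε) :
    ∃ t0 : ℝ, t0 < 1 ∧ ∀ t, t0 ≤ t → 0 ≤ t → t ≤ 1 → ‖ξ‖ ^ 2 - ε ≤ gen ix ξ t := by
  classical
  have hs := summable_sq ξ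
  have h1 : Filter.Tendsto (fun s : Finset (FreeGroup ι) => ∑ g ∈ s, ‖ξ g‖ ^ 2) Filter.atTop
      (nhds (‖ξ‖ ^ 2)) := by
    rw [norm_sq_eq]
    exact hs.hasSum
  have h2 : ∀ᶠ s : Finset (FreeGroup ι) in Filter.atTop, ‖ξ‖ ^ 2 - ε / 2 < ∑ g ∈ s, ‖ξ g‖ ^ 2 :=
    h1.eventually (lt_mem_nhds (by linarith))
  obtain ⟨s, hs2⟩ := h2.exists
  have hc : Continuous fun t : ℝ => ∑ g ∈ s, ‖ξ g‖ ^ 2 * t ^ deg ix g := by fun_prop
  have h3 : ∀ᶠ t in nhds (1 : ℝ), ‖ξ‖ ^ 2 - ε < ∑ g ∈ s, ‖ξ g‖ ^ 2 * t ^ deg ix g := by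
    refine hc.continuousAt.eventually (lt_mem_nhds ?_)
    simp only [one_pow, mul_one]
    linarith
  obtain ⟨δ, hδ, hδ2⟩ := Metric.eventually_nhds_iff.1 h3
  refine ⟨1 - δ / 2, by linarith, fun t ht h0 h1 => ?_⟩
  have h4 : dist t 1 < δ := by
    rw [Real.dist_eq, abs_lt]
    constructor <;> linarith
  have h5 := hδ2 h4
  refine h5.le.trans ?_
  rw [gen]
  exact (gen_summable ix ξ t h0 h1).sum_le_tsum s fun g _ => by positivity

/-- additivity over vectors with disjoint supports -/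
theorem gen_sum {α : Type} (s : Finset α) (f : α → ltwo (FreeGroup ι))
    (hdisj : ∀ i ∈ s, ∀ j ∈ s, i ≠ j → ∀ g, f i g = 0 ∨ f j g = 0) (t : ℝ) (h0 : 0 ≤ t)
    (h1 : t ≤ 1) : gen ix (∑ i ∈ s, f i) t = ∑ i ∈ s, gen ix (f i) t := by
  classical
  have key : ∀ g, ‖(∑ i ∈ s, f i : ltwo (FreeGroup ι)) g‖ ^ 2 * t ^ deg ix g =
      ∑ i ∈ s, ‖f i g‖ ^ 2 * t ^ deg ix g := by
    intro g
    rw [lp.coeFn_sum, Finset.sum_apply, ← Finset.sum_mul]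
    congr 1
    by_cases hz : ∀ i ∈ s, f i g = 0
    · rw [Finset.sum_eq_zero hz, Finset.sum_eq_zero fun i hi => by rw [hz i hi]; simp]
      simp
    · push Not at hz
      obtain ⟨i, hi, hig⟩ := hz
      have ho : ∀ j ∈ s, j ≠ i → f j g = 0 := fun j hj hji => by
        rcases hdisj j hj i hi hji g with h | h
        · exact h
        · exact absurd h hig
      rw [Finset.sum_eq_single_of_mem i hi ho,
        Finset.sum_eq_single_of_mem i hi fun j hj hji => by rw [ho j hj hji]; simp]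
  simp only [gen]
  rw [tsum_congr key, Summable.tsum_finsetSum fun i _ => gen_summable ix (f i) t h0 h1]

theorem gen_smul (c : ℂ) (ξ : ltwo (FreeGroup ι)) (t : ℝ) :
    gen ix (c • ξ) t = ‖c‖ ^ 2 * gen ix ξ t := by
  rw [gen, gen, ← tsum_mul_left]
  refine tsum_congr fun g => ?_
  rw [lp.coeFn_smul, Pi.smul_apply, norm_smul, mul_pow, mul_assoc]

theorem gen_dl (g : FreeGroup ι) (t : ℝ) : gen ix (dl g) t = t ^ deg ix g := by
  rw [gen, tsum_eq_single g fun h hh => by rw [dl_apply, if_neg hh]; simp, dl_apply, if_pos rfl]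
  simp

end Crest.Agent.R134
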