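import Crest.Agent.R134.MFacts
import Crest.Agent.R134.GenL

/-!
# Row 134: the generating function `gen ix ξ t = ∑_g |ξ(g)|² t^{deg g}`
-/

set_option autoImplicit false
set_option linter.unusedSectionVars false
open Crest.OpAlg
open scoped InnerProductSpace

namespace Crest.Agent.R134

variable {ι : Type} [DecidableEq ι] (ix : ι)

/-- a product of Fourier coefficients is a coefficient of the product -/
theorem conv_ne_zero {m n : ltwo (FreeGroup ι) →L[ℂ] ltwo (FreeGroup ι)}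
    (hm : m ∈ groupVNA (FreeGroup ι)) (g : FreeGroup ι) (hg : (m ∘L n) (dl 1) g ≠ 0) :
    ∃ h, m (dl 1) (g * h⁻¹) ≠ 0 ∧ n (dl 1) h ≠ 0 := by
  by_contra hcon
  push Not at hcon
  have h1 := M_conv (n := n) hm g
  have h2 : (fun h => m (dl 1) (g * h⁻¹) * n (dl 1) h) = fun _ => 0 := by
    funext h
    by_cases h3 : m (dl 1) (g * h⁻¹) = 0
    · rw [h3, zero_mul]
    · rw [hcon h h3, mul_zero]
  rw [h2] at h1
  exact hg (h1.unique hasSum_zero)

/-- the coefficients of the product on `S * T` -/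
theorem conv_single {m n : ltwo (FreeGroup ι) →L[ℂ] ltwo (FreeGroup ι)}
    (hm : m ∈ groupVNA (FreeGroup ι)) (S T : Set (FreeGroup ι))
    (hS : ∀ g, m (dl 1) g ≠ 0 → g ∈ S) (hT : ∀ g, n (dl 1) g ≠ 0 → g ∈ T)
    (hinj : ∀ g ∈ S, ∀ h ∈ T, ∀ g' ∈ S, ∀ h' ∈ T, g * h = g' * h' → g = g' ∧ h = h')
    {s u : FreeGroup ι} (hs : s ∈ S) (hu : u ∈ T) :
    (m ∘L n) (dl 1) (s * u) = m (dl 1) s * n (dl 1) u := by
  have h1 := M_conv (n := n) hm (s * u)
  have h2 : HasSum (fun h => m (dl 1) (s * u * h⁻¹) * n (dl 1) h)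
      (m (dl 1) (s * u * u⁻¹) * n (dl 1) u) := by
    refine hasSum_single u fun h hne => ?_
    by_contra hcon
    have ha : m (dl 1) (s * u * h⁻¹) ≠ 0 := fun h0 => hcon (by rw [h0, zero_mul])
    have hb : n (dl 1) h ≠ 0 := fun h0 => hcon (by rw [h0, mul_zero])
    exact hne (hinj _ (hS _ ha) _ (hT _ hb) _ hs _ hu (by group)).2
  have h3 := h1.unique h2
  rw [mul_inv_cancel_right] at h3
  exact h3

/-- PRODUCT LEMMA: `m, n ∈ M` (only `m` matters), the Fourier supports of `m` and `n` being contained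
in `S`, `T` such that the product `S × T → G` is injective and the degree is additive on it. -/
theorem gen_mul {m n : ltwo (FreeGroup ι) →L[ℂ] ltwo (FreeGroup ι)}
    (hm : m ∈ groupVNA (FreeGroup ι)) (S T : Set (FreeGroup ι))
    (hS : ∀ g, m (dl 1) g ≠ 0 → g ∈ S) (hT : ∀ g, n (dl 1) g ≠ 0 → g ∈ T)
    (hinj : ∀ g ∈ S, ∀ h ∈ T, ∀ g' ∈ S, ∀ h' ∈ T, g * h = g' * h' → g = g' ∧ h = h')
    (hdeg : ∀ g ∈ S, ∀ h ∈ T, deg ix (g * h) = deg ix g + deg ix h) (t : ℝ) (h0 : 0 ≤ t)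
    (h1 : t ≤ 1) :
    gen ix ((m ∘L n) (dl 1)) t = gen ix (m (dl 1)) t * gen ix (n (dl 1)) t := by
  have hsa := gen_summable ix (m (dl 1)) t h0 h1
  have hsb := gen_summable ix (n (dl 1)) t h0 h1
  have hna : Summable fun g => ‖‖m (dl 1) g‖ ^ 2 * t ^ deg ix g‖ := by
    simpa only [Real.norm_of_nonneg (mul_nonneg (sq_nonneg _) (pow_nonneg h0 _))] using hsa
  have hnb : Summable fun g => ‖‖n (dl 1) g‖ ^ 2 * t ^ deg ix g‖ := by
    simpa only [Real.norm_of_nonneg (mul_nonneg (sq_nonneg _) (pow_nonneg h0 _))] using hsb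
  unfold gen
  rw [tsum_mul_tsum_of_summable_norm hna hnb]
  have key : ∀ s u : FreeGroup ι, m (dl 1) s ≠ 0 → n (dl 1) u ≠ 0 →
      ‖(m ∘L n) (dl 1) (s * u)‖ ^ 2 * t ^ deg ix (s * u) =
        ‖m (dl 1) s‖ ^ 2 * t ^ deg ix s * (‖n (dl 1) u‖ ^ 2 * t ^ deg ix u) := by
    intro s u hs hu
    rw [conv_single hm S T hS hT hinj (hS s hs) (hT u hu), hdeg s (hS s hs) u (hT u hu),
      norm_mul, mul_pow, pow_add]
    ring
  have hsup : ∀ x : Function.support (fun z : FreeGroup ι × FreeGroup ι =>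
      ‖m (dl 1) z.1‖ ^ 2 * t ^ deg ix z.1 * (‖n (dl 1) z.2‖ ^ 2 * t ^ deg ix z.2)),
      m (dl 1) (x : FreeGroup ι × FreeGroup ι).1 ≠ 0 ∧
        n (dl 1) (x : FreeGroup ι × FreeGroup ι).2 ≠ 0 := by
    intro x
    have hx := x.2
    rw [Function.mem_support] at hx
    constructor
    · intro h; apply hx; simp [h]
    · intro h; apply hx; simp [h]
  refine tsum_eq_tsum_of_ne_zero_bij
    (fun x => (x : FreeGroup ι × FreeGroup ι).1 * (x : FreeGroup ι × FreeGroup ι).2) ?_ ?_ ?_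
  · intro x y hxy
    obtain ⟨hx1, hx2⟩ := hsup x
    obtain ⟨hy1, hy2⟩ := hsup y
    obtain ⟨h3, h4⟩ := hinj _ (hS _ hx1) _ (hT _ hx2) _ (hS _ hy1) _ (hT _ hy2) hxy
    exact Subtype.ext (Prod.ext h3 h4)
  · intro g hg
    rw [Function.mem_support] at hg
    have hg0 : (m ∘L n) (dl 1) g ≠ 0 := by
      intro h; apply hg; rw [h]; simp
    obtain ⟨h, ha, hb⟩ := conv_ne_zero hm g hg0
    have hgh : g * h⁻¹ * h = g := by group
    refine ⟨⟨(g * h⁻¹, h), ?_⟩, hgh⟩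
    rw [Function.mem_support, ← key _ _ ha hb, hgh]
    exact hg
  · intro x
    obtain ⟨hx1, hx2⟩ := hsup x
    exact key _ _ hx1 hx2

/-- the support of a product -/
theorem supp_mul {m n : ltwo (FreeGroup ι) →L[ℂ] ltwo (FreeGroup ι)}
    (hm : m ∈ groupVNA (FreeGroup ι)) (S T : Set (FreeGroup ι))
    (hS : ∀ g, m (dl 1) g ≠ 0 → g ∈ S) (hT : ∀ g, n (dl 1) g ≠ 0 → g ∈ T)
    (g : FreeGroup ι) (hg : (m ∘L n) (dl 1) g ≠ 0) : ∃ s ∈ S, ∃ u ∈ T, g = s * u := by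
  obtain ⟨h, ha, hb⟩ := conv_ne_zero hm g hg
  exact ⟨g * h⁻¹, hS _ ha, h, hT _ hb, by group⟩

end Crest.Agent.R134
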