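import Crest.Agent.R134.MFacts

/-!
# Row 134: unitaries normalising `M` and fixing `δ_1`
-/

set_option autoImplicit false
set_option linter.unusedSectionVars false
open Crest.OpAlg
open scoped InnerProductSpace

namespace Crest.Agent.R134

variable {G : Type}

theorem cj_apply (V : ltwo G ≃ₗᵢ[ℂ] ltwo G) (m : ltwo G →L[ℂ] ltwo G) (v : ltwo G) :
    cj V m v = V (m (V.symm v)) := rfl

theorem cj_comp (V : ltwo G ≃ₗᵢ[ℂ] ltwo G) (m n : ltwo G →L[ℂ] ltwo G) :
    cj V (m ∘L n) = cj V m ∘L cj V n := by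
  refine ContinuousLinearMap.ext fun v => ?_
  simp only [ContinuousLinearMap.comp_apply, cj_apply, LinearIsometryEquiv.symm_apply_apply]

theorem cj_id (V : ltwo G ≃ₗᵢ[ℂ] ltwo G) :
    cj V (ContinuousLinearMap.id ℂ _) = ContinuousLinearMap.id ℂ _ := by
  refine ContinuousLinearMap.ext fun v => ?_
  simp only [cj_apply, ContinuousLinearMap.id_apply, LinearIsometryEquiv.apply_symm_apply]

theorem cj_star (V : ltwo G ≃ₗᵢ[ℂ] ltwo G) (m : ltwo G →L[ℂ] ltwo G) :
    cj V (star m) = star (cj V m) := by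
  refine ContinuousLinearMap.ext fun v => ?_
  refine ext_inner_left ℂ fun w => ?_
  rw [ContinuousLinearMap.star_eq_adjoint (cj V m), ContinuousLinearMap.adjoint_inner_right,
    cj_apply, cj_apply, ContinuousLinearMap.star_eq_adjoint]
  have h1 : ∀ a b : ltwo G, ⟪V a, b⟫_ℂ = ⟪a, V.symm b⟫_ℂ := by
    intro a b
    rw [← V.inner_map_map a (V.symm b), V.apply_symm_apply]
  have h2 : ∀ a b : ltwo G, ⟪a, V b⟫_ℂ = ⟪V.symm a, b⟫_ℂ := by
    intro a b
    rw [← V.inner_map_map (V.symm a) b, V.apply_symm_apply]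
  rw [h2, ContinuousLinearMap.adjoint_inner_right, h1]

theorem cj_symm_cj (V : ltwo G ≃ₗᵢ[ℂ] ltwo G) (m : ltwo G →L[ℂ] ltwo G) :
    cj V.symm (cj V m) = m := by
  refine ContinuousLinearMap.ext fun v => ?_
  simp only [cj_apply, LinearIsometryEquiv.symm_symm, LinearIsometryEquiv.symm_apply_apply]

theorem cj_cj_symm (V : ltwo G ≃ₗᵢ[ℂ] ltwo G) (m : ltwo G →L[ℂ] ltwo G) :
    cj V (cj V.symm m) = m := by
  refine ContinuousLinearMap.ext fun v => ?_
  simp only [cj_apply, LinearIsometryEquiv.symm_symm, LinearIsometryEquiv.apply_symm_apply]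

theorem cj_trans (V W : ltwo G ≃ₗᵢ[ℂ] ltwo G) (m : ltwo G →L[ℂ] ltwo G) :
    cj (V.trans W) m = cj W (cj V m) := by
  refine ContinuousLinearMap.ext fun v => ?_
  simp only [cj_apply, LinearIsometryEquiv.trans_apply, LinearIsometryEquiv.symm_trans]

end Crest.Agent.R134
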