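import Crest.Agent.R134.MFacts
import Crest.Agent.R134.GoodA

/-!
# Row 134: unitaries normalising `M` and fixing `δ_1`
-/

set_option autoImplicit false
set_option linter.unusedSectionVars false
open Crest.OpAlg
open scoped InnerProductSpace

namespace Crest.Agent.R134

variable {G : Type} [Group G] [DecidableEq G]

theorem cj_apply_aux {G : Type} (V : ltwo G ≃ₗᵢ[ℂ] ltwo G) (m : ltwo G →L[ℂ] ltwo G) (ξ : ltwo G) :
    cj V m ξ = V (m (V.symm ξ)) := rfl

theorem Good.refl : Good (LinearIsometryEquiv.refl ℂ (ltwo G)) := by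
  have h : ∀ m : ltwo G →L[ℂ] ltwo G, cj (LinearIsometryEquiv.refl ℂ (ltwo G)) m = m := by
    intro m
    ext1 ξ
    rfl
  have h' : ∀ m : ltwo G →L[ℂ] ltwo G, cj (LinearIsometryEquiv.refl ℂ (ltwo G)).symm m = m := by
    intro m
    ext1 ξ
    rfl
  exact ⟨rfl, fun m hm => by rw [h]; exact hm, fun m hm => by rw [h']; exact hm⟩

theorem Good.trans {V W : ltwo G ≃ₗᵢ[ℂ] ltwo G} (hV : Good V) (hW : Good W) :
    Good (V.trans W) := by
  refine ⟨?_, fun m hm => ?_, fun m hm => ?_⟩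
  · change W (V (dl 1)) = dl 1
    rw [hV.one, hW.one]
  · rw [cj_trans]
    exact hW.mem _ (hV.mem _ hm)
  · have : (V.trans W).symm = W.symm.trans V.symm := rfl
    rw [this, cj_trans]
    exact hV.mem' _ (hW.mem' _ hm)

theorem Good.symm {V : ltwo G ≃ₗᵢ[ℂ] ltwo G} (hV : Good V) : Good V.symm := by
  refine ⟨?_, fun m hm => hV.mem' m hm, fun m hm => ?_⟩
  · rw [LinearIsometryEquiv.symm_apply_eq, hV.one]
  · rw [LinearIsometryEquiv.symm_symm]
    exact hV.mem m hm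

theorem Good.cj_one {V : ltwo G ≃ₗᵢ[ℂ] ltwo G} (hV : Good V) (m : ltwo G →L[ℂ] ltwo G) :
    cj V m (dl 1) = V (m (dl 1)) := by
  rw [cj_apply_aux, hV.symm.one]

/-- if `V δ_g = δ_g` then `V λ(g) V* = λ(g)` -/
theorem Good.fix {V : ltwo G ≃ₗᵢ[ℂ] ltwo G} (hV : Good V) {g : G} (h : V (dl g) = dl g) :
    cj V (leftRegular g) = leftRegular g := by
  refine M_ext (hV.mem _ (leftRegular_mem g)) (leftRegular_mem g) ?_
  rw [hV.cj_one, leftRegular_dl, mul_one, h]

theorem Good.fix_symm {V : ltwo G ≃ₗᵢ[ℂ] ltwo G} {g : G} (h : V (dl g) = dl g) :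
    V.symm (dl g) = dl g := by
  rw [LinearIsometryEquiv.symm_apply_eq, h]

/-- multiplicativity: `V δ_{gh} = (V λ(g) V*) V δ_h` -/
theorem Good.mul (V : ltwo G ≃ₗᵢ[ℂ] ltwo G) (g h : G) :
    V (dl (g * h)) = cj V (leftRegular g) (V (dl h)) := by
  rw [cj_apply_aux, LinearIsometryEquiv.symm_apply_apply, leftRegular_dl]

end Crest.Agent.R134
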