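import Crest.Agent.R134.MFacts
import Crest.Agent.R134.GoodB

/-!
# Row 134: unitaries normalising `M` and fixing `δ_1`
-/

set_option autoImplicit false
set_option linter.unusedSectionVars false
open Crest.OpAlg
open scoped InnerProductSpace

namespace Crest.Agent.R134

variable {G : Type} [Group G] [DecidableEq G]

/-- the set of `g` with `V λ(g) V* ∈ M` is a subgroup -/
private theorem cj_mem_of_gen {V : ltwo G ≃ₗᵢ[ℂ] ltwo G} (S : Set G)
    (hS : Subgroup.closure S = ⊤) (h2 : ∀ g ∈ S, cj V (leftRegular g) ∈ groupVNA G) (g : G) :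
    cj V (leftRegular g) ∈ groupVNA G := by
  have hg : g ∈ Subgroup.closure S := hS ▸ Subgroup.mem_top g
  induction hg using Subgroup.closure_induction with
  | mem x hx => exact h2 x hx
  | one =>
    rw [leftRegular_one, cj_id]
    exact M_one
  | mul x y _ _ ihx ihy =>
    rw [leftRegular_mul, cj_comp]
    exact M_comp ihx ihy
  | inv x _ ih =>
    rw [← leftRegular_star, cj_star]
    exact M_star ih

private theorem cj_mem_of_all {V : ltwo G ≃ₗᵢ[ℂ] ltwo G}
    (h : ∀ g : G, cj V (leftRegular g) ∈ groupVNA G) (m : ltwo G →L[ℂ] ltwo G)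
    (hm : m ∈ groupVNA G) : cj V m ∈ groupVNA G := by
  rw [mem_M_iff]
  intro T hT
  have h1 : ∀ g : G, cj V.symm T ∘L leftRegular g = leftRegular g ∘L cj V.symm T := by
    intro g
    have h3 := (mem_M_iff _).1 (h g) T hT
    have h4 := congrArg (cj V.symm) h3
    rw [cj_comp, cj_comp, cj_symm_cj] at h4
    exact h4
  have h5 := (mem_M_iff _).1 hm (cj V.symm T) h1
  have h6 := congrArg (cj V) h5
  rw [cj_comp, cj_comp, cj_cj_symm] at h6
  exact h6

/-- a unitary fixing `δ_1` and mapping each `λ(g)`, for `g` in a generating set, into `M`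
(and its inverse too) is `Good` -/
theorem Good.of_gen {V : ltwo G ≃ₗᵢ[ℂ] ltwo G} (h1 : V (dl 1) = dl 1) (S : Set G)
    (hS : Subgroup.closure S = ⊤) (h2 : ∀ g ∈ S, cj V (leftRegular g) ∈ groupVNA G)
    (h3 : ∀ g ∈ S, cj V.symm (leftRegular g) ∈ groupVNA G) : Good V :=
  ⟨h1, cj_mem_of_all (cj_mem_of_gen S hS h2), cj_mem_of_all (cj_mem_of_gen S hS h3)⟩

/-- the unitary of `ℓ²(G)` of an automorphism `θ` of `G` (`δ_g ↦ δ_{θ g}`) is `Good` -/
theorem exists_aut (θ : G ≃* G) :
    ∃ R : ltwo G ≃ₗᵢ[ℂ] ltwo G, Good R ∧ (∀ g, R (dl g) = dl (θ g)) ∧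
      (∀ g, R.symm (dl g) = dl (θ.symm g)) := by
  set R : ltwo G ≃ₗᵢ[ℂ] ltwo G := ltwoReindex (θ.symm.toEquiv) with hR
  have r1 : ∀ g, R (dl g) = dl (θ g) := by
    intro g
    ext h
    have : R (dl g) h = dl g (θ.symm h) := rfl
    rw [this, dl_apply, dl_apply]
    congr 1
    rw [MulEquiv.symm_apply_eq]
  have r2 : ∀ g, R.symm (dl g) = dl (θ.symm g) := by
    intro g
    rw [LinearIsometryEquiv.symm_apply_eq, r1, MulEquiv.apply_symm_apply]
  have c1 : ∀ g, cj R (leftRegular g) = leftRegular (θ g) := by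
    intro g
    refine ext_dl fun h => ?_
    change R (leftRegular g (R.symm (dl h))) = _
    rw [r2, leftRegular_dl, r1, leftRegular_dl, map_mul, MulEquiv.apply_symm_apply]
  have c2 : ∀ g, cj R.symm (leftRegular g) = leftRegular (θ.symm g) := by
    intro g
    refine ext_dl fun h => ?_
    change R.symm (leftRegular g (R.symm.symm (dl h))) = _
    rw [LinearIsometryEquiv.symm_symm, r1, leftRegular_dl, r2, leftRegular_dl, map_mul,
      MulEquiv.symm_apply_apply]
  refine ⟨R, Good.of_gen (by rw [r1, map_one]) Set.univ (by simp) (fun g _ => ?_)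
    (fun g _ => ?_), r1, r2⟩
  · rw [c1]; exact leftRegular_mem _
  · rw [c2]; exact leftRegular_mem _

end Crest.Agent.R134
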