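import Crest.Agent.R134.GoodFacts

/-!
# Row 134, part (E): a trace-preserving representation with `Θ(K) δ_1` total gives `L(K) ≅ L(G)`

`W : ℓ²(K) → ℓ²(G)`, `δ_k ↦ Θ(k) δ_1` (orthonormal since `⟨Θ(k)δ_1, Θ(l)δ_1⟩ = (Θ(k⁻¹l)δ_1)(1)`, total by
hypothesis).  `W λ(k) W* = Θ(k)`.  If `S` commutes with all `Θ(k)` then `S` commutes with all `λ(g)`:
take `n_i ∈ span Θ(K)`, `n_i δ_1 → δ_g`; then `n_i* δ_1 → δ_{g⁻¹}` (`M_norm_star` for `n_i - λ(g)`),
`n_i δ_k → δ_{gk}`, `n_i* δ_h → δ_{g⁻¹h}` (`M_dl`), and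
`⟨δ_h, S λ(g) δ_k⟩ = lim ⟨δ_h, S n_i δ_k⟩ = lim ⟨δ_h, n_i S δ_k⟩ = lim ⟨n_i* δ_h, S δ_k⟩ = ⟨λ(g)* δ_h, S δ_k⟩`.
Hence `W L(K) W* = L(G)` by `mem_M_iff` (for `K` and for `G`).
-/

set_option autoImplicit false
set_option linter.unusedSectionVars false
open Crest.OpAlg
open scoped InnerProductSpace

namespace Crest.Agent.R134

variable {K G : Type} [Group K] [Group G] [DecidableEq K] [DecidableEq G]

theorem exists_W (Θ : K →* unitary (ltwo G →L[ℂ] ltwo G))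
    (htr : ∀ k, k ≠ 1 → (Θ k : ltwo G →L[ℂ] ltwo G) (dl 1) 1 = 0)
    (hden : ∀ g : G, dl g ∈ (Submodule.span ℂ (Set.range fun k : K =>
      (Θ k : ltwo G →L[ℂ] ltwo G) (dl 1))).topologicalClosure) :
    ∃ W : ltwo K ≃ₗᵢ[ℂ] ltwo G, ∀ k : K, W (dl k) = (Θ k : ltwo G →L[ℂ] ltwo G) (dl 1) := by
  set f : K → ltwo G := fun k => (Θ k : ltwo G →L[ℂ] ltwo G) (dl 1) with hf
  have hin : ∀ k l : K, ⟪f k, f l⟫_ℂ = (Θ (k⁻¹ * l) : ltwo G →L[ℂ] ltwo G) (dl 1) 1 := by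
    intro k l
    have h1 : (Θ (k⁻¹ * l) : ltwo G →L[ℂ] ltwo G)
        = star (Θ k : ltwo G →L[ℂ] ltwo G) * (Θ l : ltwo G →L[ℂ] ltwo G) := by
      rw [map_mul, map_inv]; rfl
    rw [h1, ← inner_dl, mul_apply_eq_comp, ContinuousLinearMap.star_eq_adjoint,
      ContinuousLinearMap.adjoint_inner_right]
  have hort : Orthonormal ℂ f := by
    rw [orthonormal_iff_ite]
    intro k l
    rw [hin]
    by_cases h : k = l
    · subst h
      rw [if_pos rfl, inv_mul_cancel, map_one]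
      change (dl (1 : G)) 1 = 1
      rw [dl_apply, if_pos rfl]
    · rw [if_neg h]
      exact htr _ (fun h' => h (inv_mul_eq_one.1 h'))
  have htot : ⊤ ≤ (Submodule.span ℂ (Set.range f)).topologicalClosure := by
    rw [← dense_dl (G := G)]
    refine Submodule.topologicalClosure_minimal _ ?_ (Submodule.isClosed_topologicalClosure _)
    rw [Submodule.span_le]
    rintro _ ⟨g, rfl⟩
    exact hden g
  refine ⟨(HilbertBasis.mk hort htot).repr.symm, fun k => ?_⟩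
  have h1 := (HilbertBasis.mk hort htot).repr_symm_single k
  rw [HilbertBasis.coe_mk] at h1
  exact h1

end Crest.Agent.R134
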