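import Crest.Agent.R134.GoodFacts
import Crest.Agent.R134.IsoA

/-!
# Row 134, part (E): a trace-preserving representation with `Θ(K) δ_1` total gives `L(K) ≅ L(G)`

`W : ℓ²(K) → ℓ²(G)`, `δ_k ↦ Θ(k) δ_1` (orthonormal since `⟨Θ(k)δ_1, Θ(l)δ_1⟩ = (Θ(k⁻¹l)δ_1)(1)`, total by
hypothesis).  `W λ(k) W* = Θ(k)`.  If `S` commutes with all `Θ(k)` then `S` commutes with all `λ(g)`:
take `n_i ∈ span Θ(K)`, `n_i δ_1 → δ_g`; then `n_i* δ_1 → δ_{g⁻¹}` (`M_norm_star` for `n_i - λ(g)`),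
`n_i δ_k → δ_{gk}`, `n_i* δ_h → δ_{g⁻¹h}` (`M_dl`), and
`⟨δ_h, S λ(g) δ_k⟩ = lim ⟨δ_h, S n_i δ_k⟩ = lim ⟨δ_h, n_i S δ_k⟩ = lim ⟨n_i* δ_h, S δ_k⟩ = ⟨λ(g)* δ_h, S δ_k⟩`.
Hence `W L(K) W* = L(G)` by `mem_M_iff` (for `K` and for `G`).
-/

set_option autoImplicit false
set_option linter.unusedSectionVars false
open Crest.OpAlg
open scoped InnerProductSpace

namespace Crest.Agent.R134

variable {K G : Type} [Group K] [Group G] [DecidableEq K] [DecidableEq G]

/-- the commutant of `Θ(K)` is contained in the commutant of `λ(G)` -/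
theorem comm_of_comm (Θ : K →* unitary (ltwo G →L[ℂ] ltwo G))
    (hM : ∀ k, (Θ k : ltwo G →L[ℂ] ltwo G) ∈ groupVNA G)
    (hden : ∀ g : G, dl g ∈ (Submodule.span ℂ (Set.range fun k : K =>
      (Θ k : ltwo G →L[ℂ] ltwo G) (dl 1))).topologicalClosure)
    (S : ltwo G →L[ℂ] ltwo G)
    (hS : ∀ k, S ∘L (Θ k : ltwo G →L[ℂ] ltwo G) = (Θ k : ltwo G →L[ℂ] ltwo G) ∘L S) (g : G) :
    S ∘L leftRegular g = leftRegular g ∘L S := by
  -- the span of the `Θ k`
  set N : Submodule ℂ (ltwo G →L[ℂ] ltwo G) :=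
    Submodule.span ℂ (Set.range fun k : K => (Θ k : ltwo G →L[ℂ] ltwo G)) with hN
  have hNM : ∀ n ∈ N, n ∈ groupVNA G := by
    intro n hn
    induction hn using Submodule.span_induction with
    | mem x hx => obtain ⟨k, rfl⟩ := hx; exact hM k
    | zero => exact zero_mem _
    | add x y _ _ hx hy => exact add_mem hx hy
    | smul c x _ hx => exact M_smul c hx
  have hNS : ∀ n ∈ N, S ∘L n = n ∘L S := by
    intro n hn
    induction hn using Submodule.span_induction with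
    | mem x hx => obtain ⟨k, rfl⟩ := hx; exact hS k
    | zero => simp
    | add x y _ _ hx hy =>
      rw [ContinuousLinearMap.comp_add, ContinuousLinearMap.add_comp, hx, hy]
    | smul c x _ hx =>
      rw [ContinuousLinearMap.comp_smul, ContinuousLinearMap.smul_comp, hx]
  have hev : Submodule.span ℂ (Set.range fun k : K => (Θ k : ltwo G →L[ℂ] ltwo G) (dl 1)) ≤
      N.map (ContinuousLinearMap.apply ℂ (ltwo G) (dl (1 : G))).toLinearMap := by
    rw [Submodule.span_le]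
    rintro _ ⟨k, rfl⟩
    exact ⟨(Θ k : ltwo G →L[ℂ] ltwo G), Submodule.subset_span ⟨k, rfl⟩, rfl⟩
  have hap : ∀ ε : ℝ, 0 < ε → ∃ n ∈ N, ‖n (dl 1) - dl g‖ < ε := by
    intro ε hε
    have h1 := hden g
    rw [← SetLike.mem_coe, Submodule.topologicalClosure_coe, Metric.mem_closure_iff] at h1
    obtain ⟨y, hy, hd⟩ := h1 ε hε
    obtain ⟨n, hn, rfl⟩ := hev hy
    refine ⟨n, hn, ?_⟩
    rw [dist_comm, dist_eq_norm] at hd
    exact hd
  have hnorm : ∀ m ∈ groupVNA G, ∀ k : G, ‖m (dl k)‖ = ‖m (dl 1)‖ := by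
    intro m hm k
    rw [M_dl hm, norm_rr]
  refine ext_dl fun k => ?_
  ext h
  change S (leftRegular g (dl k)) h = leftRegular g (S (dl k)) h
  rw [← sub_eq_zero, ← norm_le_zero_iff]
  refine le_of_forall_pos_le_add fun δ hδ => ?_
  have hpos : 0 < 2 * (‖S‖ + 1) := by positivity
  obtain ⟨n, hn, hnε⟩ := hap (δ / (2 * (‖S‖ + 1))) (by positivity)
  set D : ltwo G →L[ℂ] ltwo G := n - leftRegular g with hD
  have hDM : D ∈ groupVNA G := sub_mem (hNM n hn) (leftRegular_mem g)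
  have hD1 : ‖D (dl 1)‖ < δ / (2 * (‖S‖ + 1)) := by
    have : D (dl 1) = n (dl 1) - dl g := by
      rw [hD, ContinuousLinearMap.sub_apply, leftRegular_dl, mul_one]
    rw [this]; exact hnε
  have e1 : S (leftRegular g (dl k)) h - leftRegular g (S (dl k)) h
      = ⟪star D (dl h), S (dl k)⟫_ℂ - ⟪dl h, S (D (dl k))⟫_ℂ := by
    rw [ContinuousLinearMap.star_eq_adjoint, ContinuousLinearMap.adjoint_inner_left, inner_dl,
      inner_dl]
    have e2 : S (n (dl k)) = n (S (dl k)) := DFunLike.congr_fun (hNS n hn) (dl k)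
    have e3 : S (D (dl k)) = n (S (dl k)) - S (leftRegular g (dl k)) := by
      rw [hD, ContinuousLinearMap.sub_apply, map_sub, e2]
    have e4 : D (S (dl k)) = n (S (dl k)) - leftRegular g (S (dl k)) := by
      rw [hD, ContinuousLinearMap.sub_apply]
    rw [e3, e4, lp.coeFn_sub, lp.coeFn_sub, Pi.sub_apply, Pi.sub_apply]
    ring
  rw [e1, zero_add]
  have b1 : ‖⟪star D (dl h), S (dl k)⟫_ℂ‖ ≤ ‖D (dl 1)‖ * ‖S‖ := by
    refine (norm_inner_le_norm _ _).trans ?_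
    rw [hnorm _ (M_star hDM), M_norm_star hDM]
    refine mul_le_mul_of_nonneg_left ?_ (norm_nonneg _)
    refine (S.le_opNorm _).trans ?_
    rw [norm_dl, mul_one]
  have b2 : ‖⟪dl h, S (D (dl k))⟫_ℂ‖ ≤ ‖S‖ * ‖D (dl 1)‖ := by
    refine (norm_inner_le_norm _ _).trans ?_
    rw [norm_dl, one_mul]
    refine (S.le_opNorm _).trans ?_
    rw [hnorm _ hDM]
  calc ‖⟪star D (dl h), S (dl k)⟫_ℂ - ⟪dl h, S (D (dl k))⟫_ℂ‖
      ≤ ‖D (dl 1)‖ * ‖S‖ + ‖S‖ * ‖D (dl 1)‖ := (norm_sub_le _ _).trans (add_le_add b1 b2)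
    _ = ‖D (dl 1)‖ * (2 * ‖S‖) := by ring
    _ ≤ (δ / (2 * (‖S‖ + 1))) * (2 * (‖S‖ + 1)) := by
        refine mul_le_mul hD1.le ?_ (by positivity) (by positivity)
        linarith
    _ = δ := by field_simp

end Crest.Agent.R134
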