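import Crest.Agent.R134.GoodFacts
import Crest.Agent.R134.IsoB

/-!
# Row 134, part (E): a trace-preserving representation with `Θ(K) δ_1` total gives `L(K) ≅ L(G)`

`W : ℓ²(K) → ℓ²(G)`, `δ_k ↦ Θ(k) δ_1` (orthonormal since `⟨Θ(k)δ_1, Θ(l)δ_1⟩ = (Θ(k⁻¹l)δ_1)(1)`, total by
hypothesis).  `W λ(k) W* = Θ(k)`.  If `S` commutes with all `Θ(k)` then `S` commutes with all `λ(g)`:
take `n_i ∈ span Θ(K)`, `n_i δ_1 → δ_g`; then `n_i* δ_1 → δ_{g⁻¹}` (`M_norm_star` for `n_i - λ(g)`),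
`n_i δ_k → δ_{gk}`, `n_i* δ_h → δ_{g⁻¹h}` (`M_dl`), and
`⟨δ_h, S λ(g) δ_k⟩ = lim ⟨δ_h, S n_i δ_k⟩ = lim ⟨δ_h, n_i S δ_k⟩ = lim ⟨n_i* δ_h, S δ_k⟩ = ⟨λ(g)* δ_h, S δ_k⟩`.
Hence `W L(K) W* = L(G)` by `mem_M_iff` (for `K` and for `G`).
-/

set_option autoImplicit false
set_option linter.unusedSectionVars false
open Crest.OpAlg
open scoped InnerProductSpace

namespace Crest.Agent.R134

variable {K G : Type} [Group K] [Group G] [DecidableEq K] [DecidableEq G]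

/-- membership: `m ∈ L(K) ↔ W m W* ∈ L(G)` -/
theorem conj_mem_iff (Θ : K →* unitary (ltwo G →L[ℂ] ltwo G))
    (hM : ∀ k, (Θ k : ltwo G →L[ℂ] ltwo G) ∈ groupVNA G)
    (hden : ∀ g : G, dl g ∈ (Submodule.span ℂ (Set.range fun k : K =>
      (Θ k : ltwo G →L[ℂ] ltwo G) (dl 1))).topologicalClosure)
    (W : ltwo K ≃ₗᵢ[ℂ] ltwo G) (hW : ∀ k : K, W (dl k) = (Θ k : ltwo G →L[ℂ] ltwo G) (dl 1))
    (m : ltwo K →L[ℂ] ltwo K) :
    m ∈ groupVNA K ↔ (W : ltwo K →L[ℂ] ltwo G) ∘L m ∘L (W.symm : ltwo G →L[ℂ] ltwo K)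
      ∈ groupVNA G := by
  -- `W λ(k) = Θ(k) W`
  have hWk0 : ∀ k : K, (W.symm : ltwo G →L[ℂ] ltwo K) ∘L (Θ k : ltwo G →L[ℂ] ltwo G) ∘L
      (W : ltwo K →L[ℂ] ltwo G) = leftRegular k := by
    intro k
    refine ext_dl fun l => ?_
    have h1 : (Θ (k * l) : ltwo G →L[ℂ] ltwo G) (dl 1) =
        (Θ k : ltwo G →L[ℂ] ltwo G) ((Θ l : ltwo G →L[ℂ] ltwo G) (dl 1)) := by
      rw [map_mul]; rfl
    rw [leftRegular_dl]
    change W.symm ((Θ k : ltwo G →L[ℂ] ltwo G) (W (dl l))) = dl (k * l)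
    rw [hW l, ← h1, ← hW (k * l), LinearIsometryEquiv.symm_apply_apply]
  have hWk : ∀ (k : K) (η : ltwo K),
      W (leftRegular k η) = (Θ k : ltwo G →L[ℂ] ltwo G) (W η) := by
    intro k η
    rw [← hWk0 k]
    change W (W.symm ((Θ k : ltwo G →L[ℂ] ltwo G) (W η))) = _
    rw [LinearIsometryEquiv.apply_symm_apply]
  have hWk' : ∀ (k : K) (ζ : ltwo G),
      W.symm ((Θ k : ltwo G →L[ℂ] ltwo G) ζ) = leftRegular k (W.symm ζ) := by
    intro k ζ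
    rw [← hWk0 k]
    change _ = W.symm ((Θ k : ltwo G →L[ℂ] ltwo G) (W (W.symm ζ)))
    rw [LinearIsometryEquiv.apply_symm_apply]
  constructor
  · intro hm
    rw [mem_M_iff] at hm ⊢
    intro T hT
    -- `T` commutes with `Θ(k)`
    have hTΘ : ∀ k, T ∘L (Θ k : ltwo G →L[ℂ] ltwo G) = (Θ k : ltwo G →L[ℂ] ltwo G) ∘L T :=
      fun k => (mem_M_iff _).1 (hM k) T hT
    have hcomm := hm ((W.symm : ltwo G →L[ℂ] ltwo K) ∘L T ∘L (W : ltwo K →L[ℂ] ltwo G)) (by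
      intro k
      ext1 η
      change W.symm (T (W (leftRegular k η))) = leftRegular k (W.symm (T (W η)))
      rw [hWk, ← hWk']
      have := congrArg (fun F : ltwo G →L[ℂ] ltwo G => F (W η)) (hTΘ k)
      exact congrArg W.symm this)
    ext1 ζ
    change T (W (m (W.symm ζ))) = W (m (W.symm (T ζ)))
    have h2 := congrArg (fun F : ltwo K →L[ℂ] ltwo K => W (F (W.symm ζ))) hcomm
    have h3 : W (W.symm (T (W (m (W.symm ζ))))) = W (m (W.symm (T (W (W.symm ζ))))) := h2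
    rw [LinearIsometryEquiv.apply_symm_apply, LinearIsometryEquiv.apply_symm_apply] at h3
    exact h3
  · intro hm
    rw [mem_M_iff] at hm ⊢
    intro S hS
    have hSΘ : ∀ k, ((W : ltwo K →L[ℂ] ltwo G) ∘L S ∘L (W.symm : ltwo G →L[ℂ] ltwo K)) ∘L
        (Θ k : ltwo G →L[ℂ] ltwo G) = (Θ k : ltwo G →L[ℂ] ltwo G) ∘L
        ((W : ltwo K →L[ℂ] ltwo G) ∘L S ∘L (W.symm : ltwo G →L[ℂ] ltwo K)) := by
      intro k
      ext1 ζ
      change W (S (W.symm ((Θ k : ltwo G →L[ℂ] ltwo G) ζ))) =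
        (Θ k : ltwo G →L[ℂ] ltwo G) (W (S (W.symm ζ)))
      rw [hWk', ← hWk]
      have := congrArg (fun F : ltwo K →L[ℂ] ltwo K => F (W.symm ζ)) (hS k)
      exact congrArg W this
    have hcomm := hm _ (comm_of_comm Θ hM hden _ hSΘ)
    ext1 η
    have h2 := congrArg (fun F : ltwo G →L[ℂ] ltwo G => W.symm (F (W η))) hcomm
    have h3 : W.symm (W (S (W.symm (W (m (W.symm (W η))))))) =
        W.symm (W (m (W.symm (W (S (W.symm (W η))))))) := h2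
    simp only [LinearIsometryEquiv.symm_apply_apply] at h3
    exact h3

theorem iso_of (Θ : K →* unitary (ltwo G →L[ℂ] ltwo G))
    (hM : ∀ k, (Θ k : ltwo G →L[ℂ] ltwo G) ∈ groupVNA G)
    (htr : ∀ k, k ≠ 1 → (Θ k : ltwo G →L[ℂ] ltwo G) (dl 1) 1 = 0)
    (hden : ∀ g : G, dl g ∈ (Submodule.span ℂ (Set.range fun k : K =>
      (Θ k : ltwo G →L[ℂ] ltwo G) (dl 1))).topologicalClosure) :
    ∃ Φ : (groupVNA K).toStarSubalgebra ≃⋆ₐ[ℂ] (groupVNA G).toStarSubalgebra,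
      ∀ x : (groupVNA K).toStarSubalgebra,
        groupTrace G ((Φ x : (groupVNA G).toStarSubalgebra) : ltwo G →L[ℂ] ltwo G) =
          groupTrace K (x : ltwo K →L[ℂ] ltwo K) := by
  obtain ⟨W, hW⟩ := exists_W Θ htr hden
  have hiff := conj_mem_iff Θ hM hden W hW
  have hW1 : W (dl 1) = dl 1 := by
    rw [hW 1, map_one]; rfl
  have hW1' : W.symm (dl 1) = dl 1 := by
    rw [← hW1, LinearIsometryEquiv.symm_apply_apply]
  refine ⟨{
    toFun := fun x => ⟨W.conjStarAlgEquiv (x : ltwo K →L[ℂ] ltwo K), (hiff _).1 x.2⟩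
    invFun := fun y => ⟨W.conjStarAlgEquiv.symm (y : ltwo G →L[ℂ] ltwo G), ?_⟩
    left_inv := ?_
    right_inv := ?_
    map_mul' := ?_
    map_add' := ?_
    map_star' := ?_
    map_smul' := ?_ }, ?_⟩
  · refine (hiff _).2 ?_
    have h := W.conjStarAlgEquiv.apply_symm_apply (y : ltwo G →L[ℂ] ltwo G)
    rw [LinearIsometryEquiv.conjStarAlgEquiv_apply] at h
    rw [h]
    exact y.2
  · intro x
    exact Subtype.ext (W.conjStarAlgEquiv.symm_apply_apply _)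
  · intro y
    exact Subtype.ext (W.conjStarAlgEquiv.apply_symm_apply _)
  · intro x y
    exact Subtype.ext (map_mul W.conjStarAlgEquiv _ _)
  · intro x y
    exact Subtype.ext (map_add W.conjStarAlgEquiv _ _)
  · intro x
    exact Subtype.ext (map_star W.conjStarAlgEquiv _)
  · intro c x
    exact Subtype.ext (map_smul W.conjStarAlgEquiv c _)
  · intro x
    change ⟪(dl 1 : ltwo G), W ((x : ltwo K →L[ℂ] ltwo K) (W.symm (dl 1)))⟫_ℂ =
      ⟪(dl 1 : ltwo K), (x : ltwo K →L[ℂ] ltwo K) (dl 1)⟫_ℂ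
    rw [hW1', ← hW1, LinearIsometryEquiv.inner_map_map]

end Crest.Agent.R134
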