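import Crest.Agent.R134.LimDef
import Crest.Agent.R134.Step

/-!
# Row 134, part (D): the limit
-/

set_option autoImplicit false
set_option linter.unusedSectionVars false
open Crest.OpAlg
open scoped InnerProductSpace

namespace Crest.Agent.R134

variable {κ ι : Type} [DecidableEq κ] [DecidableEq ι] {ia ib ix : ι} (j : κ → ι)

theorem TU_of (ib : ι) (U : unitary (ltwo (FreeGroup ι) →L[ℂ] ltwo (FreeGroup ι))) (k : κ) :
    TU j ib U (FreeGroup.of k) = if j k = ib then U else LR (FreeGroup.of (j k)) := by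
  rw [TU, FreeGroup.lift_apply_of]

theorem TU_mem (ib : ι) (U : unitary (ltwo (FreeGroup ι) →L[ℂ] ltwo (FreeGroup ι)))
    (hU : (U : ltwo (FreeGroup ι) →L[ℂ] ltwo (FreeGroup ι)) ∈ groupVNA (FreeGroup ι))
    (f : FreeGroup κ) :
    (TU j ib U f : ltwo (FreeGroup ι) →L[ℂ] ltwo (FreeGroup ι)) ∈ groupVNA (FreeGroup ι) := by
  have hof : ∀ k : κ, (TU j ib U (FreeGroup.of k) :
      ltwo (FreeGroup ι) →L[ℂ] ltwo (FreeGroup ι)) ∈ groupVNA (FreeGroup ι) := by
    intro k
    rw [TU_of]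
    split_ifs
    · exact hU
    · exact leftRegular_mem _
  induction f using FreeGroup.induction_on with
  | C1 => rw [map_one]; exact M_one
  | of k => exact hof k
  | inv_of k _ =>
    rw [map_inv]
    exact M_star (hof k)
  | mul a b ha hb =>
    rw [map_mul]
    exact M_comp ha hb

/-- Lipschitz continuity in the 2-norm (telescoping; `‖A B δ_1 - C D δ_1‖ ≤ ‖Aδ_1 - Cδ_1‖ + ‖Bδ_1 - Dδ_1‖`) -/
theorem TU_lip (ib : ι) (f : FreeGroup κ) :
    ∃ C : ℝ, 0 ≤ C ∧ ∀ U U' : unitary (ltwo (FreeGroup ι) →L[ℂ] ltwo (FreeGroup ι)),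
      (U : ltwo (FreeGroup ι) →L[ℂ] ltwo (FreeGroup ι)) ∈ groupVNA (FreeGroup ι) →
      (U' : ltwo (FreeGroup ι) →L[ℂ] ltwo (FreeGroup ι)) ∈ groupVNA (FreeGroup ι) →
      ‖(TU j ib U f : ltwo (FreeGroup ι) →L[ℂ] ltwo (FreeGroup ι)) (dl 1)
          - (TU j ib U' f : ltwo (FreeGroup ι) →L[ℂ] ltwo (FreeGroup ι)) (dl 1)‖
        ≤ C * ‖(U : ltwo (FreeGroup ι) →L[ℂ] ltwo (FreeGroup ι)) (dl 1)
          - (U' : ltwo (FreeGroup ι) →L[ℂ] ltwo (FreeGroup ι)) (dl 1)‖ := by
  induction f using FreeGroup.induction_on with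
  | C1 =>
    refine ⟨0, le_rfl, fun U U' _ _ => ?_⟩
    rw [map_one, map_one, sub_self, norm_zero, zero_mul]
  | of k =>
    refine ⟨1, zero_le_one, fun U U' _ _ => ?_⟩
    rw [TU_of, TU_of, one_mul]
    split_ifs
    · exact le_rfl
    · rw [sub_self, norm_zero]; exact norm_nonneg _
  | inv_of k ih =>
    obtain ⟨C, hC, h⟩ := ih
    refine ⟨C, hC, fun U U' hU hU' => ?_⟩
    refine le_trans (le_of_eq ?_) (h U U' hU hU')
    rw [map_inv, map_inv]
    have h1 := TU_mem j ib U hU (FreeGroup.of k)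
    have h2 := TU_mem j ib U' hU' (FreeGroup.of k)
    set A := TU j ib U (FreeGroup.of k)
    set B := TU j ib U' (FreeGroup.of k)
    have h3 : (A : ltwo (FreeGroup ι) →L[ℂ] ltwo (FreeGroup ι)) - B ∈ groupVNA (FreeGroup ι) :=
      sub_mem h1 h2
    have h4 := M_norm_star h3
    rw [star_sub] at h4
    exact h4
  | mul a b ha hb =>
    obtain ⟨C, hC, h⟩ := ha
    obtain ⟨D, hD, h'⟩ := hb
    refine ⟨C + D, add_nonneg hC hD, fun U U' hU hU' => ?_⟩
    rw [map_mul, map_mul, add_mul]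
    have a1 := TU_mem j ib U hU a
    have a2 := TU_mem j ib U' hU' a
    have b1 := TU_mem j ib U hU b
    have b2 := TU_mem j ib U' hU' b
    have hA := h U U' hU hU'
    have hB := h' U U' hU hU'
    set A := TU j ib U a
    set A' := TU j ib U' a
    set B := TU j ib U b
    set B' := TU j ib U' b
    have e : ((A * B : unitary _) : ltwo (FreeGroup ι) →L[ℂ] ltwo (FreeGroup ι)) (dl 1)
        - ((A' * B' : unitary _) : ltwo (FreeGroup ι) →L[ℂ] ltwo (FreeGroup ι)) (dl 1)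
        = ((A : ltwo (FreeGroup ι) →L[ℂ] ltwo (FreeGroup ι)) - A')
            ((B : ltwo (FreeGroup ι) →L[ℂ] ltwo (FreeGroup ι)) (dl 1))
          + (A' : ltwo (FreeGroup ι) →L[ℂ] ltwo (FreeGroup ι))
            ((B : ltwo (FreeGroup ι) →L[ℂ] ltwo (FreeGroup ι)) (dl 1)
              - (B' : ltwo (FreeGroup ι) →L[ℂ] ltwo (FreeGroup ι)) (dl 1)) := by
      rw [sub_apply, map_sub, sub_add_sub_cancel]
      rfl
    rw [e]
    refine (norm_add_le _ _).trans (add_le_add ?_ ?_)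
    · rw [M_norm_unitary (sub_mem a1 a2) b1 (Unitary.coe_star_mul_self B)
        (Unitary.coe_mul_star_self B), sub_apply]
      exact hA
    · have h5 := (ContinuousLinearMap.norm_map_iff_adjoint_comp_self
        (A' : ltwo (FreeGroup ι) →L[ℂ] ltwo (FreeGroup ι))).2 (Unitary.coe_star_mul_self A')
      rw [h5]
      exact hB

/-- for `V` good fixing the other letters, `TU (V λ(b) V*) f δ_1 = V δ_{j(f)}` -/
theorem TU_good (hr : ∀ i, i ∈ Set.range j ↔ i ≠ ix)
    (V : ltwo (FreeGroup ι) ≃ₗᵢ[ℂ] ltwo (FreeGroup ι)) (hV : Good V)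
    (hfix : ∀ i, i ≠ ib → i ≠ ix → V (dl (FreeGroup.of i)) = dl (FreeGroup.of i))
    (f : FreeGroup κ) :
    (TU j ib (cjU V (LR (FreeGroup.of ib))) f : ltwo (FreeGroup ι) →L[ℂ] ltwo (FreeGroup ι)) (dl 1)
      = V (dl (FreeGroup.map j f)) := by
  have key : (TU j ib (cjU V (LR (FreeGroup.of ib))) f :
      ltwo (FreeGroup ι) →L[ℂ] ltwo (FreeGroup ι)) = cj V (leftRegular (FreeGroup.map j f)) := by
    have hof : ∀ k : κ, (TU j ib (cjU V (LR (FreeGroup.of ib))) (FreeGroup.of k) :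
      ltwo (FreeGroup ι) →L[ℂ] ltwo (FreeGroup ι))
        = cj V (leftRegular (FreeGroup.map j (FreeGroup.of k))) := by
      intro k
      rw [TU_of, FreeGroup.map.of]
      split_ifs with hk
      · rw [hk]; rfl
      · have hx : j k ≠ ix := (hr _).1 ⟨k, rfl⟩
        rw [hV.fix (hfix _ hk hx)]
        rfl
    induction f using FreeGroup.induction_on with
    | C1 => rw [map_one, map_one, leftRegular_one, cj_id]; rfl
    | of k => exact hof k
    | inv_of k _ =>
      rw [map_inv, map_inv, ← leftRegular_star, cj_star, ← hof k]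
      rfl
    | mul a b ha hb =>
      rw [map_mul, map_mul, leftRegular_mul, cj_comp, ← ha, ← hb]
      rfl
  rw [key, hV.cj_one, leftRegular_dl, mul_one]

end Crest.Agent.R134
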