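import Crest.Agent.R134.LimDef
import Crest.Agent.R134.Step
import Crest.Agent.R134.LimA

/-!
# Row 134, part (D): the limit
-/

set_option autoImplicit false
set_option linter.unusedSectionVars false
open Crest.OpAlg
open scoped InnerProductSpace

namespace Crest.Agent.R134

variable {κ ι : Type} [DecidableEq κ] [DecidableEq ι] {ia ib ix : ι} (j : κ → ι)

theorem exists_map_of_deg_zero (hr : ∀ i, i ∈ Set.range j ↔ i ≠ ix) (g : FreeGroup ι)
    (hg : deg ix g = 0) : ∃ f : FreeGroup κ, FreeGroup.map j f = g := by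
  have key : ∀ L : List (ι × Bool), (∀ l ∈ L, l.1 ≠ ix) →
      ∃ w : List (κ × Bool), w.map (fun x => (j x.1, x.2)) = L := by
    intro L
    induction L with
    | nil => intro _; exact ⟨[], rfl⟩
    | cons a L ih =>
      intro h
      obtain ⟨w, hw⟩ := ih fun l hl => h l (List.mem_cons_of_mem _ hl)
      obtain ⟨k, hk⟩ := (hr a.1).2 (h a List.mem_cons_self)
      refine ⟨(k, a.2) :: w, ?_⟩
      rw [List.map_cons, hw, hk]
  have h1 : ∀ l ∈ g.toWord, l.1 ≠ ix := by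
    intro l hl
    rw [deg, List.countP_eq_zero] at hg
    have := hg l hl
    simpa using this
  obtain ⟨w, hw⟩ := key _ h1
  refine ⟨FreeGroup.mk w, ?_⟩
  rw [FreeGroup.map.mk, hw, FreeGroup.mk_toWord]

/-- the degree-0 part is approximated by `ℂ[j(F_κ)]` -/
theorem approx_deg_zero (hj : Function.Injective j) (hr : ∀ i, i ∈ Set.range j ↔ i ≠ ix)
    (ζ : ltwo (FreeGroup ι)) (δ ε : ℝ) (hδ : 0 ≤ δ) (h : ‖ζ‖ ^ 2 - δ ≤ gen ix ζ 0) (hε : δ < ε ^ 2)
    (hε0 : 0 < ε) :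
    ∃ p : FreeGroup κ →₀ ℂ, ‖ζ - p.sum fun f c => c • dl (FreeGroup.map j f)‖ < ε := by
  classical
  have _ := hj
  have _ := hδ
  -- the degree-0 sum
  have hs0 : Summable fun g : FreeGroup ι => if deg ix g = 0 then ‖ζ g‖ ^ 2 else 0 := by
    refine Summable.of_nonneg_of_le (fun g => ?_) (fun g => ?_) (summable_sq ζ)
    · split_ifs <;> positivity
    · split_ifs
      · exact le_rfl
      · positivity
  have h0 := gen_zero ix ζ
  have h2 : (‖ζ‖ ^ 2 - ε ^ 2) < gen ix ζ 0 := by linarith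
  rw [h0] at h2
  have h3 := hs0.hasSum.eventually (lt_mem_nhds h2)
  obtain ⟨F, hF⟩ := h3.exists
  set F' := F.filter fun g => deg ix g = 0 with hF'
  have h4 : (‖ζ‖ ^ 2 - ε ^ 2) < ∑ g ∈ F', ‖ζ g‖ ^ 2 := by
    rw [hF', Finset.sum_filter]
    exact hF
  -- preimages
  have h5 : ∀ g ∈ F', ∃ f : FreeGroup κ, FreeGroup.map j f = g := by
    intro g hg
    exact exists_map_of_deg_zero j hr g (Finset.mem_filter.1 hg).2
  choose! φ hφ using h5
  refine ⟨∑ g ∈ F', Finsupp.single (φ g) (ζ g), ?_⟩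
  have h6 : ((∑ g ∈ F', Finsupp.single (φ g) (ζ g)).sum fun f c => c • dl (FreeGroup.map j f))
      = ∑ g ∈ F', ζ g • dl g := by
    rw [← Finsupp.linearCombination_apply ℂ (v := fun f => dl (FreeGroup.map j f)), map_sum]
    refine Finset.sum_congr rfl fun g hg => ?_
    rw [Finsupp.linearCombination_single, hφ g hg]
  rw [h6]
  refine lt_of_pow_lt_pow_left₀ 2 hε0.le ?_
  rw [norm_sq_eq]
  have h7 : ∀ g, ‖(ζ - ∑ g ∈ F', ζ g • dl g) g‖ ^ 2 = if g ∈ F' then 0 else ‖ζ g‖ ^ 2 := by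
    intro g
    have e : (∑ h ∈ F', ζ h • dl h : ltwo (FreeGroup ι)) g = if g ∈ F' then ζ g else 0 := by
      rw [← inner_dl, inner_sum]
      simp_rw [inner_smul_right, inner_dl, dl_apply]
      simp
    have e2 : (ζ - ∑ g ∈ F', ζ g • dl g) g = ζ g - (∑ h ∈ F', ζ h • dl h : ltwo (FreeGroup ι)) g :=
      rfl
    rw [e2, e]
    split_ifs
    · simp
    · simp
  simp_rw [h7]
  have h8 : HasSum (fun g => if g ∈ F' then ‖ζ g‖ ^ 2 else 0) (∑ g ∈ F', ‖ζ g‖ ^ 2) := by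
    have e : ∑ g ∈ F', ‖ζ g‖ ^ 2 = ∑ g ∈ F', if g ∈ F' then ‖ζ g‖ ^ 2 else 0 :=
      Finset.sum_congr rfl fun g hg => by rw [if_pos hg]
    rw [e]
    exact hasSum_sum_of_ne_finset_zero (by intro b hb; rw [if_neg hb])
  have h9 : HasSum (fun g => ‖ζ g‖ ^ 2) (‖ζ‖ ^ 2) := by
    rw [norm_sq_eq]; exact (summable_sq ζ).hasSum
  have h10 := h9.sub h8
  have h11 : (fun g => if g ∈ F' then (0 : ℝ) else ‖ζ g‖ ^ 2) =
      fun g => ‖ζ g‖ ^ 2 - (if g ∈ F' then ‖ζ g‖ ^ 2 else 0) := by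
    funext g
    split_ifs <;> simp
  rw [h11, h10.tsum_eq]
  linarith

/-- density step -/
theorem lim_dense [Fintype ι] (hab : ia ≠ ib) (hax : ia ≠ ix) (hbx : ib ≠ ix)
    (hj : Function.Injective j) (hr : ∀ i, i ∈ Set.range j ↔ i ≠ ix)
    (V : ltwo (FreeGroup ι) ≃ₗᵢ[ℂ] ltwo (FreeGroup ι)) (hV : Good V)
    (hfix : ∀ i, i ≠ ib → i ≠ ix → V (dl (FreeGroup.of i)) = dl (FreeGroup.of i))
    (g : FreeGroup ι) (δ ε : ℝ) (hδ : 0 < δ) (hε : 0 < ε) :
    ∃ V' : ltwo (FreeGroup ι) ≃ₗᵢ[ℂ] ltwo (FreeGroup ι), Good V' ∧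
      (∀ i, i ≠ ib → i ≠ ix → V' (dl (FreeGroup.of i)) = dl (FreeGroup.of i)) ∧
      ‖V' (dl (FreeGroup.of ib)) - V (dl (FreeGroup.of ib))‖ ≤ δ ∧
      ∃ p : FreeGroup κ →₀ ℂ, ‖dl g - p.sum fun f c => c • V' (dl (FreeGroup.map j f))‖ < ε := by
  classical
  have hδ' : 0 < min δ (ε ^ 2 / 2) := lt_min hδ (by positivity)
  obtain ⟨W, hW, hWfix, hWb, hWg⟩ := absorb hab hax hbx {V.symm (dl g)} (min δ (ε ^ 2 / 2)) hδ'
  have h1 := hWg _ (Finset.mem_singleton_self _)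
  have h2 : ‖W.symm (V.symm (dl g))‖ = ‖V.symm (dl g)‖ := LinearIsometryEquiv.norm_map _ _
  rw [← h2] at h1
  obtain ⟨p, hp⟩ := approx_deg_zero j hj hr (W.symm (V.symm (dl g))) (min δ (ε ^ 2 / 2)) ε
    hδ'.le h1 (lt_of_le_of_lt (min_le_right _ _) (by have : 0 < ε ^ 2 := by positivity
                                                     linarith)) hε
  refine ⟨W.trans V, hW.trans hV, fun i h h' => ?_, ?_, p, ?_⟩
  · change V (W (dl (FreeGroup.of i))) = _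
    rw [hWfix i h h', hfix i h h']
  · change ‖V (W (dl (FreeGroup.of ib))) - V (dl (FreeGroup.of ib))‖ ≤ δ
    rw [← map_sub, LinearIsometryEquiv.norm_map]
    exact hWb.trans (min_le_left _ _)
  · refine lt_of_eq_of_lt ?_ hp
    rw [← LinearIsometryEquiv.norm_map (W.trans V) (W.symm (V.symm (dl g)) - _), map_sub]
    congr 2
    · change _ = V (W (W.symm (V.symm (dl g))))
      rw [LinearIsometryEquiv.apply_symm_apply, LinearIsometryEquiv.apply_symm_apply]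
    · rw [Finsupp.sum, Finsupp.sum, map_sum]
      refine Finset.sum_congr rfl fun f _ => ?_
      rw [map_smul]

end Crest.Agent.R134
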