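import Crest.Agent.R134.LimDef
import Crest.Agent.R134.Step
import Crest.Agent.R134.LimB

/-!
# Row 134, part (D): the limit
-/

set_option autoImplicit false
set_option linter.unusedSectionVars false
open Crest.OpAlg
open scoped InnerProductSpace

namespace Crest.Agent.R134

variable {κ ι : Type} [DecidableEq κ] [DecidableEq ι] {ia ib ix : ι} (j : κ → ι)

/-- the vectors `V δ_b`, `V` good and fixing the other letters -/
def S0 (ib ix : ι) : Set (ltwo (FreeGroup ι)) :=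
  {ζ | ∃ V : ltwo (FreeGroup ι) ≃ₗᵢ[ℂ] ltwo (FreeGroup ι), Good V ∧
    (∀ i, i ≠ ib → i ≠ ix → V (dl (FreeGroup.of i)) = dl (FreeGroup.of i)) ∧
    V (dl (FreeGroup.of ib)) = ζ}

theorem cjU_mem {V : ltwo (FreeGroup ι) ≃ₗᵢ[ℂ] ltwo (FreeGroup ι)} (hV : Good V)
    (g : FreeGroup ι) :
    (cjU V (LR g) : ltwo (FreeGroup ι) →L[ℂ] ltwo (FreeGroup ι)) ∈ groupVNA (FreeGroup ι) :=
  hV.mem _ (leftRegular_mem g)

theorem cjU_one {V : ltwo (FreeGroup ι) ≃ₗᵢ[ℂ] ltwo (FreeGroup ι)} (hV : Good V)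
    (g : FreeGroup ι) :
    (cjU V (LR g) : ltwo (FreeGroup ι) →L[ℂ] ltwo (FreeGroup ι)) (dl 1) = V (dl g) := by
  change cj V (leftRegular g) (dl 1) = V (dl g)
  rw [hV.cj_one, leftRegular_dl, mul_one]

theorem exists_U_of_closure (ζ : ltwo (FreeGroup ι)) (hζ : ζ ∈ closure (S0 ib ix)) :
    ∃ U : unitary (ltwo (FreeGroup ι) →L[ℂ] ltwo (FreeGroup ι)),
      (U : ltwo (FreeGroup ι) →L[ℂ] ltwo (FreeGroup ι)) ∈ groupVNA (FreeGroup ι) ∧
      (U : ltwo (FreeGroup ι) →L[ℂ] ltwo (FreeGroup ι)) (dl 1) = ζ := by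
  obtain ⟨u, hu, hlim⟩ := mem_closure_iff_seq_limit.1 hζ
  choose V hV hfix hVu using hu
  obtain ⟨U, hUM, hU1, h1, h2, -, -⟩ := M_unitary_lim
    (fun k => ((cjU (V k) (LR (FreeGroup.of ib)) :
      unitary (ltwo (FreeGroup ι) →L[ℂ] ltwo (FreeGroup ι))) :
        ltwo (FreeGroup ι) →L[ℂ] ltwo (FreeGroup ι)))
    (fun k => cjU_mem (hV k) _)
    (fun k => Unitary.coe_star_mul_self (cjU (V k) (LR (FreeGroup.of ib))))
    (fun k => Unitary.coe_mul_star_self (cjU (V k) (LR (FreeGroup.of ib)))) ζ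
    (by
      have : (fun k => ((cjU (V k) (LR (FreeGroup.of ib)) :
          unitary (ltwo (FreeGroup ι) →L[ℂ] ltwo (FreeGroup ι))) :
            ltwo (FreeGroup ι) →L[ℂ] ltwo (FreeGroup ι)) (dl 1)) = u := by
        funext k
        rw [cjU_one (hV k), hVu k]
      rw [this]
      exact hlim)
  exact ⟨⟨U, Unitary.mem_iff.2 ⟨h1, h2⟩⟩, hUM, hU1⟩

theorem TU_congr (ib : ι) (f : FreeGroup κ)
    (U U' : unitary (ltwo (FreeGroup ι) →L[ℂ] ltwo (FreeGroup ι)))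
    (hU : (U : ltwo (FreeGroup ι) →L[ℂ] ltwo (FreeGroup ι)) ∈ groupVNA (FreeGroup ι))
    (hU' : (U' : ltwo (FreeGroup ι) →L[ℂ] ltwo (FreeGroup ι)) ∈ groupVNA (FreeGroup ι))
    (h : (U : ltwo (FreeGroup ι) →L[ℂ] ltwo (FreeGroup ι)) (dl 1)
      = (U' : ltwo (FreeGroup ι) →L[ℂ] ltwo (FreeGroup ι)) (dl 1)) :
    (TU j ib U f : ltwo (FreeGroup ι) →L[ℂ] ltwo (FreeGroup ι)) (dl 1)
      = (TU j ib U' f : ltwo (FreeGroup ι) →L[ℂ] ltwo (FreeGroup ι)) (dl 1) := by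
  obtain ⟨C, -, hC⟩ := TU_lip j ib f
  have h1 := hC U U' hU hU'
  rw [h, sub_self, norm_zero, mul_zero] at h1
  exact sub_eq_zero.1 (norm_le_zero_iff.1 h1)

theorem norm_coord_le (ξ : ltwo (FreeGroup ι)) (g : FreeGroup ι) : ‖ξ g‖ ≤ ‖ξ‖ := by
  rw [← inner_dl g ξ]
  refine (norm_inner_le_norm _ _).trans ?_
  rw [norm_dl, one_mul]

/-- LIMIT (Baire category in the closure of `{V δ_b}` in `ℓ²`) -/
theorem exists_lim [Fintype ι] (hab : ia ≠ ib) (hax : ia ≠ ix) (hbx : ib ≠ ix)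
    (hj : Function.Injective j) (hr : ∀ i, i ∈ Set.range j ↔ i ≠ ix) :
    ∃ U : unitary (ltwo (FreeGroup ι) →L[ℂ] ltwo (FreeGroup ι)),
      (U : ltwo (FreeGroup ι) →L[ℂ] ltwo (FreeGroup ι)) ∈ groupVNA (FreeGroup ι) ∧
      (∀ f : FreeGroup κ, f ≠ 1 →
        (TU j ib U f : ltwo (FreeGroup ι) →L[ℂ] ltwo (FreeGroup ι)) (dl 1) 1 = 0) ∧
      (∀ g : FreeGroup ι, dl g ∈ (Submodule.span ℂ (Set.range fun f : FreeGroup κ =>
        (TU j ib U f : ltwo (FreeGroup ι) →L[ℂ] ltwo (FreeGroup ι)) (dl 1))).topologicalClosure) := by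
  have key := fun ζ : closure (S0 ib ix) => exists_U_of_closure (ib := ib) (ix := ix) ζ.1 ζ.2
  choose U hUM hU1 using key
  -- the maps ζ ↦ TU f δ_1 are Lipschitz
  have hlip : ∀ f : FreeGroup κ, ∃ C : ℝ, 0 ≤ C ∧ ∀ ζ ζ' : closure (S0 ib ix),
      ‖(TU j ib (U ζ) f : ltwo (FreeGroup ι) →L[ℂ] ltwo (FreeGroup ι)) (dl 1)
        - (TU j ib (U ζ') f : ltwo (FreeGroup ι) →L[ℂ] ltwo (FreeGroup ι)) (dl 1)‖
        ≤ C * ‖(ζ : ltwo (FreeGroup ι)) - ζ'‖ := by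
    intro f
    obtain ⟨C, hC0, hC⟩ := TU_lip j ib f
    refine ⟨C, hC0, fun ζ ζ' => ?_⟩
    have := hC (U ζ) (U ζ') (hUM ζ) (hUM ζ')
    rwa [hU1, hU1] at this
  have hcont : ∀ f : FreeGroup κ, Continuous fun ζ : closure (S0 ib ix) =>
      (TU j ib (U ζ) f : ltwo (FreeGroup ι) →L[ℂ] ltwo (FreeGroup ι)) (dl 1) := by
    intro f
    obtain ⟨C, hC0, hC⟩ := hlip f
    refine (LipschitzWith.of_dist_le_mul (K := ⟨C, hC0⟩) fun ζ ζ' => ?_).continuous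
    rw [dist_eq_norm, Subtype.dist_eq, dist_eq_norm]
    exact hC ζ ζ'
  -- values on S0
  have hval : ∀ (ζ : closure (S0 ib ix)) (V : ltwo (FreeGroup ι) ≃ₗᵢ[ℂ] ltwo (FreeGroup ι)),
      Good V → (∀ i, i ≠ ib → i ≠ ix → V (dl (FreeGroup.of i)) = dl (FreeGroup.of i)) →
      V (dl (FreeGroup.of ib)) = ζ → ∀ f : FreeGroup κ,
      (TU j ib (U ζ) f : ltwo (FreeGroup ι) →L[ℂ] ltwo (FreeGroup ι)) (dl 1)
        = V (dl (FreeGroup.map j f)) := by
    intro ζ V hV hfix hVζ f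
    rw [← TU_good j hr V hV hfix f]
    exact TU_congr j ib f _ _ (hUM ζ) (cjU_mem hV _) (by rw [hU1, cjU_one hV, hVζ])
  -- the open dense sets
  let O : FreeGroup ι × ℕ → Set (closure (S0 ib ix)) := fun q =>
    {ζ | ∃ p : FreeGroup κ →₀ ℂ, ‖dl q.1 - p.sum fun f c => c •
      (TU j ib (U ζ) f : ltwo (FreeGroup ι) →L[ℂ] ltwo (FreeGroup ι)) (dl 1)‖ < 1 / ((q.2 : ℝ) + 1)}
  have hO : ∀ q, IsOpen (O q) := by
    intro q
    have : O q = ⋃ p : FreeGroup κ →₀ ℂ, {ζ | ‖dl q.1 - p.sum fun f c => c •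
      (TU j ib (U ζ) f : ltwo (FreeGroup ι) →L[ℂ] ltwo (FreeGroup ι)) (dl 1)‖
        < 1 / ((q.2 : ℝ) + 1)} := by
      ext ζ
      simp only [O, Set.mem_ofPred_eq, Set.mem_iUnion]
    rw [this]
    refine isOpen_iUnion fun p => ?_
    refine isOpen_lt ?_ continuous_const
    refine (continuous_const.sub ?_).norm
    simp only [Finsupp.sum]
    exact continuous_finsetSum _ fun f _ => (continuous_const_smul (p f)).comp (hcont f)
  have hD : ∀ q, Dense (O q) := by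
    intro q
    rw [Metric.dense_iff]
    intro ζ r hr0
    obtain ⟨ζ₀, ⟨V, hV, hfix, hVζ⟩, hd⟩ := Metric.mem_closure_iff.1 ζ.2 (r / 2) (by positivity)
    obtain ⟨V', hV', hfix', hd', p, hp⟩ := lim_dense j hab hax hbx hj hr V hV hfix q.1 (r / 4)
      (1 / ((q.2 : ℝ) + 1)) (by positivity) (by positivity)
    have hmem : V' (dl (FreeGroup.of ib)) ∈ closure (S0 ib ix) :=
      subset_closure ⟨V', hV', hfix', rfl⟩
    refine ⟨⟨V' (dl (FreeGroup.of ib)), hmem⟩, ?_, ?_⟩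
    · rw [Metric.mem_ball, Subtype.dist_eq]
      calc dist (V' (dl (FreeGroup.of ib))) (ζ : ltwo (FreeGroup ι))
          ≤ dist (V' (dl (FreeGroup.of ib))) ζ₀ + dist ζ₀ ζ := dist_triangle _ _ _
        _ ≤ r / 4 + r / 2 := by
            refine add_le_add ?_ ?_
            · rw [dist_eq_norm, ← hVζ]; exact hd'
            · rw [dist_comm]; exact hd.le
        _ < r := by linarith
    · refine ⟨p, ?_⟩
      have : (p.sum fun f c => c • (TU j ib (U ⟨V' (dl (FreeGroup.of ib)), hmem⟩) f :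
          ltwo (FreeGroup ι) →L[ℂ] ltwo (FreeGroup ι)) (dl 1))
          = p.sum fun f c => c • V' (dl (FreeGroup.map j f)) := by
        refine Finsupp.sum_congr fun f _ => ?_
        rw [hval ⟨V' (dl (FreeGroup.of ib)), hmem⟩ V' hV' hfix' rfl f]
      rw [this]
      exact hp
  have : CompleteSpace (closure (S0 ib ix)) := isClosed_closure.completeSpace_coe
  have : Nonempty (closure (S0 ib ix)) :=
    ⟨⟨dl (FreeGroup.of ib), subset_closure ⟨LinearIsometryEquiv.refl ℂ _, Good.refl,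
      fun _ _ _ => rfl, rfl⟩⟩⟩
  have : Countable (FreeGroup ι) :=
    FreeGroup.toWord_injective.countable
  obtain ⟨ζ, hζ⟩ := (dense_iInter_of_isOpen hO hD).nonempty
  refine ⟨U ζ, hUM ζ, ?_, ?_⟩
  · intro f hf
    obtain ⟨C, hC0, hC⟩ := hlip f
    refine norm_le_zero_iff.1 (le_of_forall_pos_le_add fun ε hε => ?_)
    obtain ⟨ζ₀, ⟨V, hV, hfix, hVζ⟩, hd⟩ := Metric.mem_closure_iff.1 ζ.2 (ε / (C + 1))
      (by positivity)
    have hmem : ζ₀ ∈ closure (S0 ib ix) := subset_closure ⟨V, hV, hfix, hVζ⟩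
    have h0 : ((TU j ib (U ⟨ζ₀, hmem⟩) f : ltwo (FreeGroup ι) →L[ℂ] ltwo (FreeGroup ι))
        (dl 1)) 1 = 0 := by
      rw [hval ⟨ζ₀, hmem⟩ V hV hfix hVζ f, ← inner_dl (1 : FreeGroup ι)]
      have h1 : ⟪(dl 1 : ltwo (FreeGroup ι)), V (dl (FreeGroup.map j f))⟫_ℂ
          = ⟪V (dl 1), V (dl (FreeGroup.map j f))⟫_ℂ := by rw [hV.one]
      rw [h1, LinearIsometryEquiv.inner_map_map, inner_dl, dl_apply, if_neg]
      intro h
      exact hf (FreeGroup.map_injective hj (by rw [← h, map_one]))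
    have h2 := hC ζ ⟨ζ₀, hmem⟩
    have h3 := norm_coord_le ((TU j ib (U ζ) f : ltwo (FreeGroup ι) →L[ℂ] ltwo (FreeGroup ι)) (dl 1)
        - (TU j ib (U ⟨ζ₀, hmem⟩) f : ltwo (FreeGroup ι) →L[ℂ] ltwo (FreeGroup ι)) (dl 1)) 1
    rw [lp.coeFn_sub, Pi.sub_apply, h0, sub_zero] at h3
    rw [dist_eq_norm] at hd
    calc _ ≤ _ := h3
      _ ≤ _ := h2
      _ ≤ C * (ε / (C + 1)) := mul_le_mul_of_nonneg_left hd.le hC0
      _ ≤ 0 + ε := by
        rw [zero_add, mul_div_assoc', div_le_iff₀ (by positivity)]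
        nlinarith
  · intro g
    change dl g ∈ closure _
    rw [Metric.mem_closure_iff]
    intro ε hε
    obtain ⟨k, hk⟩ := exists_nat_one_div_lt hε
    obtain ⟨p, hp⟩ := Set.mem_iInter.1 hζ (g, k)
    refine ⟨p.sum fun f c => c •
      (TU j ib (U ζ) f : ltwo (FreeGroup ι) →L[ℂ] ltwo (FreeGroup ι)) (dl 1), ?_, ?_⟩
    · exact Submodule.sum_mem _ fun f _ => Submodule.smul_mem _ _
        (Submodule.subset_span ⟨f, rfl⟩)
    · rw [dist_eq_norm]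
      exact hp.trans hk

end Crest.Agent.R134
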