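import Crest.Agent.R134.GoodFacts
import Crest.Agent.R134.GenFacts

/-!
# Row 134, part (D): the homomorphisms `TU j ib U : FreeGroup κ →* unitary B(ℓ²(FreeGroup ι))`

`j : κ → ι` injective with range `{i ≠ ix}`; `TU j ib U`: `u_k ↦ U` if `j k = ib`, `u_k ↦ λ(u_{j k})` otherwise.
-/

set_option autoImplicit false
open Crest.OpAlg
open scoped InnerProductSpace

namespace Crest.Agent.R134

theorem leftRegular_unitary {G : Type} [Group G] (g : G) :
    leftRegular g ∈ unitary (ltwo G →L[ℂ] ltwo G) := by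
  classical
  rw [Unitary.mem_iff]
  constructor
  · rw [leftRegular_star]
    have := leftRegular_mul g⁻¹ g
    rw [inv_mul_cancel, leftRegular_one] at this
    exact this.symm
  · rw [leftRegular_star]
    have := leftRegular_mul g g⁻¹
    rw [mul_inv_cancel, leftRegular_one] at this
    exact this.symm

/-- `λ(g)` as a unitary -/
noncomputable def LR {G : Type} [Group G] (g : G) : unitary (ltwo G →L[ℂ] ltwo G) :=
  ⟨leftRegular g, leftRegular_unitary g⟩

variable {κ ι : Type} [DecidableEq ι]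

noncomputable def TU (j : κ → ι) (ib : ι)
    (U : unitary (ltwo (FreeGroup ι) →L[ℂ] ltwo (FreeGroup ι))) :
    FreeGroup κ →* unitary (ltwo (FreeGroup ι) →L[ℂ] ltwo (FreeGroup ι)) :=
  FreeGroup.lift fun k => if j k = ib then U else LR (FreeGroup.of (j k))

/-- `cj V λ(b)` is a unitary -/
theorem cj_unitary {G : Type} (V : ltwo G ≃ₗᵢ[ℂ] ltwo G)
    (U : unitary (ltwo G →L[ℂ] ltwo G)) : cj V (U : ltwo G →L[ℂ] ltwo G) ∈ unitary _ := by
  rw [Unitary.mem_iff, ← cj_star]
  constructor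
  · change cj V (star (U : ltwo G →L[ℂ] ltwo G)) ∘L cj V U = ContinuousLinearMap.id ℂ _
    rw [← cj_comp]
    have h : star (U : ltwo G →L[ℂ] ltwo G) ∘L (U : ltwo G →L[ℂ] ltwo G)
        = ContinuousLinearMap.id ℂ _ := Unitary.coe_star_mul_self U
    rw [h, cj_id]
  · change cj V U ∘L cj V (star (U : ltwo G →L[ℂ] ltwo G)) = ContinuousLinearMap.id ℂ _
    rw [← cj_comp]
    have h : (U : ltwo G →L[ℂ] ltwo G) ∘L star (U : ltwo G →L[ℂ] ltwo G)
        = ContinuousLinearMap.id ℂ _ := Unitary.coe_mul_star_self U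
    rw [h, cj_id]

/-- `V λ(g) V*` as a unitary -/
noncomputable def cjU {G : Type} (V : ltwo G ≃ₗᵢ[ℂ] ltwo G)
    (U : unitary (ltwo G →L[ℂ] ltwo G)) : unitary (ltwo G →L[ℂ] ltwo G) :=
  ⟨cj V U, cj_unitary V U⟩

end Crest.Agent.R134
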