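import Crest.Agent.R134.Basic

/-!
# Row 134: elementary facts on `M = groupVNA G`
-/

set_option autoImplicit false
set_option linter.unusedSectionVars false
open Crest.OpAlg
open scoped InnerProductSpace

namespace Crest.Agent.R134

variable {G : Type} [Group G]

theorem leftRegular_mem (g : G) : leftRegular g ∈ groupVNA G := by
  change leftRegular g ∈ StarSubalgebra.centralizer ℂ _
  rw [StarSubalgebra.mem_centralizer_iff]
  intro y hy
  have hy' := (StarSubalgebra.mem_centralizer_iff ℂ).1 hy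
  refine ⟨((hy' _ ⟨g, rfl⟩).1).symm, ?_⟩
  have h1 := (hy' _ ⟨g, rfl⟩).2
  have h2 := congrArg star h1
  rw [star_mul, star_mul, star_star] at h2
  exact h2

/-- `M` is closed under the operations (all immediate: `groupVNA G` is a `*`-subalgebra) -/
theorem M_comp {m n : ltwo G →L[ℂ] ltwo G} (hm : m ∈ groupVNA G) (hn : n ∈ groupVNA G) :
    m ∘L n ∈ groupVNA G :=
  (groupVNA G).toStarSubalgebra.mul_mem hm hn

theorem M_star {m : ltwo G →L[ℂ] ltwo G} (hm : m ∈ groupVNA G) : star m ∈ groupVNA G :=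
  star_mem (S := VonNeumannAlgebra (ltwo G)) hm

theorem M_one : (ContinuousLinearMap.id ℂ (ltwo G)) ∈ groupVNA G :=
  (groupVNA G).toStarSubalgebra.one_mem

theorem M_add {m n : ltwo G →L[ℂ] ltwo G} (hm : m ∈ groupVNA G) (hn : n ∈ groupVNA G) :
    m + n ∈ groupVNA G :=
  (groupVNA G).toStarSubalgebra.add_mem hm hn

theorem M_smul {m : ltwo G →L[ℂ] ltwo G} (c : ℂ) (hm : m ∈ groupVNA G) :
    c • m ∈ groupVNA G :=
  (groupVNA G).toStarSubalgebra.smul_mem hm c

/-- membership criterion: `m ∈ M` iff `m` commutes with every operator `S` such that `S` and `S*`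
commute with all `λ(g)` -/
theorem mem_M_iff (m : ltwo G →L[ℂ] ltwo G) :
    m ∈ groupVNA G ↔ ∀ S : ltwo G →L[ℂ] ltwo G,
      (∀ g : G, S ∘L leftRegular g = leftRegular g ∘L S) → S ∘L m = m ∘L S := by
  classical
  have key : ∀ S : ltwo G →L[ℂ] ltwo G,
      S ∈ StarSubalgebra.centralizer ℂ (Set.range (leftRegular (G := G))) ↔
        ∀ g : G, S ∘L leftRegular g = leftRegular g ∘L S := by
    intro S
    rw [StarSubalgebra.mem_centralizer_iff]
    constructor
    · intro h g
      exact ((h _ ⟨g, rfl⟩).1).symm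
    · rintro h _ ⟨g, rfl⟩
      refine ⟨(h g).symm, ?_⟩
      rw [leftRegular_star]
      exact (h g⁻¹).symm
  change m ∈ StarSubalgebra.centralizer ℂ _ ↔ _
  rw [StarSubalgebra.mem_centralizer_iff]
  constructor
  · intro h S hS
    exact (h S ((key S).2 hS)).1
  · intro h y hy
    exact ⟨h y ((key y).1 hy), h (star y) ((key (star y)).1 (star_mem hy))⟩

/-- `M` commutes with right translations -/
theorem M_rr {m : ltwo G →L[ℂ] ltwo G} (hm : m ∈ groupVNA G) (g : G) (ξ : ltwo G) :
    m (rr g ξ) = rr g (m ξ) := by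
  classical
  have h1 : ∀ h : G, rr g ∘L leftRegular h = leftRegular h ∘L rr g := by
    intro h
    refine ContinuousLinearMap.ext fun η => ?_
    exact (leftRegular_rr h g η).symm
  exact (DFunLike.congr_fun ((mem_M_iff m).1 hm (rr g) h1) ξ).symm

/-- `M` is closed under pointwise (strong) limits -/
theorem M_lim {m : ltwo G →L[ℂ] ltwo G} (f : ℕ → ltwo G →L[ℂ] ltwo G)
    (hf : ∀ k, f k ∈ groupVNA G)
    (h : ∀ ξ, Filter.Tendsto (fun k => f k ξ) Filter.atTop (nhds (m ξ))) : m ∈ groupVNA G := by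
  rw [mem_M_iff]
  intro S hS
  refine ContinuousLinearMap.ext fun ξ => ?_
  have h1 : Filter.Tendsto (fun k => S (f k ξ)) Filter.atTop (nhds (S (m ξ))) :=
    (S.continuous.tendsto _).comp (h ξ)
  have h3 : (fun k => S (f k ξ)) = fun k => f k (S ξ) := by
    funext k
    exact DFunLike.congr_fun ((mem_M_iff _).1 (hf k) S hS) ξ
  rw [h3] at h1
  exact tendsto_nhds_unique h1 (h (S ξ))

end Crest.Agent.R134
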