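import Crest.Agent.R134.Basic
import Crest.Agent.R134.MA

/-!
# Row 134: elementary facts on `M = groupVNA G`
-/

set_option autoImplicit false
set_option linter.unusedSectionVars false
open Crest.OpAlg
open scoped InnerProductSpace

namespace Crest.Agent.R134

variable {G : Type} [Group G] [DecidableEq G]

theorem lam_mem (p : MonoidAlgebra ℂ G) : lam p ∈ groupVNA G := by
  rw [lam, Finsupp.sum]
  exact sum_mem fun g _ => M_smul _ (leftRegular_mem g)

theorem M_dl {m : ltwo G →L[ℂ] ltwo G} (hm : m ∈ groupVNA G) (g : G) :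
    m (dl g) = rr g⁻¹ (m (dl 1)) := by
  rw [← M_rr hm, rr_dl, inv_inv, one_mul]

theorem M_dl_apply {m : ltwo G →L[ℂ] ltwo G} (hm : m ∈ groupVNA G) (g h : G) :
    m (dl g) h = m (dl 1) (h * g⁻¹) := by
  rw [M_dl hm, rr_apply]

theorem M_ext {m n : ltwo G →L[ℂ] ltwo G} (hm : m ∈ groupVNA G) (hn : n ∈ groupVNA G)
    (h : m (dl 1) = n (dl 1)) : m = n :=
  ext_dl fun g => by rw [M_dl hm, M_dl hn, h]

theorem M_star_apply {m : ltwo G →L[ℂ] ltwo G} (hm : m ∈ groupVNA G) (g : G) :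
    star m (dl 1) g = star (m (dl 1) g⁻¹) := by
  rw [← inner_dl, ContinuousLinearMap.star_eq_adjoint, ContinuousLinearMap.adjoint_inner_right,
    ← inner_conj_symm, inner_dl, M_dl_apply hm, one_mul]
  rfl

theorem M_norm_star {m : ltwo G →L[ℂ] ltwo G} (hm : m ∈ groupVNA G) :
    ‖star m (dl 1)‖ = ‖m (dl 1)‖ := by
  have h : ‖star m (dl 1)‖ ^ 2 = ‖m (dl 1)‖ ^ 2 := by
    rw [norm_sq_eq, norm_sq_eq, ← Equiv.tsum_eq (Equiv.inv G) (fun g => ‖m (dl 1) g‖ ^ 2)]
    refine tsum_congr fun g => ?_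
    rw [M_star_apply hm, norm_star]
    rfl
  exact (pow_left_inj₀ (norm_nonneg _) (norm_nonneg _) two_ne_zero).1 h

end Crest.Agent.R134
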