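import Crest.Agent.R134.Basic
import Crest.Agent.R134.MB

/-!
# Row 134: elementary facts on `M = groupVNA G`
-/

set_option autoImplicit false
set_option linter.unusedSectionVars false
open Crest.OpAlg
open scoped InnerProductSpace

namespace Crest.Agent.R134

variable {G : Type} [Group G] [DecidableEq G]

/-- the trace is tracial: right multiplication by a contraction/unitary, `‖m u δ_1‖ = ‖m δ_1‖`
for `u ∈ M` unitary -/
theorem M_norm_unitary {m u : ltwo G →L[ℂ] ltwo G} (hm : m ∈ groupVNA G) (hu : u ∈ groupVNA G)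
    (h1 : star u ∘L u = ContinuousLinearMap.id ℂ _) (h2 : u ∘L star u = ContinuousLinearMap.id ℂ _) :
    ‖m (u (dl 1))‖ = ‖m (dl 1)‖ := by
  have _ := h1
  have e1 : m (u (dl 1)) = (m ∘L u) (dl 1) := rfl
  have e2 : star (m ∘L u) = star u ∘L star m := star_mul m u
  have e3 : ‖star u (star m (dl 1))‖ = ‖star m (dl 1)‖ := by
    have h3 := (ContinuousLinearMap.norm_map_iff_adjoint_comp_self (star u)).2 (by
      have : ContinuousLinearMap.adjoint (star u) = u := ContinuousLinearMap.adjoint_adjoint u
      rw [this]; exact h2)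
    exact h3 _
  rw [e1, ← M_norm_star (M_comp hm hu), e2, ← M_norm_star hm, ← e3]
  rfl

/-- Fourier coefficients of a product -/
theorem M_conv {m n : ltwo G →L[ℂ] ltwo G} (hm : m ∈ groupVNA G) (g : G) :
    HasSum (fun h => m (dl 1) (g * h⁻¹) * n (dl 1) h) (m (n (dl 1)) g) := by
  have h1 := hasSum_dl (n (dl 1))
  have h2 := h1.mapL m
  have h3 := h2.mapL (innerSL ℂ (dl g))
  simp only [innerSL_apply_apply, inner_dl, map_smul] at h3
  have e : (fun h => m (dl 1) (g * h⁻¹) * n (dl 1) h) =
      fun h => (n (dl 1) h) • (m (dl h) g) := by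
    funext h
    rw [M_dl_apply hm h g, mul_comm]
    rfl
  rw [e]
  exact h3

end Crest.Agent.R134
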