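import Crest.Agent.R134.Basic
import Crest.Agent.R134.MC

/-!
# Row 134: elementary facts on `M = groupVNA G`
-/

set_option autoImplicit false
set_option linter.unusedSectionVars false
open Crest.OpAlg
open scoped InnerProductSpace

namespace Crest.Agent.R134

variable {G : Type} [Group G] [DecidableEq G]

/-- contractions converging (Cauchy) on every `δ_g` converge strongly -/
theorem MD_strong_lim (f : ℕ → ltwo G →L[ℂ] ltwo G) (hn : ∀ k η, ‖f k η‖ ≤ ‖η‖)
    (hc : ∀ g : G, CauchySeq fun k => f k (dl g)) :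
    ∃ U : ltwo G →L[ℂ] ltwo G,
      ∀ η, Filter.Tendsto (fun k => f k η) Filter.atTop (nhds (U η)) := by
  have hspan : ∀ η ∈ Submodule.span ℂ (Set.range (dl : G → ltwo G)),
      CauchySeq fun k => f k η := by
    intro η hη
    induction hη using Submodule.span_induction with
    | mem x hx =>
      obtain ⟨g, rfl⟩ := hx
      exact hc g
    | zero => simpa using cauchySeq_const (0 : ltwo G)
    | add x y _ _ hx hy =>
      have := hx.add hy
      have e : (fun k => f k (x + y)) = (fun k => f k x) + fun k => f k y := by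
        funext k; simp
      rw [e]; exact this
    | smul a x _ hx =>
      obtain ⟨y, hy⟩ := cauchySeq_tendsto_of_complete hx
      have := (hy.const_smul a).cauchySeq
      simpa using this
  have hall : ∀ η : ltwo G, CauchySeq fun k => f k η := by
    intro η
    have hη : η ∈ closure (Submodule.span ℂ (Set.range (dl : G → ltwo G)) : Set (ltwo G)) := by
      have : η ∈ (Submodule.span ℂ (Set.range (dl : G → ltwo G))).topologicalClosure := by
        rw [dense_dl]; trivial
      exact this
    rw [Metric.cauchySeq_iff']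
    intro ε hε
    obtain ⟨η', hη', hd⟩ := Metric.mem_closure_iff.1 hη (ε / 3) (by positivity)
    obtain ⟨N, hN⟩ := Metric.cauchySeq_iff'.1 (hspan η' hη') (ε / 3) (by positivity)
    refine ⟨N, fun n hn' => ?_⟩
    have h1 : dist (f n η) (f n η') ≤ dist η η' := by
      rw [dist_eq_norm, dist_eq_norm, ← map_sub]; exact hn _ _
    have h2 : dist (f N η') (f N η) ≤ dist η η' := by
      rw [dist_comm, dist_eq_norm, dist_eq_norm, ← map_sub]; exact hn _ _
    have h3 := hN n hn'
    calc dist (f n η) (f N η) ≤ dist (f n η) (f n η') + dist (f n η') (f N η') +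
          dist (f N η') (f N η) := dist_triangle4 _ _ _ _
      _ < ε := by linarith
  choose F hF using fun η => cauchySeq_tendsto_of_complete (hall η)
  refine ⟨continuousLinearMapOfTendsto (l := Filter.atTop) f (f := F) (tendsto_pi_nhds.2 hF), fun η => ?_⟩
  exact hF η

theorem MD_norm_of_star_comp {T : ltwo G →L[ℂ] ltwo G}
    (h : star T ∘L T = ContinuousLinearMap.id ℂ _) (η : ltwo G) : ‖T η‖ = ‖η‖ := by
  have h1 : ⟪T η, T η⟫_ℂ = ⟪η, η⟫_ℂ := by
    rw [← ContinuousLinearMap.adjoint_inner_right]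
    have : (ContinuousLinearMap.adjoint T) (T η) = η := by
      have := congrArg (fun S : ltwo G →L[ℂ] ltwo G => S η) h
      exact this
    rw [this]
  rw [inner_self_eq_norm_sq_to_K, inner_self_eq_norm_sq_to_K] at h1
  have h2 : ‖T η‖ ^ 2 = ‖η‖ ^ 2 := by exact_mod_cast h1
  exact (sq_eq_sq₀ (norm_nonneg _) (norm_nonneg _)).1 h2

theorem MD_star_comp_of_norm {T : ltwo G →L[ℂ] ltwo G}
    (h : ∀ η, ‖T η‖ = ‖η‖) : star T ∘L T = ContinuousLinearMap.id ℂ _ := by
  have h0 := (ContinuousLinearMap.norm_map_iff_adjoint_comp_self T).1 h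
  exact h0

/-- a pointwise limit on `δ_1` of unitaries of `M` is a unitary of `M` -/
theorem M_unitary_lim (f : ℕ → ltwo G →L[ℂ] ltwo G) (hf : ∀ k, f k ∈ groupVNA G)
    (h1 : ∀ k, star (f k) ∘L f k = ContinuousLinearMap.id ℂ _)
    (h2 : ∀ k, f k ∘L star (f k) = ContinuousLinearMap.id ℂ _)
    (ξ : ltwo G) (h : Filter.Tendsto (fun k => f k (dl 1)) Filter.atTop (nhds ξ)) :
    ∃ U ∈ groupVNA G, U (dl 1) = ξ ∧ star U ∘L U = ContinuousLinearMap.id ℂ _ ∧
      U ∘L star U = ContinuousLinearMap.id ℂ _ ∧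
      (∀ η, Filter.Tendsto (fun k => f k η) Filter.atTop (nhds (U η))) ∧
      (∀ η, Filter.Tendsto (fun k => star (f k) η) Filter.atTop (nhds (star U η))) := by
  have hnorm : ∀ k η, ‖f k η‖ = ‖η‖ := fun k η => MD_norm_of_star_comp (h1 k) η
  have hnorm' : ∀ k η, ‖star (f k) η‖ = ‖η‖ := fun k η =>
    MD_norm_of_star_comp (T := star (f k)) (by rw [star_star]; exact h2 k) η
  have hC1 : CauchySeq fun k => f k (dl 1) := h.cauchySeq
  have hC : ∀ g : G, CauchySeq fun k => f k (dl g) := by
    intro g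
    have : (fun k => f k (dl g)) = fun k => rr g⁻¹ (f k (dl 1)) := by
      funext k; exact M_dl (hf k) g
    rw [this]
    have hh := ((rr (g⁻¹ : G)).continuous.tendsto ξ).comp h
    exact hh.cauchySeq
  have hC1' : CauchySeq fun k => star (f k) (dl 1) := by
    rw [Metric.cauchySeq_iff] at hC1 ⊢
    intro ε hε
    obtain ⟨N, hN⟩ := hC1 ε hε
    refine ⟨N, fun m hm n hn => ?_⟩
    have h3 := hN m hm n hn
    have hmem : f m - f n ∈ groupVNA G := by
      have := M_add (hf m) (M_smul (-1) (hf n))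
      simpa [sub_eq_add_neg] using this
    have h4 := M_norm_star hmem
    rw [dist_eq_norm] at h3 ⊢
    rw [star_sub] at h4
    have h5 : star (f m) (dl 1) - star (f n) (dl 1) = (star (f m) - star (f n)) (dl 1) := rfl
    rw [h5, h4]
    exact h3
  have hC' : ∀ g : G, CauchySeq fun k => star (f k) (dl g) := by
    intro g
    obtain ⟨ξ', hξ'⟩ := cauchySeq_tendsto_of_complete hC1'
    have : (fun k => star (f k) (dl g)) = fun k => rr g⁻¹ (star (f k) (dl 1)) := by
      funext k; exact M_dl (M_star (hf k)) g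
    rw [this]
    have hh := ((rr (g⁻¹ : G)).continuous.tendsto ξ').comp hξ'
    exact hh.cauchySeq
  obtain ⟨U, hU⟩ := MD_strong_lim f (fun k η => (hnorm k η).le) hC
  obtain ⟨W, hW⟩ := MD_strong_lim (fun k => star (f k)) (fun k η => (hnorm' k η).le) hC'
  have hWU : W = star U := by
    ext1 η
    refine ext_inner_right ℂ fun ζ => ?_
    have t1 : Filter.Tendsto (fun k => ⟪star (f k) η, ζ⟫_ℂ) Filter.atTop (nhds ⟪W η, ζ⟫_ℂ) :=
      (hW η).inner tendsto_const_nhds
    have t2 : Filter.Tendsto (fun k => ⟪η, f k ζ⟫_ℂ) Filter.atTop (nhds ⟪η, U ζ⟫_ℂ) :=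
      tendsto_const_nhds.inner (hU ζ)
    have e : (fun k => ⟪star (f k) η, ζ⟫_ℂ) = fun k => ⟪η, f k ζ⟫_ℂ := by
      funext k
      exact ContinuousLinearMap.adjoint_inner_left (f k) ζ η
    rw [e] at t1
    have e2 := tendsto_nhds_unique t1 t2
    rw [e2]
    exact (ContinuousLinearMap.adjoint_inner_left U ζ η).symm
  have hUn : ∀ η, ‖U η‖ = ‖η‖ := by
    intro η
    have t := (hU η).norm
    simp only [hnorm] at t
    exact tendsto_nhds_unique t tendsto_const_nhds
  have hWn : ∀ η, ‖W η‖ = ‖η‖ := by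
    intro η
    have t := (hW η).norm
    simp only [hnorm'] at t
    exact tendsto_nhds_unique t tendsto_const_nhds
  refine ⟨U, M_lim f hf hU, tendsto_nhds_unique (hU _) h, MD_star_comp_of_norm hUn, ?_, hU, ?_⟩
  · have := MD_star_comp_of_norm hWn
    rw [hWU, star_star] at this
    exact this
  · rw [← hWU]; exact hW

end Crest.Agent.R134
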