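import Crest.Agent.R134.GenFacts

/-!
# Row 134, part (C): the generating function of `X = V* x V`

Proof of `phi_le`: write `ζ = V* δ_x`, `‖ζ‖ = 1`, `e := ζ - δ_x + (s/2) δ_p - (s/2) δ_r`, `‖e‖ ≤ (11/10)s²`,
`deg p = 2`, `deg r = 0`, `deg x = 1`. As `∑_g |ζ g|² = 1`,
`gen ζ t - t = ∑_g |ζ g|² (t^{deg g} - t)`; the term `g = x` vanishes.  For `deg g = 0` the summand is
`|ζ g|² (1-t) ≥ 0`; for `deg g = 1` it is 0; for `deg g = d ≥ 2` it is `-|ζ g|² (t - t^d) ≥ -|ζ g|² ...`.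
So `gen ζ t - t ≥ |ζ r|² (1-t) - |ζ p|² t(1-t) - ∑_{g ∉ {x, r, p}} |ζ g|²` (as `t - t^d ≤ 1`), where
`ζ g = e g` for `g ∉ {x,r,p}`, `|ζ r - s/2| = |e r| ≤ (11/10)s²`, `|ζ p + s/2| = |e p| ≤ (11/10) s²`.
Hence `≥ (s/2-(11/10)s²)²(1-t) - (s/2+(11/10)s²)² t(1-t) - (121/100)s⁴ ≥ (s²/4)(1-t)² - 6 s³`.
-/

set_option autoImplicit false
open Crest.OpAlg
open scoped InnerProductSpace

namespace Crest.Agent.R134

variable {ι : Type} [DecidableEq ι] (ix : ι)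

theorem phi_le (ζ : ltwo (FreeGroup ι)) (p r : FreeGroup ι) (hp : deg ix p = 2) (hr : deg ix r = 0)
    (s : ℝ) (hs : 0 ≤ s) (hs1 : s ≤ 1 / 32) (hn : ‖ζ‖ = 1)
    (h : ‖ζ - dl (FreeGroup.of ix) + ((s / 2 : ℝ) : ℂ) • dl p - ((s / 2 : ℝ) : ℂ) • dl r‖
      ≤ 11 / 10 * s ^ 2) (t : ℝ) (h0 : 0 ≤ t) (h1 : t ≤ 1) :
    t + s ^ 2 / 4 * (1 - t) ^ 2 - 6 * s ^ 3 ≤ gen ix ζ t := by
  classical
  set x : FreeGroup ι := FreeGroup.of ix with hx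
  have hdx : deg ix x = 1 := by
    simp [deg, hx]
  have hxp : x ≠ p := fun hh => by rw [hh, hp] at hdx; omega
  have hxr : x ≠ r := fun hh => by rw [hh, hr] at hdx; omega
  have hpr : p ≠ r := fun hh => by rw [hh, hr] at hp; omega
  set e : ltwo (FreeGroup ι) :=
    ζ - dl x + ((s / 2 : ℝ) : ℂ) • dl p - ((s / 2 : ℝ) : ℂ) • dl r with he
  have heg : ∀ g, e g = ζ g - (dl x : ltwo (FreeGroup ι)) g + ((s / 2 : ℝ) : ℂ) *
      (dl p : ltwo (FreeGroup ι)) g - ((s / 2 : ℝ) : ℂ) * (dl r : ltwo (FreeGroup ι)) g := by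
    intro g
    rw [he]
    rfl
  have hle : ∀ g, ‖e g‖ ≤ 11 / 10 * s ^ 2 := fun g =>
    (lp.norm_apply_le_norm (by norm_num) e g).trans h
  have her : e r = ζ r - ((s / 2 : ℝ) : ℂ) := by
    rw [heg, dl_apply, dl_apply, dl_apply, if_neg (Ne.symm hxr), if_neg (Ne.symm hpr), if_pos rfl]
    ring
  have hep : e p = ζ p + ((s / 2 : ℝ) : ℂ) := by
    rw [heg, dl_apply, dl_apply, dl_apply, if_neg (Ne.symm hxp), if_neg hpr, if_pos rfl]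
    ring
  have hother : ∀ g, g ≠ x → g ≠ p → g ≠ r → e g = ζ g := by
    intro g h1 h2 h3
    rw [heg, dl_apply, dl_apply, dl_apply, if_neg h1, if_neg h2, if_neg h3]
    ring
  have hnorm2 : ‖((s / 2 : ℝ) : ℂ)‖ = s / 2 := by
    rw [Complex.norm_real, Real.norm_of_nonneg (by positivity)]
  have hr1 : s / 2 - 11 / 10 * s ^ 2 ≤ ‖ζ r‖ := by
    have h2 := hle r
    rw [her] at h2
    have h3 : ‖((s / 2 : ℝ) : ℂ)‖ ≤ ‖ζ r‖ + ‖ζ r - ((s / 2 : ℝ) : ℂ)‖ := by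
      have := norm_sub_le (ζ r) (ζ r - ((s / 2 : ℝ) : ℂ))
      simpa using this
    rw [hnorm2] at h3
    linarith
  have hp1 : ‖ζ p‖ ≤ s / 2 + 11 / 10 * s ^ 2 := by
    have h2 := hle p
    rw [hep] at h2
    have h3 : ‖ζ p‖ ≤ ‖ζ p + ((s / 2 : ℝ) : ℂ)‖ + ‖((s / 2 : ℝ) : ℂ)‖ := by
      have := norm_sub_le (ζ p + ((s / 2 : ℝ) : ℂ)) ((s / 2 : ℝ) : ℂ)
      simpa using this
    rw [hnorm2] at h3
    linarith
  have hsz := summable_sq ζ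
  have hse := summable_sq e
  have hsg := gen_summable ix ζ t h0 h1
  -- the auxiliary nonnegative function
  set F : FreeGroup ι → ℝ := fun g => (‖ζ g‖ ^ 2 * t ^ deg ix g - t * ‖ζ g‖ ^ 2) + ‖e g‖ ^ 2
    with hF
  have hsF : Summable F := (hsg.sub (hsz.mul_left t)).add hse
  have hFt : ∑' g, F g = gen ix ζ t - t + ‖e‖ ^ 2 := by
    rw [hF, Summable.tsum_add (hsg.sub (hsz.mul_left t)) hse,
      Summable.tsum_sub hsg (hsz.mul_left t), tsum_mul_left, ← norm_sq_eq, ← norm_sq_eq, hn, gen]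
    ring
  have hpos : ∀ g ∉ ({x, p, r} : Finset (FreeGroup ι)), 0 ≤ F g := by
    intro g hg
    simp only [Finset.mem_insert, Finset.mem_singleton, not_or] at hg
    simp only [hF]
    rw [hother g hg.1 hg.2.1 hg.2.2]
    have h2 : 0 ≤ ‖ζ g‖ ^ 2 * t ^ deg ix g := by positivity
    have h3 : 0 ≤ ‖ζ g‖ ^ 2 := by positivity
    nlinarith
  have hsum := hsF.sum_le_tsum ({x, p, r} : Finset (FreeGroup ι)) hpos
  rw [hFt, Finset.sum_insert (by simp [hxp, hxr]), Finset.sum_insert (by simp [hpr]),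
    Finset.sum_singleton] at hsum
  simp only [hF, hdx, hp, hr, pow_one, pow_zero, mul_one] at hsum
  have he2 : ‖e‖ ^ 2 ≤ (11 / 10 * s ^ 2) ^ 2 := by
    exact pow_le_pow_left₀ (norm_nonneg _) h 2
  have hr0 : 0 ≤ s / 2 - 11 / 10 * s ^ 2 := by nlinarith
  have hr2 : (s / 2 - 11 / 10 * s ^ 2) ^ 2 ≤ ‖ζ r‖ ^ 2 := pow_le_pow_left₀ hr0 hr1 2
  have hp2 : ‖ζ p‖ ^ 2 ≤ (s / 2 + 11 / 10 * s ^ 2) ^ 2 := pow_le_pow_left₀ (norm_nonneg _) hp1 2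
  have hex : 0 ≤ ‖e x‖ ^ 2 := by positivity
  have hep0 : 0 ≤ ‖e p‖ ^ 2 := by positivity
  have her0 : 0 ≤ ‖e r‖ ^ 2 := by positivity
  have k1 : (s / 2 - 11 / 10 * s ^ 2) ^ 2 * (1 - t) ≤ ‖ζ r‖ ^ 2 * (1 - t) :=
    mul_le_mul_of_nonneg_right hr2 (by linarith)
  have k2 : ‖ζ p‖ ^ 2 * (t * (1 - t)) ≤ (s / 2 + 11 / 10 * s ^ 2) ^ 2 * (t * (1 - t)) :=
    mul_le_mul_of_nonneg_right hp2 (mul_nonneg h0 (by linarith))
  have k3 : gen ix ζ t - t ≥ (s / 2 - 11 / 10 * s ^ 2) ^ 2 * (1 - t)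
      - (s / 2 + 11 / 10 * s ^ 2) ^ 2 * (t * (1 - t)) - (11 / 10 * s ^ 2) ^ 2 := by
    nlinarith
  have k4 : (s / 2 - 11 / 10 * s ^ 2) ^ 2 * (1 - t)
      - (s / 2 + 11 / 10 * s ^ 2) ^ 2 * (t * (1 - t)) - (11 / 10 * s ^ 2) ^ 2
      - (s ^ 2 / 4 * (1 - t) ^ 2 - 6 * s ^ 3)
      = s ^ 3 * (6 - 11 / 10 * (1 - t) - 11 / 10 * (t * (1 - t)))
        + 121 / 100 * s ^ 4 * ((1 - t) - t * (1 - t) - 1) := by ring
  have k5 : 0 ≤ s ^ 3 * (6 - 11 / 10 * (1 - t) - 11 / 10 * (t * (1 - t)))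
        + 121 / 100 * s ^ 4 * ((1 - t) - t * (1 - t) - 1) := by
    have e1 : s ^ 4 = s ^ 3 * s := by ring
    have e2 : 0 ≤ s ^ 3 := by positivity
    have e3 : 0 ≤ 6 - 11 / 10 * (1 - t) - 11 / 10 * (t * (1 - t))
        + 121 / 100 * s * ((1 - t) - t * (1 - t) - 1) := by nlinarith
    calc (0 : ℝ) ≤ s ^ 3 * (6 - 11 / 10 * (1 - t) - 11 / 10 * (t * (1 - t))
        + 121 / 100 * s * ((1 - t) - t * (1 - t) - 1)) := mul_nonneg e2 e3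
      _ = _ := by rw [e1]; ring
  linarith

theorem psi_le (ζ : ltwo (FreeGroup ι)) (p r : FreeGroup ι) (hp : deg ix p = 2) (hr : deg ix r = 0)
    (t : ℝ) (h0 : 0 ≤ t) (h1 : t ≤ 1) (hn : ‖ζ‖ = 1) (s : ℝ) (hs : s = (1 - t) ^ 2 / 48)
    (h : ‖ζ - dl (FreeGroup.of ix) + ((s / 2 : ℝ) : ℂ) • dl p - ((s / 2 : ℝ) : ℂ) • dl r‖
      ≤ 11 / 10 * s ^ 2) : psi t ≤ gen ix ζ t := by
  have hs0 : 0 ≤ s := by rw [hs]; positivity
  have hs1 : s ≤ 1 / 48 := by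
    rw [hs]; nlinarith
  have := phi_le ix ζ p r hp hr s hs0 (by linarith) hn h t h0 h1
  refine le_trans ?_ this
  unfold psi
  rw [hs]
  have e : ((1 - t) ^ 2 / 48) ^ 2 / 4 * (1 - t) ^ 2 - 6 * ((1 - t) ^ 2 / 48) ^ 3
      = (1 - t) ^ 6 / 18432 := by ring
  linarith

end Crest.Agent.R134
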