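import Crest.Agent.R134.SigDef
import Crest.Agent.R134.Word

/-!
# Row 134, part (B): combinatorics of the substitution `x → b^M v b^M`, `v ∈ H \ {1}`

Throughout `H` is a subgroup none of whose elements `≠ 1` begins with `b^{±1}` (hence, taking inverses,
none ends with `b^{±1}`).

* `Sig_tail` (induction on `w`, `p` generalised): `w = []`: `sep_left`.  `w = (i,δ) :: w'`, `i ≠ ix`:
  `u = u_i^δ u'`, apply the induction hypothesis with `p ++ [(i,δ)]`.  `w = (ix,δ) :: w'`:
  `u = b^{δM} v b^{δM} u'`; the separator `b^{eM} p b^{δM}` begins and ends with `b` (`sep`: if `δ ≠ e` then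
  `p ≠ []` by reducedness, so `mk p ≠ 1`), `v ≠ 1` neither begins nor ends with `b`, `b^{δM} u'` begins with
  `b` (induction hypothesis with `p = []`); CAT twice.
* `Sig_inj`: `v b^{eM} u = v' b^{eM} u'`; if `v ≠ v'` then `v'⁻¹ v (b^{eM} u) = b^{eM} u'`, whose left side
  begins like `v'⁻¹ v ∈ H \ {1}`, not with `b`, while the right side begins with `b`.
* `Sig_disj_aux` (induction on `|w| + |w'|`): see its docstring.
-/

set_option autoImplicit false
set_option linter.unusedSectionVars false

namespace Crest.Agent.R134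

variable {ι : Type} [DecidableEq ι] {ib ix : ι} (hbx : ib ≠ ix) (H : Subgroup (FreeGroup ι))
  (hH : ∀ h ∈ H, h ≠ 1 → hd h ≠ some ib)

theorem sigA_sg_or (e : Bool) : sg e = 1 ∨ sg e = -1 := by
  cases e <;> simp [sg]

omit [DecidableEq ι] in
theorem sigA_red_of_cons {l : ι × Bool} {w : List (ι × Bool)} (h : FreeGroup.IsReduced (l :: w)) :
    FreeGroup.IsReduced w := by
  cases w with
  | nil => exact FreeGroup.IsReduced.nil
  | cons a w => exact (FreeGroup.isReduced_cons_cons.1 h).2

omit [DecidableEq ι] in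
theorem sigA_red_of_append {p w : List (ι × Bool)} (h : FreeGroup.IsReduced (p ++ w)) :
    FreeGroup.IsReduced w := by
  induction p with
  | nil => exact h
  | cons a p ih => exact ih (sigA_red_of_cons h)

include hH

theorem sigA_lst_ne (h : FreeGroup ι) (hh : h ∈ H) (h1 : h ≠ 1) : lst h ≠ some ib := by
  rw [← hd_inv]
  exact hH _ (H.inv_mem hh) (by simpa using h1)

theorem sigA_cat_H (v t : FreeGroup ι) (hv : v ∈ H) (hv1 : v ≠ 1) (ht : hd t = some ib) :
    v * t ≠ 1 ∧ hd (v * t) = hd v ∧ deg ix (v * t) = deg ix v + deg ix t := by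
  have hc : ∀ i, lst v = some i → hd t ≠ some i := by
    intro i hi h
    rw [ht] at h
    exact sigA_lst_ne H hH v hv hv1 (by rw [hi, h])
  exact ⟨cat_ne_one v t hv1 hc, cat_hd v t hv1 hc, cat_deg ix v t hc⟩

include hbx

theorem Sig_tail (M : ℕ) (w : List (ι × Bool)) (p : List (ι × Bool)) (e : Bool)
    (hred : FreeGroup.IsReduced ((ix, e) :: (p ++ w))) (hp : ∀ l ∈ p, l.1 ≠ ix)
    (hlen : p.length + w.length < M) (u : FreeGroup ι) (hu : u ∈ Sig ib ix H M w) :
    FreeGroup.of ib ^ (sg e * M) * FreeGroup.mk p * u ≠ 1 ∧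
      hd (FreeGroup.of ib ^ (sg e * M) * FreeGroup.mk p * u) = some ib := by
  induction w generalizing p e u with
  | nil =>
    have hu' : u = 1 := hu
    subst hu'
    rw [mul_one]
    refine sep_left ib (FreeGroup.mk p) M ?_ (sg e) (sigA_sg_or e)
    rw [FreeGroup.toWord_mk]
    refine lt_of_le_of_lt (FreeGroup.reduce.red (L := p)).length_le ?_
    simpa using hlen
  | cons l w ih =>
    obtain ⟨i, δ⟩ := l
    by_cases hi : i = ix
    · subst hi
      rw [Sig, if_pos rfl] at hu
      obtain ⟨v, hv, hv1, u', hu', rfl⟩ := hu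
      have hr2 : FreeGroup.IsReduced ((i, δ) :: w) := by
        have := sigA_red_of_cons hred
        exact sigA_red_of_append this
      have hlw : w.length < M := by
        simp only [List.length_cons] at hlen
        omega
      obtain ⟨ht1, ht⟩ := ih [] δ (by simpa using hr2) (by simp) (by simpa using hlw) u' hu'
      have e1 : FreeGroup.mk ([] : List (ι × Bool)) = 1 := rfl
      rw [e1, mul_one] at ht1 ht
      set t := FreeGroup.of ib ^ (sg δ * M) * u' with htdef
      obtain ⟨hvt1, hvt, -⟩ := sigA_cat_H H hH (ix := i) v t hv hv1 ht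
      have hpl : (FreeGroup.mk p).toWord.length < M := by
        rw [FreeGroup.toWord_mk]
        refine lt_of_le_of_lt (FreeGroup.reduce.red (L := p)).length_le ?_
        omega
      have hsep : sg e = sg δ ∨ FreeGroup.mk p ≠ 1 := by
        by_cases hp0 : p = []
        · left
          subst hp0
          have := (FreeGroup.isReduced_cons_cons.1 hred).1 rfl
          simp only at this
          rw [this]
        · right
          intro h
          have hrp : FreeGroup.IsReduced p := by
            have := sigA_red_of_cons hred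
            exact this.infix ⟨[], (i, δ) :: w, by simp⟩
          have h2 := congrArg FreeGroup.toWord h
          rw [FreeGroup.toWord_mk, FreeGroup.toWord_one, hrp.reduce_eq] at h2
          exact hp0 h2
      obtain ⟨hs1, hsh, hsl⟩ := sep ib (FreeGroup.mk p) M hpl (sg e) (sg δ) (sigA_sg_or e) (sigA_sg_or δ) hsep
      set s := FreeGroup.of ib ^ (sg e * M) * FreeGroup.mk p * FreeGroup.of ib ^ (sg δ * M) with hsdef
      have heq : FreeGroup.of ib ^ (sg e * M) * FreeGroup.mk p *
          (FreeGroup.of ib ^ (sg δ * M) * v * FreeGroup.of ib ^ (sg δ * M) * u') = s * (v * t) := by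
        rw [hsdef, htdef]
        group
      have hc : ∀ j, lst s = some j → hd (v * t) ≠ some j := by
        intro j hj h
        rw [hsl] at hj
        rw [hvt] at h
        exact hH v hv hv1 (by rw [h, hj])
      rw [heq]
      exact ⟨cat_ne_one s _ hs1 hc, by rw [cat_hd s _ hs1 hc, hsh]⟩
    · rw [Sig, if_neg hi] at hu
      obtain ⟨u', hu', rfl⟩ := hu
      have hq : ∀ l ∈ p ++ [(i, δ)], l.1 ≠ ix := by
        intro l hl
        rw [List.mem_append, List.mem_singleton] at hl
        rcases hl with hl | rfl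
        · exact hp l hl
        · exact hi
      have := ih (p ++ [(i, δ)]) e (by simpa using hred) hq
        (by simp only [List.length_append, List.length_cons, List.length_nil] at hlen ⊢; omega) u' hu'
      rw [← FreeGroup.mul_mk] at this
      simpa only [mul_assoc] using this

theorem Sig_tail0 (M : ℕ) (w : List (ι × Bool)) (e : Bool)
    (hred : FreeGroup.IsReduced ((ix, e) :: w)) (hlen : w.length < M) (u : FreeGroup ι)
    (hu : u ∈ Sig ib ix H M w) :
    FreeGroup.of ib ^ (sg e * M) * u ≠ 1 ∧ hd (FreeGroup.of ib ^ (sg e * M) * u) = some ib := by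
  have := Sig_tail hbx H hH M w [] e (by simpa using hred) (by simp) (by simpa using hlen) u hu
  have e1 : FreeGroup.mk ([] : List (ι × Bool)) = 1 := rfl
  rwa [e1, mul_one] at this

theorem Sig_inj (M : ℕ) (w : List (ι × Bool)) (e : Bool)
    (hred : FreeGroup.IsReduced ((ix, e) :: w)) (hlen : w.length < M) (v v' u u' : FreeGroup ι)
    (hv : v ∈ H) (hv' : v' ∈ H) (hv1 : v ≠ 1) (hv1' : v' ≠ 1) (hu : u ∈ Sig ib ix H M w)
    (hu' : u' ∈ Sig ib ix H M w)
    (h : FreeGroup.of ib ^ (sg e * M) * v * FreeGroup.of ib ^ (sg e * M) * u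
      = FreeGroup.of ib ^ (sg e * M) * v' * FreeGroup.of ib ^ (sg e * M) * u') :
    v = v' ∧ u = u' := by
  obtain ⟨-, ht⟩ := Sig_tail0 hbx H hH M w e hred hlen u hu
  obtain ⟨-, ht'⟩ := Sig_tail0 hbx H hH M w e hred hlen u' hu'
  have h1 : v * (FreeGroup.of ib ^ (sg e * M) * u) = v' * (FreeGroup.of ib ^ (sg e * M) * u') := by
    have := h
    simp only [mul_assoc] at this
    exact mul_left_cancel this
  by_cases hvv : v = v'
  · subst hvv
    exact ⟨rfl, mul_left_cancel (mul_left_cancel h1)⟩
  · exfalso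
    have hne : v'⁻¹ * v ≠ 1 := fun h => hvv (inv_mul_eq_one.1 h).symm
    have hmem : v'⁻¹ * v ∈ H := H.mul_mem (H.inv_mem hv') hv
    obtain ⟨-, h3, -⟩ := sigA_cat_H H hH (ix := ix) _ _ hmem hne ht
    have h4 : v'⁻¹ * v * (FreeGroup.of ib ^ (sg e * M) * u) = FreeGroup.of ib ^ (sg e * M) * u' := by
      rw [mul_assoc, h1, inv_mul_cancel_left]
    rw [h4, ht'] at h3
    exact hH _ hmem hne h3.symm

theorem Sig_deg (M : ℕ) (w : List (ι × Bool)) (e : Bool)
    (hred : FreeGroup.IsReduced ((ix, e) :: w)) (hlen : w.length < M) (v u : FreeGroup ι)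
    (hv : v ∈ H) (hv1 : v ≠ 1) (hu : u ∈ Sig ib ix H M w) :
    deg ix (FreeGroup.of ib ^ (sg e * M) * v * FreeGroup.of ib ^ (sg e * M) * u)
      = deg ix v + deg ix u := by
  obtain ⟨-, ht⟩ := Sig_tail0 hbx H hH M w e hred hlen u hu
  obtain ⟨-, -, h3⟩ := sigA_cat_H H hH (ix := ix) v _ hv hv1 ht
  have h0 : deg ix (FreeGroup.of ib ^ (sg e * (M : ℤ))) = 0 := deg_zpow ix hbx _
  rw [show FreeGroup.of ib ^ (sg e * M) * v * FreeGroup.of ib ^ (sg e * M) * u
    = FreeGroup.of ib ^ (sg e * M) * (v * (FreeGroup.of ib ^ (sg e * M) * u)) by group,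
    deg_mul_left ix h0, h3, deg_mul_left ix h0]

end Crest.Agent.R134
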