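import Crest.Agent.R134.SigDef
import Crest.Agent.R134.Word
import Crest.Agent.R134.SigA

/-!
# Row 134, part (B): combinatorics of the substitution `x → b^M v b^M`, `v ∈ H \ {1}`

Throughout `H` is a subgroup none of whose elements `≠ 1` begins with `b^{±1}` (hence, taking inverses,
none ends with `b^{±1}`).

* `Sig_tail` (induction on `w`, `p` generalised): `w = []`: `sep_left`.  `w = (i,δ) :: w'`, `i ≠ ix`:
  `u = u_i^δ u'`, apply the induction hypothesis with `p ++ [(i,δ)]`.  `w = (ix,δ) :: w'`:
  `u = b^{δM} v b^{δM} u'`; the separator `b^{eM} p b^{δM}` begins and ends with `b` (`sep`: if `δ ≠ e` then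
  `p ≠ []` by reducedness, so `mk p ≠ 1`), `v ≠ 1` neither begins nor ends with `b`, `b^{δM} u'` begins with
  `b` (induction hypothesis with `p = []`); CAT twice.
* `Sig_inj`: `v b^{eM} u = v' b^{eM} u'`; if `v ≠ v'` then `v'⁻¹ v (b^{eM} u) = b^{eM} u'`, whose left side
  begins like `v'⁻¹ v ∈ H \ {1}`, not with `b`, while the right side begins with `b`.
* `Sig_disj_aux` (induction on `|w| + |w'|`): see its docstring.
-/

set_option autoImplicit false
set_option linter.unusedSectionVars false

namespace Crest.Agent.R134

variable {ι : Type} [DecidableEq ι] {ib ix : ι} (hbx : ib ≠ ix) (H : Subgroup (FreeGroup ι))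
  (hH : ∀ h ∈ H, h ≠ 1 → hd h ≠ some ib)

include hbx hH

/-- if `q u = u'` with `q` of degree 0 and short, `u ∈ Sig w`, `u' ∈ Sig w'` then `q * mk w = mk w'`.
Induction on `|w| + |w'|`.  A non-`x` first letter of `w` is moved to `q` (`q ↦ q u_i^δ`), a non-`x` first
letter of `w'` as well (`q ↦ u_i^{-δ} q`); the quantity `|q| + |w| + |w'|` does not increase.
`w = w' = []`: clear.  `w = []`, `w' = (ix,δ) :: w1'`: `b^{-δM} q = v' (b^{δM} u1')`, the left side begins
with `b` (`sep_left`), the right side like `v'`, not with `b`: impossible; `w' = []` similarly.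
`w = (ix,δ) :: w1`, `w' = (ix,δ') :: w1'`: `(b^{-δ'M} q b^{δM}) v (b^{δM} u1) = v' (b^{δ'M} u1')`; if
`δ ≠ δ'` or `q ≠ 1` the left side begins with `b` (`sep`, CAT), the right side does not.  So `δ = δ'`,
`q = 1`, and `v (b^{δM} u1) = v' (b^{δM} u1')` gives `v = v'` (`(v'⁻¹ v) (b^{δM} u1) = b^{δM} u1'`), `u1 = u1'`. -/
theorem Sig_disj_aux (M : ℕ) (N : ℕ) (w w' : List (ι × Bool)) (hN : w.length + w'.length = N)
    (q : FreeGroup ι) (hq : deg ix q = 0) (hlen : q.toWord.length + w.length + w'.length < M)
    (hw : FreeGroup.IsReduced w) (hw' : FreeGroup.IsReduced w') (u u' : FreeGroup ι)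
    (hu : u ∈ Sig ib ix H M w) (hu' : u' ∈ Sig ib ix H M w') (h : q * u = u') :
    q * FreeGroup.mk w = FreeGroup.mk w' := by
  induction N using Nat.strong_induction_on generalizing w w' q u u' with
  | _ N IH =>
  -- elements of `H \ {1}` neither begin nor end with `b`
  have hH2 : ∀ h ∈ H, h ≠ 1 → lst h ≠ some ib := by
    intro h hh h1
    rw [← hd_inv]
    exact hH h⁻¹ (H.inv_mem hh) (by simpa using h1)
  -- product `v * y` with `y` beginning with `b`
  have hvb : ∀ v ∈ H, v ≠ 1 → ∀ y : FreeGroup ι, hd y = some ib →
      hd (v * y) ≠ some ib := by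
    intro v hv hv1 y hy
    rw [cat_hd v y hv1 ?_]
    · exact hH v hv hv1
    · intro i hi hc
      rw [hy] at hc
      have hib : ib = i := by simpa using hc
      subst hib
      exact hH2 v hv hv1 hi
  have hlen1 : ∀ l : ι × Bool, (FreeGroup.mk [l]).toWord.length = 1 := by
    intro l
    rw [FreeGroup.toWord_mk, FreeGroup.reduce_singleton]
    rfl
  have hdeg1 : ∀ l : ι × Bool, l.1 ≠ ix → deg ix (FreeGroup.mk [l]) = 0 := by
    intro l hl
    unfold deg
    rw [FreeGroup.toWord_mk, FreeGroup.reduce_singleton]
    simp [hl]
  have hleninv : ∀ g : FreeGroup ι, g⁻¹.toWord.length = g.toWord.length := by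
    intro g
    rw [FreeGroup.toWord_inv, FreeGroup.invRev_length]
  have hcons : ∀ (l : ι × Bool) (L : List (ι × Bool)),
      (FreeGroup.mk (l :: L) : FreeGroup ι) = FreeGroup.mk [l] * FreeGroup.mk L := by
    intro l L
    rw [FreeGroup.mul_mk]
    rfl
  have htail : ∀ (l : ι × Bool) (L : List (ι × Bool)), FreeGroup.IsReduced (l :: L) →
      FreeGroup.IsReduced L := by
    intro l L hL
    exact hL.infix (List.suffix_cons l L).isInfix
  have hsg : ∀ e : Bool, sg e = 1 ∨ sg e = -1 := by
    intro e; cases e <;> simp [sg]
  have hsgne : ∀ a b : Bool, a ≠ b → -sg b = sg a := by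
    intro a b hab
    cases a <;> cases b <;> first | exact absurd rfl hab | simp [sg]
  -- impossible: `q = b^{δM} v (b^{δM} u1)` with `q` short
  have himp : ∀ (g : FreeGroup ι) (δ : Bool) (w1 : List (ι × Bool)) (v u1 : FreeGroup ι),
      g.toWord.length < M → FreeGroup.IsReduced ((ix, δ) :: w1) → w1.length < M →
      v ∈ H → v ≠ 1 → u1 ∈ Sig ib ix H M w1 →
      g = FreeGroup.of ib ^ (sg δ * M) * v * FreeGroup.of ib ^ (sg δ * M) * u1 → False := by
    intro g δ w1 v u1 hg hred hl hv hv1 hu1 heq
    have h1 : FreeGroup.of ib ^ (-sg δ * M) * g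
        = v * (FreeGroup.of ib ^ (sg δ * M) * u1) := by
      rw [heq, neg_mul, zpow_neg]
      group
    have h2 := (sep_left ib g M hg (-sg δ) (by
      rcases hsg δ with h | h <;> rw [h] <;> simp)).2
    rw [h1] at h2
    exact hvb v hv hv1 _ (Sig_tail0 hbx H hH M w1 δ hred hl u1 hu1).2 h2
  cases w with
  | nil =>
    have hu1 : u = 1 := by simpa [Sig] using hu
    subst hu1
    rw [mul_one] at h
    cases w' with
    | nil =>
      have hu1' : u' = 1 := by simpa [Sig] using hu'
      rw [h, hu1']
      rw [← FreeGroup.one_eq_mk, mul_one]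
    | cons l' w1' =>
      by_cases hl' : l'.1 = ix
      · exfalso
        have hu2 := hu'
        simp only [Sig, if_pos hl'] at hu2
        obtain ⟨v', hv', hv1', u1', hu1', heq⟩ := hu2
        have hred : FreeGroup.IsReduced ((ix, l'.2) :: w1') := by
          have hll : l' = (ix, l'.2) := Prod.ext hl' rfl
          rw [← hll]; exact hw'
        simp only [List.length_cons, List.length_nil] at hlen
        exact himp q l'.2 w1' v' u1' (by omega) hred (by omega) hv' hv1' hu1' (h.trans heq)
      · have hu2 := hu'
        simp only [Sig, if_neg hl'] at hu2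
        obtain ⟨u1', hu1', heq⟩ := hu2
        have hlen' : ((FreeGroup.mk [l'])⁻¹ * q).toWord.length ≤ 1 + q.toWord.length := by
          refine (length_mul_le _ _).trans ?_
          rw [hleninv, hlen1]
        simp only [List.length_cons, List.length_nil] at hlen hN
        have key := IH (0 + w1'.length) (by omega) [] w1' (by simp) ((FreeGroup.mk [l'])⁻¹ * q)
          (by rw [deg_mul_left ix (by rw [deg_inv]; exact hdeg1 l' hl')]; exact hq)
          (by simp only [List.length_nil]; omega) FreeGroup.IsReduced.nil (htail _ _ hw') 1 u1'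
          (by simp [Sig]) hu1' (by rw [mul_one, h, heq]; group)
        rw [hcons l' w1', ← key]
        group
  | cons l w1 =>
    by_cases hl : l.1 = ix
    · have hu2 := hu
      simp only [Sig, if_pos hl] at hu2
      obtain ⟨v, hv, hv1, u1, hu1, heq⟩ := hu2
      have hll : l = (ix, l.2) := Prod.ext hl rfl
      have hred : FreeGroup.IsReduced ((ix, l.2) :: w1) := by
        rw [← hll]; exact hw
      cases w' with
      | nil =>
        exfalso
        have hu1' : u' = 1 := by simpa [Sig] using hu'
        simp only [List.length_cons, List.length_nil] at hlen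
        refine himp q⁻¹ l.2 w1 v u1 (by rw [hleninv]; omega) hred (by omega) hv hv1 hu1 ?_
        rw [← heq]
        exact (eq_inv_of_mul_eq_one_right (by rw [h, hu1'])).symm
      | cons l' w1' =>
        by_cases hl' : l'.1 = ix
        · have hu2' := hu'
          simp only [Sig, if_pos hl'] at hu2'
          obtain ⟨v', hv', hv1', u1', hu1', heq'⟩ := hu2'
          have hll' : l' = (ix, l'.2) := Prod.ext hl' rfl
          have hred' : FreeGroup.IsReduced ((ix, l'.2) :: w1') := by
            rw [← hll']; exact hw'
          simp only [List.length_cons] at hlen hN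
          have hb : hd (FreeGroup.of ib ^ (sg l.2 * M) * u1) = some ib :=
            (Sig_tail0 hbx H hH M w1 l.2 hred (by omega) u1 hu1).2
          have hb' : hd (FreeGroup.of ib ^ (sg l'.2 * M) * u1') = some ib :=
            (Sig_tail0 hbx H hH M w1' l'.2 hred' (by omega) u1' hu1').2
          by_cases hcase : l.2 = l'.2 ∧ q = 1
          · obtain ⟨hδ, hq1⟩ := hcase
            have h1 : v * (FreeGroup.of ib ^ (sg l.2 * M) * u1)
                = v' * (FreeGroup.of ib ^ (sg l.2 * M) * u1') := by
              have h0 := h
              rw [hq1, one_mul, heq, heq', ← hδ] at h0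
              have h3 := congrArg (fun y => (FreeGroup.of ib ^ (sg l.2 * M))⁻¹ * y) h0
              simp only [mul_assoc, inv_mul_cancel_left] at h3
              exact h3
            have hvv : v = v' := by
              by_contra hne
              have h4 : v'⁻¹ * v ≠ 1 := by
                intro h5
                exact hne (by rw [inv_mul_eq_one] at h5; exact h5.symm)
              have h6 : v'⁻¹ * v * (FreeGroup.of ib ^ (sg l.2 * M) * u1)
                  = FreeGroup.of ib ^ (sg l.2 * M) * u1' := by
                rw [mul_assoc, h1, inv_mul_cancel_left]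
              have h7 := hvb (v'⁻¹ * v) (H.mul_mem (H.inv_mem hv') hv) h4 _ hb
              rw [h6] at h7
              rw [hδ] at h7
              exact h7 hb'
            have huu : u1 = u1' := by
              rw [hvv] at h1
              have h3 := mul_left_cancel h1
              exact mul_left_cancel h3
            have key := IH (w1.length + w1'.length) (by omega) w1 w1' rfl 1 (deg_one ix)
              (by
                have : (1 : FreeGroup ι).toWord.length = 0 := by simp
                rw [this]; omega) (htail _ _ hw) (htail _ _ hw') u1 u1' hu1 hu1'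
              (by rw [one_mul, huu])
            rw [one_mul] at key
            rw [hq1, one_mul, hcons l w1, hcons l' w1', key, hll, hll', hδ]
          · exfalso
            have hsep := sep ib q M (by omega) (-sg l'.2) (sg l.2)
              (by rcases hsg l'.2 with h | h <;> rw [h] <;> simp) (hsg l.2)
              (by
                by_cases hq1 : q = 1
                · left
                  have hne : l.2 ≠ l'.2 := fun h0 => hcase ⟨h0, hq1⟩
                  exact hsgne _ _ hne
                · right; exact hq1)
            obtain ⟨hs1, hs2, hs3⟩ := hsep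
            have h1 : (FreeGroup.of ib ^ (-sg l'.2 * M) * q * FreeGroup.of ib ^ (sg l.2 * M)) *
                (v * (FreeGroup.of ib ^ (sg l.2 * M) * u1))
                = v' * (FreeGroup.of ib ^ (sg l'.2 * M) * u1') := by
              have h0 := h
              rw [heq, heq'] at h0
              have h3 := congrArg (fun y => (FreeGroup.of ib ^ (sg l'.2 * M))⁻¹ * y) h0
              simp only [mul_assoc, inv_mul_cancel_left] at h3
              rw [neg_mul, zpow_neg]
              simp only [mul_assoc]
              exact h3
            have h2 : hd ((FreeGroup.of ib ^ (-sg l'.2 * M) * q *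
                FreeGroup.of ib ^ (sg l.2 * M)) *
                (v * (FreeGroup.of ib ^ (sg l.2 * M) * u1))) = some ib := by
              rw [cat_hd _ _ hs1 ?_, hs2]
              intro i hi hc
              rw [hs3] at hi
              have hib : ib = i := by simpa using hi
              subst hib
              exact hvb v hv hv1 _ hb hc
            rw [h1] at h2
            exact hvb v' hv' hv1' _ hb' h2
        · have hu2' := hu'
          simp only [Sig, if_neg hl'] at hu2'
          obtain ⟨u1', hu1', heq'⟩ := hu2'
          have hlen' : ((FreeGroup.mk [l'])⁻¹ * q).toWord.length ≤ 1 + q.toWord.length := by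
            refine (length_mul_le _ _).trans ?_
            rw [hleninv, hlen1]
          simp only [List.length_cons] at hlen hN
          have key := IH ((l :: w1).length + w1'.length)
            (by simp only [List.length_cons]; omega) (l :: w1) w1' rfl ((FreeGroup.mk [l'])⁻¹ * q)
            (by rw [deg_mul_left ix (by rw [deg_inv]; exact hdeg1 l' hl')]; exact hq)
            (by simp only [List.length_cons]; omega) hw (htail _ _ hw') u u1'
            hu hu1' (by rw [mul_assoc, h, heq']; group)
          rw [hcons l' w1', ← key]
          group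
    · have hu2 := hu
      simp only [Sig, if_neg hl] at hu2
      obtain ⟨u1, hu1, heq⟩ := hu2
      have hlen' : (q * FreeGroup.mk [l]).toWord.length ≤ q.toWord.length + 1 := by
        refine (length_mul_le _ _).trans ?_
        rw [hlen1]
      simp only [List.length_cons] at hlen hN
      have key := IH (w1.length + w'.length) (by omega) w1 w' rfl (q * FreeGroup.mk [l])
        (by rw [deg_mul_left ix hq]; exact hdeg1 l hl)
        (by omega) (htail _ _ hw) hw' u1 u' hu1 hu' (by rw [mul_assoc, ← heq, h])
      rw [hcons l w1, ← key, mul_assoc]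

theorem Sig_disj (M : ℕ) (w w' : List (ι × Bool)) (hlen : w.length + w'.length < M)
    (hw : FreeGroup.IsReduced w) (hw' : FreeGroup.IsReduced w') (g : FreeGroup ι)
    (hg : g ∈ Sig ib ix H M w) (hg' : g ∈ Sig ib ix H M w') : w = w' := by
  have h := Sig_disj_aux hbx H hH M (w.length + w'.length) w w' rfl 1 (deg_one ix)
    (by
      have : (1 : FreeGroup ι).toWord.length = 0 := by simp
      rw [this]; omega) hw hw' g g hg hg' (one_mul g)
  rw [one_mul] at h
  have h2 := congrArg FreeGroup.toWord h
  rw [FreeGroup.toWord_mk, FreeGroup.toWord_mk, hw.reduce_eq, hw'.reduce_eq] at h2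
  exact h2

end Crest.Agent.R134
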