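import Crest.Agent.R134.Defs

/-!
# Row 134, part (B): definitions

`sg e = ±1`.  `Sig ib ix H M w`: the set of values of the word `w` under the substitution
`x^{±1} → b^{±M} v b^{±M}`, `v ∈ H \ {1}` (independent choices for each letter).
`Yl`, `Yw`: the operator of a letter / a word: `x → λ(b^M) X λ(b^M)`, other letters `u → λ(u)`.
-/

set_option autoImplicit false
open Crest.OpAlg

namespace Crest.Agent.R134

variable {ι : Type} [DecidableEq ι]

def sg (e : Bool) : ℤ := if e then 1 else -1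

def Sig (ib ix : ι) (H : Subgroup (FreeGroup ι)) (M : ℕ) : List (ι × Bool) → Set (FreeGroup ι)
  | [] => {1}
  | l :: w =>
    if l.1 = ix then
      {g | ∃ v ∈ H, v ≠ 1 ∧ ∃ u ∈ Sig ib ix H M w,
        g = FreeGroup.of ib ^ (sg l.2 * M) * v * FreeGroup.of ib ^ (sg l.2 * M) * u}
    else {g | ∃ u ∈ Sig ib ix H M w, g = FreeGroup.mk [l] * u}

/-- the operator of the letter `x` -/
noncomputable def Yx (ib : ι) (M : ℕ) (X : ltwo (FreeGroup ι) →L[ℂ] ltwo (FreeGroup ι)) :
    ltwo (FreeGroup ι) →L[ℂ] ltwo (FreeGroup ι) :=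
  leftRegular (FreeGroup.of ib ^ M) ∘L X ∘L leftRegular (FreeGroup.of ib ^ M)

/-- the operator of a letter -/
noncomputable def Yl (ib ix : ι) (M : ℕ) (X : ltwo (FreeGroup ι) →L[ℂ] ltwo (FreeGroup ι))
    (l : ι × Bool) : ltwo (FreeGroup ι) →L[ℂ] ltwo (FreeGroup ι) :=
  if l.1 = ix then (if l.2 then Yx ib M X else star (Yx ib M X))
  else leftRegular (FreeGroup.mk [l])

/-- the operator of a word -/
noncomputable def Yw (ib ix : ι) (M : ℕ) (X : ltwo (FreeGroup ι) →L[ℂ] ltwo (FreeGroup ι)) :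
    List (ι × Bool) → (ltwo (FreeGroup ι) →L[ℂ] ltwo (FreeGroup ι))
  | [] => ContinuousLinearMap.id ℂ _
  | l :: w => Yl ib ix M X l ∘L Yw ib ix M X w

end Crest.Agent.R134
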