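import Crest.Agent.R134.YOp
import Crest.Agent.R134.YApprox

/-!
# Row 134, part (B): output

`V := R⁻¹ ∘ V0` (`V.symm = V0.symm ∘ R`), `R` the unitary of `θ : x ↦ b^M x b^M`.
Choose for each `ξ ∈ Ξ` a finitely supported `p` with `‖ξ - vec p‖` small, `ℓ` ≥ all word lengths in the
supports, `M = 2ℓ + 1`; then `V.symm (vec p) = ∑_g p_g V0.symm δ_{θ g} ≈ ∑_g p_g Yw (toWord g) δ_1` with error
`≤ n1 p * ℓ (2M+1) δ0`, and `Yw_gen_sum`, `gen_lip`.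
-/

set_option autoImplicit false
open Crest.OpAlg
open scoped InnerProductSpace

namespace Crest.Agent.R134

variable {ι : Type} [DecidableEq ι] {ib ix : ι}

theorem stepB_one (hbx : ib ≠ ix) (H : Subgroup (FreeGroup ι))
    (hH : ∀ h ∈ H, h ≠ 1 → hd h ≠ some ib) (t : ℝ) (h0 : 0 ≤ t) (h1 : t ≤ 1)
    (K e : ℝ) (he0 : 0 ≤ e) (he1 : e ≤ 1)
    (ξ : ltwo (FreeGroup ι)) (hK : ‖ξ‖ + 1 ≤ K) (p : MonoidAlgebra ℂ (FreeGroup ι))
    (hp : ‖ξ - vec p‖ ≤ e) (ℓ : ℕ) (hℓ : ∀ g ∈ p.coeff.support, g.toWord.length ≤ ℓ) (η : ℝ)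
    (hη0 : 0 ≤ η) (V0 : ltwo (FreeGroup ι) ≃ₗᵢ[ℂ] ltwo (FreeGroup ι)) (hV0 : Good V0)
    (hfix : ∀ i, i ≠ ib → i ≠ ix → V0 (dl (FreeGroup.of i)) = dl (FreeGroup.of i))
    (hb : ‖V0 (dl (FreeGroup.of ib)) - dl (FreeGroup.of ib)‖ ≤ η)
    (hsup : ∀ h, V0.symm (dl (FreeGroup.of ix)) h ≠ 0 → h ∈ H)
    (θ : FreeGroup ι ≃* FreeGroup ι) (hθ : ∀ i, i ≠ ix → θ (FreeGroup.of i) = FreeGroup.of i)
    (hθx : θ (FreeGroup.of ix)
      = FreeGroup.of ib ^ (2 * ℓ + 1) * FreeGroup.of ix * FreeGroup.of ib ^ (2 * ℓ + 1))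
    (V : ltwo (FreeGroup ι) ≃ₗᵢ[ℂ] ltwo (FreeGroup ι))
    (hV : ∀ g, V.symm (dl g) = V0.symm (dl (θ g)))
    (D : ℝ) (hD1 : D ≤ 1)
    (hD : n1 p * (ℓ * ((2 * ((2 * ℓ + 1 : ℕ) : ℝ) + 1) * η)) ≤ D) :
    gen ix ξ (gen ix (V0.symm (dl (FreeGroup.of ix))) t) - (4 * K * e + (2 * K + 1) * D)
      ≤ gen ix (V.symm ξ) t := by
  set X := cj V0.symm (leftRegular (FreeGroup.of ix)) with hXdef
  have hX : X ∈ groupVNA (FreeGroup ι) := hV0.symm.mem _ (leftRegular_mem _)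
  have hX1 : X (dl 1) = V0.symm (dl (FreeGroup.of ix)) := by
    rw [hXdef, hV0.symm.cj_one, leftRegular_dl, mul_one]
  have hs : ∀ h, X (dl 1) h ≠ 0 → h ∈ H ∧ h ≠ 1 := by
    intro h hh
    rw [hX1] at hh
    refine ⟨hsup h hh, ?_⟩
    rintro rfl
    apply hh
    rw [← inner_dl, ← hV0.one, ← LinearIsometryEquiv.inner_map_map V0.symm.symm]
    simp only [LinearIsometryEquiv.symm_symm, LinearIsometryEquiv.apply_symm_apply]
    rw [hV0.one, hV0.one, inner_dl, dl_apply, if_neg]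
    intro hcon
    exact FreeGroup.of_ne_one ix hcon.symm
  set Y : ltwo (FreeGroup ι) :=
    ∑ g ∈ p.coeff.support, p.coeff g • Yw ib ix (2 * ℓ + 1) X g.toWord (dl 1) with hY
  have hgen : gen ix Y t = gen ix (vec p) (gen ix (X (dl 1)) t) :=
    Yw_gen_sum hbx H hH (2 * ℓ + 1) ℓ (by omega) hX hs p hℓ t h0 h1
  rw [hX1] at hgen
  set φ := gen ix (V0.symm (dl (FreeGroup.of ix))) t with hφ
  have hφ0 : 0 ≤ φ := gen_nonneg ix _ t h0
  have hφ1 : φ ≤ 1 := by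
    refine (gen_le ix _ t h0 h1).trans ?_
    rw [LinearIsometryEquiv.norm_map, norm_dl]; norm_num
  -- the error
  have herr : ‖V.symm (vec p) - Y‖ ≤ D := by
    have e1 : V.symm (vec p) - Y = ∑ g ∈ p.coeff.support,
        p.coeff g • (V0.symm (dl (θ g)) - Yw ib ix (2 * ℓ + 1) X g.toWord (dl 1)) := by
      rw [hY, vec, Finsupp.sum, map_sum, ← Finset.sum_sub_distrib]
      refine Finset.sum_congr rfl fun g _ => ?_
      rw [map_smul, hV, smul_sub]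
    rw [e1]
    refine (norm_sum_le _ _).trans (le_trans ?_ hD)
    have e2 : n1 p * (ℓ * ((2 * ((2 * ℓ + 1 : ℕ) : ℝ) + 1) * η)) = ∑ g ∈ p.coeff.support,
        ‖p.coeff g‖ * (ℓ * ((2 * ((2 * ℓ + 1 : ℕ) : ℝ) + 1) * η)) := by
      rw [n1, Finsupp.sum, Finset.sum_mul]
    rw [e2]
    refine Finset.sum_le_sum fun g hg => ?_
    rw [norm_smul]
    refine mul_le_mul_of_nonneg_left ?_ (norm_nonneg _)
    have h2 := Yw_approx hbx hV0 hfix η hb (2 * ℓ + 1) θ hθ hθx g.toWord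
    rw [FreeGroup.mk_toWord] at h2
    refine h2.trans ?_
    refine mul_le_mul_of_nonneg_right ?_ (by positivity)
    exact_mod_cast hℓ g hg
  -- norms
  have hv : ‖vec p‖ ≤ K := by
    have : ‖vec p‖ ≤ ‖ξ‖ + ‖ξ - vec p‖ := by
      have h2 := norm_sub_norm_le (vec p) ξ
      rw [norm_sub_rev] at h2
      linarith
    linarith
  have hY1 : ‖Y‖ ≤ K + 1 := by
    have h2 := norm_sub_norm_le Y (V.symm (vec p))
    rw [norm_sub_rev, LinearIsometryEquiv.norm_map] at h2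
    linarith
  have hξ : ‖ξ‖ ≤ K := by linarith
  have hK0 : 0 ≤ K := (norm_nonneg ξ).trans hξ
  have hD0 : 0 ≤ D := (norm_nonneg _).trans herr
  -- three comparisons
  have c1 : gen ix ξ φ - gen ix (vec p) φ ≤ 2 * K * e := by
    refine (le_abs_self _).trans ((gen_lip ix ξ (vec p) φ hφ0 hφ1).trans ?_)
    calc (‖ξ‖ + ‖vec p‖) * ‖ξ - vec p‖ ≤ (K + K) * e := by
          apply mul_le_mul (by linarith) hp (norm_nonneg _) (by linarith)
      _ = 2 * K * e := by ring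
  have c2 : gen ix Y t - gen ix (V.symm (vec p)) t ≤ (2 * K + 1) * D := by
    refine (le_abs_self _).trans ((gen_lip ix Y (V.symm (vec p)) t h0 h1).trans ?_)
    rw [LinearIsometryEquiv.norm_map, norm_sub_rev]
    calc (‖Y‖ + ‖vec p‖) * ‖V.symm (vec p) - Y‖ ≤ ((K + 1) + K) * D := by
          apply mul_le_mul (by linarith) herr (norm_nonneg _) (by linarith)
      _ = (2 * K + 1) * D := by ring
  have c3 : gen ix (V.symm (vec p)) t - gen ix (V.symm ξ) t ≤ 2 * K * e := by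
    refine (le_abs_self _).trans ((gen_lip ix (V.symm (vec p)) (V.symm ξ) t h0 h1).trans ?_)
    rw [LinearIsometryEquiv.norm_map, LinearIsometryEquiv.norm_map, ← map_sub,
      LinearIsometryEquiv.norm_map, norm_sub_rev]
    calc (‖vec p‖ + ‖ξ‖) * ‖ξ - vec p‖ ≤ (K + K) * e := by
          apply mul_le_mul (by linarith) hp (norm_nonneg _) (by linarith)
      _ = 2 * K * e := by ring
  linarith

theorem stepB (hbx : ib ≠ ix) (H : Subgroup (FreeGroup ι))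
    (hH : ∀ h ∈ H, h ≠ 1 → hd h ≠ some ib)
    (Ξ : Finset (ltwo (FreeGroup ι))) (t : ℝ) (h0 : 0 ≤ t) (h1 : t ≤ 1) (ε : ℝ) (hε : 0 < ε) :
    ∃ δ0 : ℝ, 0 < δ0 ∧ ∀ V0 : ltwo (FreeGroup ι) ≃ₗᵢ[ℂ] ltwo (FreeGroup ι), Good V0 →
      (∀ i, i ≠ ib → i ≠ ix → V0 (dl (FreeGroup.of i)) = dl (FreeGroup.of i)) →
      ‖V0 (dl (FreeGroup.of ib)) - dl (FreeGroup.of ib)‖ ≤ δ0 →
      (∀ h, V0.symm (dl (FreeGroup.of ix)) h ≠ 0 → h ∈ H) →
      ∃ V : ltwo (FreeGroup ι) ≃ₗᵢ[ℂ] ltwo (FreeGroup ι), Good V ∧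
        (∀ i, i ≠ ib → i ≠ ix → V (dl (FreeGroup.of i)) = dl (FreeGroup.of i)) ∧
        ‖V (dl (FreeGroup.of ib)) - dl (FreeGroup.of ib)‖
          ≤ ‖V0 (dl (FreeGroup.of ib)) - dl (FreeGroup.of ib)‖ ∧
        ∀ ξ ∈ Ξ, gen ix ξ (gen ix (V0.symm (dl (FreeGroup.of ix))) t) - ε
          ≤ gen ix (V.symm ξ) t := by
  classical
  set K : ℝ := 1 + ∑ ξ ∈ Ξ, ‖ξ‖ with hK
  have hKξ : ∀ ξ ∈ Ξ, ‖ξ‖ + 1 ≤ K := by
    intro ξ hξ
    have := Finset.single_le_sum (f := fun ξ : ltwo (FreeGroup ι) => ‖ξ‖)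
      (fun ξ _ => norm_nonneg ξ) hξ
    linarith
  have hK1 : 1 ≤ K := by
    have : 0 ≤ ∑ ξ ∈ Ξ, ‖ξ‖ := Finset.sum_nonneg fun ξ _ => norm_nonneg ξ
    linarith
  set e : ℝ := min 1 (ε / (8 * K)) with he
  have he0 : 0 < e := lt_min one_pos (by positivity)
  have he1 : e ≤ 1 := min_le_left _ _
  have heK : 4 * K * e ≤ ε / 2 := by
    have h2 : e ≤ ε / (8 * K) := min_le_right _ _
    have h3 : 4 * K * e ≤ 4 * K * (ε / (8 * K)) := mul_le_mul_of_nonneg_left h2 (by linarith)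
    have h4 : 4 * K * (ε / (8 * K)) = ε / 2 := by field_simp; ring
    linarith
  choose p hp using fun ξ : ltwo (FreeGroup ι) => exists_vec ξ e he0
  set ℓ : ℕ := Ξ.sup fun ξ => (p ξ).coeff.support.sup fun g => g.toWord.length with hℓ
  have hℓ' : ∀ ξ ∈ Ξ, ∀ g ∈ (p ξ).coeff.support, g.toWord.length ≤ ℓ := by
    intro ξ hξ g hg
    have h2 : g.toWord.length ≤ (p ξ).coeff.support.sup fun g => g.toWord.length :=
      Finset.le_sup (f := fun g : FreeGroup ι => g.toWord.length) hg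
    exact h2.trans (Finset.le_sup
      (f := fun ξ => (p ξ).coeff.support.sup fun g => g.toWord.length) hξ)
  have hn1 : ∀ q : MonoidAlgebra ℂ (FreeGroup ι), 0 ≤ n1 q := fun q => by
    rw [n1, Finsupp.sum]; exact Finset.sum_nonneg fun g _ => norm_nonneg _
  set N : ℝ := ∑ ξ ∈ Ξ, n1 (p ξ) with hN
  have hNξ : ∀ ξ ∈ Ξ, n1 (p ξ) ≤ N := fun ξ hξ =>
    Finset.single_le_sum (f := fun ξ => n1 (p ξ)) (fun ξ _ => hn1 _) hξ
  have hN0 : 0 ≤ N := Finset.sum_nonneg fun ξ _ => hn1 _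
  set D : ℝ := min 1 (ε / (2 * (2 * K + 1))) with hDdef
  have hD0 : 0 < D := lt_min one_pos (by positivity)
  have hD1 : D ≤ 1 := min_le_left _ _
  have hDK : (2 * K + 1) * D ≤ ε / 2 := by
    have h2 : D ≤ ε / (2 * (2 * K + 1)) := min_le_right _ _
    have h3 : (2 * K + 1) * D ≤ (2 * K + 1) * (ε / (2 * (2 * K + 1))) :=
      mul_le_mul_of_nonneg_left h2 (by linarith)
    have h4 : (2 * K + 1) * (ε / (2 * (2 * K + 1))) = ε / 2 := by field_simp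
    linarith
  set C : ℝ := N * (ℓ * (2 * ((2 * ℓ + 1 : ℕ) : ℝ) + 1)) + 1 with hC
  have hC0 : 0 < C := by positivity
  refine ⟨D / C, by positivity, ?_⟩
  intro V0 hV0 hfix hb hsup
  obtain ⟨θ, hθ, hθx⟩ := exists_theta (ib := ib) (ix := ix) hbx (2 * ℓ + 1)
  obtain ⟨R, hR, hR1, hR2⟩ := exists_aut θ
  have hθs : ∀ i, i ≠ ix → θ.symm (FreeGroup.of i) = FreeGroup.of i := by
    intro i hi
    rw [MulEquiv.symm_apply_eq]
    exact (hθ i hi).symm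
  refine ⟨V0.trans R.symm, hV0.trans hR.symm, ?_, ?_, ?_⟩
  · intro i hi hi'
    rw [LinearIsometryEquiv.trans_apply, hfix i hi hi', hR2, hθs i hi']
  · have h2 : R.symm (dl (FreeGroup.of ib)) = dl (FreeGroup.of ib) := by
      rw [hR2, hθs ib hbx]
    rw [LinearIsometryEquiv.trans_apply]
    nth_rewrite 2 [← h2]
    rw [← map_sub, LinearIsometryEquiv.norm_map]
  · intro ξ hξ
    have hmain := stepB_one hbx H hH t h0 h1 K e he0.le he1 ξ (hKξ ξ hξ) (p ξ) (hp ξ) ℓ (hℓ' ξ hξ)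
      (D / C) (by positivity) V0 hV0 hfix hb hsup θ hθ hθx (V0.trans R.symm)
      (fun g => by
        show V0.symm (R (dl g)) = _
        rw [hR1]) D hD1 ?_
    · linarith
    · have h2 : n1 (p ξ) * (ℓ * ((2 * ((2 * ℓ + 1 : ℕ) : ℝ) + 1) * (D / C)))
          ≤ N * (ℓ * ((2 * ((2 * ℓ + 1 : ℕ) : ℝ) + 1) * (D / C))) :=
        mul_le_mul_of_nonneg_right (hNξ ξ hξ) (by positivity)
      refine h2.trans ?_
      have h3 : N * (ℓ * ((2 * ((2 * ℓ + 1 : ℕ) : ℝ) + 1) * (D / C))) = (C - 1) * (D / C) := by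
        rw [hC]; ring
      rw [h3, mul_div_assoc', div_le_iff₀ hC0]
      nlinarith

end Crest.Agent.R134
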