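import Crest.Agent.R134.FlowA
import Crest.Agent.R134.StepB
import Crest.Agent.R134.Phi

/-!
# Row 134: one absorption step, and the iteration
-/

set_option autoImplicit false
set_option linter.unusedSectionVars false
open Crest.OpAlg
open scoped InnerProductSpace

namespace Crest.Agent.R134

variable {ι : Type} [DecidableEq ι] {ia ib ix : ι}

theorem step [Fintype ι] (hab : ia ≠ ib) (hax : ia ≠ ix) (hbx : ib ≠ ix)
    (Ξ : Finset (ltwo (FreeGroup ι))) (t : ℝ) (h0 : 0 ≤ t) (h1 : t < 1) (δ : ℝ) (hδ : 0 < δ) :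
    ∃ V : ltwo (FreeGroup ι) ≃ₗᵢ[ℂ] ltwo (FreeGroup ι), Good V ∧
      (∀ i, i ≠ ib → i ≠ ix → V (dl (FreeGroup.of i)) = dl (FreeGroup.of i)) ∧
      ‖V (dl (FreeGroup.of ib)) - dl (FreeGroup.of ib)‖ ≤ δ ∧
      ∀ ξ ∈ Ξ, gen ix ξ (psi t) - δ ≤ gen ix (V.symm ξ) t := by
  obtain ⟨δ0, hδ0, hB⟩ := stepB (ib := ib) (ix := ix) hbx (HH ia ib ix)
    (fun h hh _ => HH_hd hab hax hbx h hh) Ξ t h0 h1.le δ hδ
  have hs : 0 < (1 - t) ^ 2 / 48 := by
    have : 0 < 1 - t := by linarith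
    positivity
  have hs1 : (1 - t) ^ 2 / 48 ≤ 1 := by nlinarith
  obtain ⟨V0, p, r, hg, hp, hr, hfix, hb, hx, hsupp⟩ :=
    flowA hab hax hbx ((1 - t) ^ 2 / 48) hs hs1 (min δ0 δ) (lt_min hδ0 hδ)
  obtain ⟨V, hV, hVfix, hVb, hVgen⟩ := hB V0 hg hfix (hb.trans (min_le_left _ _)) hsupp
  refine ⟨V, hV, hVfix, hVb.trans (hb.trans (min_le_right _ _)), fun ξ hξ => ?_⟩
  have hn : ‖V0.symm (dl (FreeGroup.of ix))‖ = 1 := by
    rw [LinearIsometryEquiv.norm_map, norm_dl]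
  have hpsi : psi t ≤ gen ix (V0.symm (dl (FreeGroup.of ix))) t :=
    psi_le ix _ p r hp hr t h0 h1.le hn _ rfl hx
  have hle : gen ix (V0.symm (dl (FreeGroup.of ix))) t ≤ 1 := by
    have := gen_le ix (V0.symm (dl (FreeGroup.of ix))) t h0 h1.le
    rw [hn] at this
    simpa using this
  have hpsi0 : 0 ≤ psi t := by
    unfold psi
    have : 0 ≤ (1 - t) ^ 6 / 18432 := by positivity
    linarith
  have hmono := gen_mono ix ξ _ _ hpsi0 hpsi hle
  linarith [hVgen ξ hξ]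

end Crest.Agent.R134
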