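import Crest.Agent.R134.FlowA
import Crest.Agent.R134.StepB
import Crest.Agent.R134.Phi
import Crest.Agent.R134.StepA

/-!
# Row 134: one absorption step, and the iteration
-/

set_option autoImplicit false
set_option linter.unusedSectionVars false
open Crest.OpAlg
open scoped InnerProductSpace

namespace Crest.Agent.R134

variable {ι : Type} [DecidableEq ι] {ia ib ix : ι}

theorem psi_mem (m : ℕ) : 0 ≤ psi^[m] 0 ∧ psi^[m] 0 < 1 := by
  induction m with
  | zero => simp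
  | succ m ih =>
    rw [Function.iterate_succ_apply']
    obtain ⟨h0, h1⟩ := ih
    set u := psi^[m] 0
    unfold psi
    have h2 : 0 ≤ (1 - u) ^ 6 := by positivity
    refine ⟨by positivity, ?_⟩
    have h3 : 0 < 1 - u := by linarith
    have h4 : (1 - u) ^ 5 ≤ 1 := pow_le_one₀ h3.le (by linarith)
    have h5 : (1 - u) ^ 6 ≤ 1 - u := by
      have : (1 - u) ^ 6 = (1 - u) ^ 5 * (1 - u) := by ring
      rw [this]
      nlinarith
    linarith

/-- the iterates of `psi` starting at 0 increase to 1 -/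
theorem psi_iter (t : ℝ) (ht : t < 1) : ∃ m : ℕ, t ≤ psi^[m] 0 := by
  by_contra hcon
  push Not at hcon
  have hc : 0 < (1 - t) ^ 6 / 18432 := by
    have : 0 < 1 - t := by linarith
    positivity
  have key : ∀ m : ℕ, (m : ℝ) * ((1 - t) ^ 6 / 18432) ≤ psi^[m] 0 := by
    intro m
    induction m with
    | zero => simp
    | succ m ih =>
      rw [Function.iterate_succ_apply']
      have h1 := hcon m
      have h2 : (1 - t) ^ 6 ≤ (1 - psi^[m] 0) ^ 6 :=
        pow_le_pow_left₀ (by linarith) (by linarith) 6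
      push_cast
      unfold psi at ih h2 ⊢
      linarith
  obtain ⟨m, hm⟩ := exists_nat_gt (1 / ((1 - t) ^ 6 / 18432))
  have h3 := key m
  have h4 := (psi_mem m).2
  rw [div_lt_iff₀ hc] at hm
  linarith

theorem iter [Fintype ι] (hab : ia ≠ ib) (hax : ia ≠ ix) (hbx : ib ≠ ix) (m : ℕ) :
    ∀ (Ξ : Finset (ltwo (FreeGroup ι))) (δ : ℝ), 0 < δ →
    ∃ V : ltwo (FreeGroup ι) ≃ₗᵢ[ℂ] ltwo (FreeGroup ι), Good V ∧
      (∀ i, i ≠ ib → i ≠ ix → V (dl (FreeGroup.of i)) = dl (FreeGroup.of i)) ∧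
      ‖V (dl (FreeGroup.of ib)) - dl (FreeGroup.of ib)‖ ≤ δ ∧
      ∀ ξ ∈ Ξ, gen ix ξ (psi^[m] 0) - δ ≤ gen ix (V.symm ξ) 0 := by
  classical
  induction m with
  | zero =>
    intro Ξ δ hδ
    refine ⟨LinearIsometryEquiv.refl ℂ _, Good.refl, fun i _ _ => rfl, ?_, ?_⟩
    · simp [hδ.le]
    · intro ξ _
      have : (LinearIsometryEquiv.refl ℂ (ltwo (FreeGroup ι))).symm ξ = ξ := rfl
      rw [this]
      simp only [Function.iterate_zero, id_eq]
      linarith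
  | succ m ih =>
    intro Ξ δ hδ
    obtain ⟨W1, hW1, hf1, hb1, hg1⟩ := step hab hax hbx Ξ (psi^[m] 0) (psi_mem m).1
      (psi_mem m).2 (δ / 2) (by linarith)
    obtain ⟨W2, hW2, hf2, hb2, hg2⟩ := ih (Ξ.image fun ξ => W1.symm ξ) (δ / 2) (by linarith)
    refine ⟨W2.trans W1, hW2.trans hW1, ?_, ?_, ?_⟩
    · intro i h1 h2
      rw [LinearIsometryEquiv.trans_apply, hf2 i h1 h2, hf1 i h1 h2]
    · rw [LinearIsometryEquiv.trans_apply]
      have e : W1 (W2 (dl (FreeGroup.of ib))) - dl (FreeGroup.of ib)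
          = W1 (W2 (dl (FreeGroup.of ib)) - dl (FreeGroup.of ib))
            + (W1 (dl (FreeGroup.of ib)) - dl (FreeGroup.of ib)) := by
        rw [map_sub]; abel
      rw [e]
      refine (norm_add_le _ _).trans ?_
      rw [LinearIsometryEquiv.norm_map]
      linarith
    · intro ξ hξ
      have h1 := hg1 ξ hξ
      have h2 := hg2 (W1.symm ξ) (Finset.mem_image_of_mem _ hξ)
      rw [Function.iterate_succ_apply']
      have e : (W2.trans W1).symm ξ = W2.symm (W1.symm ξ) := rfl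
      rw [e]
      linarith

/-- ABSORPTION -/
theorem absorb [Fintype ι] (hab : ia ≠ ib) (hax : ia ≠ ix) (hbx : ib ≠ ix)
    (Ξ : Finset (ltwo (FreeGroup ι))) (δ : ℝ) (hδ : 0 < δ) :
    ∃ V : ltwo (FreeGroup ι) ≃ₗᵢ[ℂ] ltwo (FreeGroup ι), Good V ∧
      (∀ i, i ≠ ib → i ≠ ix → V (dl (FreeGroup.of i)) = dl (FreeGroup.of i)) ∧
      ‖V (dl (FreeGroup.of ib)) - dl (FreeGroup.of ib)‖ ≤ δ ∧
      ∀ ξ ∈ Ξ, ‖ξ‖ ^ 2 - δ ≤ gen ix (V.symm ξ) 0 := by
  classical
  have h1 : ∃ t0 : ℝ, t0 < 1 ∧ ∀ ξ ∈ Ξ, ∀ t, t0 ≤ t → 0 ≤ t → t ≤ 1 →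
      ‖ξ‖ ^ 2 - δ / 2 ≤ gen ix ξ t := by
    induction Ξ using Finset.induction_on with
    | empty => exact ⟨0, by norm_num, by simp⟩
    | insert a s _ ih =>
      obtain ⟨t1, h1, h2⟩ := ih
      obtain ⟨t2, h3, h4⟩ := gen_tendsto_one ix a (δ / 2) (by linarith)
      refine ⟨max t1 t2, max_lt h1 h3, ?_⟩
      intro ξ hξ t ht h0 ht1
      rcases Finset.mem_insert.1 hξ with rfl | h
      · exact h4 t ((le_max_right _ _).trans ht) h0 ht1
      · exact h2 ξ h t ((le_max_left _ _).trans ht) h0 ht1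
  obtain ⟨t0, ht0, ht⟩ := h1
  obtain ⟨m, hm⟩ := psi_iter t0 ht0
  obtain ⟨V, hV, hf, hb, hg⟩ := iter (ix := ix) hab hax hbx m Ξ (δ / 2) (by linarith)
  refine ⟨V, hV, hf, by linarith, ?_⟩
  intro ξ hξ
  have h2 := ht ξ hξ (psi^[m] 0) hm (psi_mem m).1 (psi_mem m).2.le
  have h3 := hg ξ hξ
  linarith

end Crest.Agent.R134
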