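import Crest.Agent.R134.Defs

/-!
# Row 134: word combinatorics in free groups

`hd g`, `lst g : Option ι` are the generators of the first and last letter of the reduced word
(`none` iff `g = 1`).
-/

set_option autoImplicit false
set_option linter.unusedSectionVars false

namespace Crest.Agent.R134

variable {ι : Type} [DecidableEq ι]

theorem hd_eq_none (g : FreeGroup ι) : hd g = none ↔ g = 1 := by
  unfold hd
  rw [Option.map_eq_none_iff, List.head?_eq_none_iff, FreeGroup.toWord_eq_nil_iff]

theorem lst_eq_none (g : FreeGroup ι) : lst g = none ↔ g = 1 := by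
  unfold lst
  rw [Option.map_eq_none_iff, List.getLast?_eq_none_iff, FreeGroup.toWord_eq_nil_iff]

theorem hd_inv (g : FreeGroup ι) : hd g⁻¹ = lst g := by
  unfold hd lst
  rw [FreeGroup.toWord_inv, FreeGroup.invRev, List.head?_reverse, List.getLast?_map,
    Option.map_map]
  rfl

theorem lst_inv (g : FreeGroup ι) : lst g⁻¹ = hd g := by
  rw [← hd_inv, inv_inv]

/-- CAT: no cancellation if the last generator of `g` differs from the first one of `h` -/
theorem cat_toWord (g h : FreeGroup ι) (H : ∀ i, lst g = some i → hd h ≠ some i) :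
    (g * h).toWord = g.toWord ++ h.toWord := by
  rw [FreeGroup.toWord_mul]
  apply FreeGroup.IsReduced.reduce_eq
  unfold FreeGroup.IsReduced
  rw [List.isChain_append]
  refine ⟨FreeGroup.isReduced_toWord, FreeGroup.isReduced_toWord, ?_⟩
  intro x hx y hy hxy
  exfalso
  have h1 : lst g = some x.1 := by
    unfold lst
    rw [Option.mem_def.mp hx]; rfl
  have h2 : hd h = some y.1 := by
    unfold hd
    rw [Option.mem_def.mp hy]; rfl
  exact H x.1 h1 (by rw [h2, hxy])

theorem cat_hd (g h : FreeGroup ι) (hg : g ≠ 1) (H : ∀ i, lst g = some i → hd h ≠ some i) :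
    hd (g * h) = hd g := by
  unfold hd
  rw [cat_toWord g h H]
  have : g.toWord ≠ [] := by rwa [Ne, FreeGroup.toWord_eq_nil_iff]
  rw [List.head?_append_of_ne_nil _ this]

theorem cat_lst (g h : FreeGroup ι) (hh : h ≠ 1) (H : ∀ i, lst g = some i → hd h ≠ some i) :
    lst (g * h) = lst h := by
  unfold lst
  rw [cat_toWord g h H]
  have : h.toWord ≠ [] := by rwa [Ne, FreeGroup.toWord_eq_nil_iff]
  rw [List.getLast?_append_of_ne_nil _ this]

theorem cat_ne_one (g h : FreeGroup ι) (hg : g ≠ 1) (H : ∀ i, lst g = some i → hd h ≠ some i) :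
    g * h ≠ 1 := by
  rw [Ne, ← FreeGroup.toWord_eq_nil_iff, cat_toWord g h H, List.append_eq_nil_iff,
    FreeGroup.toWord_eq_nil_iff]
  exact fun hc => hg hc.1

end Crest.Agent.R134
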