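import Crest.Agent.R134.Defs
import Crest.Agent.R134.WordA

/-!
# Row 134: word combinatorics in free groups

`hd g`, `lst g : Option ι` are the generators of the first and last letter of the reduced word
(`none` iff `g = 1`).
-/

set_option autoImplicit false
set_option linter.unusedSectionVars false

namespace Crest.Agent.R134

variable {ι : Type} [DecidableEq ι] (ix : ι)

theorem deg_one : deg ix (1 : FreeGroup ι) = 0 := by
  simp [deg]

theorem deg_inv (g : FreeGroup ι) : deg ix g⁻¹ = deg ix g := by
  unfold deg
  rw [FreeGroup.toWord_inv, FreeGroup.invRev, List.countP_reverse, List.countP_map]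
  rfl

theorem deg_of_self : deg ix (FreeGroup.of ix) = 1 := by
  simp [deg]

theorem deg_of_ne {i : ι} (h : i ≠ ix) : deg ix (FreeGroup.of i) = 0 := by
  simp [deg, h]

theorem deg_mul_le (g h : FreeGroup ι) : deg ix (g * h) ≤ deg ix g + deg ix h := by
  unfold deg
  rw [← List.countP_append]
  exact (FreeGroup.toWord_mul_sublist g h).countP_le

theorem cat_deg (g h : FreeGroup ι) (H : ∀ i, lst g = some i → hd h ≠ some i) :
    deg ix (g * h) = deg ix g + deg ix h := by
  unfold deg
  rw [cat_toWord g h H, List.countP_append]

/-- multiplying by an element of degree 0 does not change the degree -/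
theorem deg_mul_left {g : FreeGroup ι} (hg : deg ix g = 0) (h : FreeGroup ι) :
    deg ix (g * h) = deg ix h := by
  apply le_antisymm
  · have := deg_mul_le ix g h
    omega
  · have := deg_mul_le ix g⁻¹ (g * h)
    rw [inv_mul_cancel_left, deg_inv] at this
    omega

theorem deg_mul_right {g : FreeGroup ι} (hg : deg ix g = 0) (h : FreeGroup ι) :
    deg ix (h * g) = deg ix h := by
  apply le_antisymm
  · have := deg_mul_le ix h g
    omega
  · have := deg_mul_le ix (h * g) g⁻¹
    rw [mul_inv_cancel_right, deg_inv] at this
    omega

/-- elements of degree 0 form the subgroup generated by the letters other than `ix` -/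
theorem deg_eq_zero_iff {κ : Type} [DecidableEq κ] (j : κ → ι) (hj : Function.Injective j)
    (hr : ∀ i, i ∈ Set.range j ↔ i ≠ ix) (g : FreeGroup ι) :
    deg ix g = 0 ↔ ∃ f : FreeGroup κ, FreeGroup.map j f = g := by
  constructor
  · intro h
    unfold deg at h
    rw [List.countP_eq_zero] at h
    have key : ∀ L : List (ι × Bool), (∀ a ∈ L, ¬ (decide (a.1 = ix) = true)) →
        ∃ L' : List (κ × Bool), L'.map (fun x => (j x.1, x.2)) = L := by
      intro L
      induction L with
      | nil => intro _; exact ⟨[], rfl⟩
      | cons a L ih =>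
        intro hL
        obtain ⟨L', hL'⟩ := ih (fun b hb => hL b (List.mem_cons_of_mem _ hb))
        have ha := hL a List.mem_cons_self
        have ha' : a.1 ≠ ix := by simpa using ha
        obtain ⟨k, hk⟩ := (hr a.1).2 ha'
        refine ⟨(k, a.2) :: L', ?_⟩
        rw [List.map_cons, hL', hk]
    obtain ⟨L', hL'⟩ := key g.toWord h
    refine ⟨FreeGroup.mk L', ?_⟩
    rw [FreeGroup.map.mk, hL', FreeGroup.mk_toWord]
  · rintro ⟨f, rfl⟩
    induction f using FreeGroup.induction_on with
    | C1 => rw [map_one]; exact deg_one ix
    | of k =>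
      rw [FreeGroup.map.of]
      exact deg_of_ne ix ((hr (j k)).1 ⟨k, rfl⟩)
    | inv_of k ih => rw [map_inv, deg_inv]; exact ih
    | mul x y hx hy =>
      rw [map_mul]
      have := deg_mul_le ix (FreeGroup.map j x) (FreeGroup.map j y)
      omega

end Crest.Agent.R134
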