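import Crest.Agent.R134.Defs
import Crest.Agent.R134.WordB

/-!
# Row 134: word combinatorics in free groups

`hd g`, `lst g : Option ι` are the generators of the first and last letter of the reduced word
(`none` iff `g = 1`).
-/

set_option autoImplicit false
set_option linter.unusedSectionVars false

namespace Crest.Agent.R134

variable {ι : Type} [DecidableEq ι] (ix : ι)

/-- powers of a generator -/
theorem toWord_of_pow (i : ι) (k : ℕ) :
    (FreeGroup.of i ^ k).toWord = List.replicate k (i, true) :=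
  FreeGroup.toWord_of_pow i k

theorem hd_pow_aux (ib : ι) (n : ℕ) : FreeGroup.of ib ^ (n + 1) ≠ 1 ∧
    hd (FreeGroup.of ib ^ (n + 1)) = some ib ∧ lst (FreeGroup.of ib ^ (n + 1)) = some ib := by
  refine ⟨?_, ?_, ?_⟩
  · intro h
    have h1 := toWord_of_pow ib (n + 1)
    rw [h, FreeGroup.toWord_one] at h1
    simp at h1
  · unfold hd
    rw [toWord_of_pow, List.replicate_succ]
    rfl
  · unfold lst
    rw [toWord_of_pow, List.getLast?_replicate]
    simp

/-- `b^k ≠ 1`, and its first and last generators are `ib`, for `k ≠ 0` -/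
theorem hd_zpow (ib : ι) (k : ℤ) (hk : k ≠ 0) :
    FreeGroup.of ib ^ k ≠ 1 ∧ hd (FreeGroup.of ib ^ k) = some ib ∧
      lst (FreeGroup.of ib ^ k) = some ib := by
  rcases Int.lt_or_gt_of_ne hk with h | h
  · obtain ⟨n, rfl⟩ : ∃ n : ℕ, k = -((n + 1 : ℕ) : ℤ) := ⟨(-k).toNat - 1, by omega⟩
    rw [zpow_neg, zpow_natCast, hd_inv, lst_inv]
    obtain ⟨h1, h2, h3⟩ := hd_pow_aux ib n
    exact ⟨fun h => h1 (inv_eq_one.mp h), h3, h2⟩
  · obtain ⟨n, rfl⟩ : ∃ n : ℕ, k = ((n + 1 : ℕ) : ℤ) := ⟨k.toNat - 1, by omega⟩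
    rw [zpow_natCast]
    exact hd_pow_aux ib n

theorem deg_pow_aux {ib : ι} (h : ib ≠ ix) (n : ℕ) : deg ix (FreeGroup.of ib ^ n) = 0 := by
  unfold deg
  rw [toWord_of_pow, List.countP_eq_zero]
  intro a ha
  rw [List.eq_of_mem_replicate ha]
  simpa using h

theorem deg_zpow {ib : ι} (h : ib ≠ ix) (k : ℤ) : deg ix (FreeGroup.of ib ^ k) = 0 := by
  rcases Int.eq_nat_or_neg k with ⟨n, rfl | rfl⟩
  · rw [zpow_natCast]
    exact deg_pow_aux ix h n
  · rw [zpow_neg, zpow_natCast, deg_inv]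
    exact deg_pow_aux ix h n

/-- word length is subadditive -/
theorem length_mul_le (g h : FreeGroup ι) :
    (g * h).toWord.length ≤ g.toWord.length + h.toWord.length :=
  FreeGroup.norm_mul_le g h

end Crest.Agent.R134
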