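import Crest.Agent.R134.Defs
import Crest.Agent.R134.WordC

/-!
# Row 134: word combinatorics in free groups

`hd g`, `lst g : Option ι` are the generators of the first and last letter of the reduced word
(`none` iff `g = 1`).
-/

set_option autoImplicit false
set_option linter.unusedSectionVars false

namespace Crest.Agent.R134

variable {ι : Type} [DecidableEq ι]

namespace WordDAux

open FreeGroup

theorem mk_replicate_true (ib : ι) (n : ℕ) :
    FreeGroup.mk (List.replicate n (ib, true)) = FreeGroup.of ib ^ n := by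
  rw [← toWord_of_pow, mk_toWord]

theorem mk_replicate_false (ib : ι) (n : ℕ) :
    FreeGroup.mk (List.replicate n (ib, false)) = (FreeGroup.of ib ^ n)⁻¹ := by
  rw [← mk_replicate_true, FreeGroup.inv_mk]
  congr 1
  simp [FreeGroup.invRev]

theorem replicate_of_reduced (ib : ι) : ∀ (M : List (ι × Bool)), FreeGroup.IsReduced M →
    (∀ a ∈ M, a.1 = ib) → ∃ e : Bool, M = List.replicate M.length (ib, e)
  | [], _, _ => ⟨true, rfl⟩
  | [a], _, h => by
    refine ⟨a.2, ?_⟩
    have := h a (by simp)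
    simp [← this]
  | a :: b :: M, hr, h => by
    rw [FreeGroup.isReduced_cons_cons] at hr
    obtain ⟨e, he⟩ := replicate_of_reduced ib (b :: M) hr.2
      (fun c hc => h c (List.mem_cons_of_mem _ hc))
    have ha := h a (by simp)
    have hb := h b (by simp)
    have hb' : b = (ib, e) := by
      have : b ∈ List.replicate (b :: M).length (ib, e) := by
        rw [← he]; simp
      exact (List.mem_replicate.1 this).2
    have ha' : a = (ib, e) := by
      have := hr.1 (ha.trans hb.symm)
      apply Prod.ext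
      · exact ha
      · rw [this, hb']
    refine ⟨e, ?_⟩
    rw [List.length_cons, List.replicate_succ, ← he, ← ha']

theorem mk_eq_zpow (ib : ι) (M : List (ι × Bool)) (hM : FreeGroup.IsReduced M)
    (h : ∀ a ∈ M, a.1 = ib) : ∃ j : ℤ, FreeGroup.mk M = FreeGroup.of ib ^ j ∧
      j.natAbs = M.length := by
  obtain ⟨e, he⟩ := replicate_of_reduced ib M hM h
  cases e with
  | true =>
    refine ⟨M.length, ?_, by simp⟩
    rw [he, mk_replicate_true]
    simp
  | false =>
    refine ⟨-M.length, ?_, by simp⟩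
    rw [he, mk_replicate_false]
    simp

/-- strip the leading `b`s -/
theorem strip (ib : ι) (g : FreeGroup ι) : ∃ (j : ℤ) (q : FreeGroup ι),
    g = FreeGroup.of ib ^ j * q ∧ hd q ≠ some ib ∧
      g.toWord.length = j.natAbs + q.toWord.length := by
  set L := g.toWord with hL
  have hLr : FreeGroup.IsReduced L := FreeGroup.isReduced_toWord
  set L1 := L.takeWhile (fun a => decide (a.1 = ib)) with hL1
  set L2 := L.dropWhile (fun a => decide (a.1 = ib)) with hL2
  have h12 : L1 ++ L2 = L := List.takeWhile_append_dropWhile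
  have h1r : FreeGroup.IsReduced L1 := hLr.infix ⟨[], L2, by simpa using h12⟩
  have h2r : FreeGroup.IsReduced L2 := hLr.infix ⟨L1, [], by simpa using h12⟩
  have h1 : ∀ a ∈ L1, a.1 = ib := by
    intro a ha
    have := List.mem_takeWhile_imp ha
    simpa using this
  obtain ⟨j, hj, hjl⟩ := mk_eq_zpow ib L1 h1r h1
  refine ⟨j, FreeGroup.mk L2, ?_, ?_, ?_⟩
  · rw [← hj, FreeGroup.mul_mk, h12, hL, FreeGroup.mk_toWord]
  · unfold hd
    rw [FreeGroup.toWord_mk, h2r.reduce_eq]
    intro h
    rw [Option.map_eq_some_iff] at h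
    obtain ⟨a, ha, hai⟩ := h
    have := List.head?_dropWhile_not (fun a : ι × Bool => decide (a.1 = ib)) L
    rw [← hL2, ha] at this
    simp [hai] at this
  · rw [FreeGroup.toWord_mk, h2r.reduce_eq, hjl, ← h12, List.length_append]

theorem length_inv (g : FreeGroup ι) : (g⁻¹).toWord.length = g.toWord.length := by
  simp [FreeGroup.toWord_inv]

/-- strip the trailing `b`s -/
theorem strip_right (ib : ι) (g : FreeGroup ι) : ∃ (j : ℤ) (q : FreeGroup ι),
    g = q * FreeGroup.of ib ^ j ∧ lst q ≠ some ib ∧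
      g.toWord.length = j.natAbs + q.toWord.length := by
  obtain ⟨j, q, h, hh, hl⟩ := strip ib g⁻¹
  refine ⟨-j, q⁻¹, ?_, ?_, ?_⟩
  · rw [zpow_neg, ← mul_inv_rev, ← h, inv_inv]
  · rwa [lst_inv]
  · rw [length_inv] at hl
    rw [hl, length_inv, Int.natAbs_neg]

theorem hd_zpow' (ib : ι) (k : ℤ) (i : ι) (h : hd (FreeGroup.of ib ^ k) = some i) : i = ib := by
  by_cases hk : k = 0
  · subst hk
    simp [hd] at h
  · rw [(hd_zpow ib k hk).2.1] at h
    exact (Option.some.inj h).symm

theorem lst_zpow' (ib : ι) (k : ℤ) (i : ι) (h : lst (FreeGroup.of ib ^ k) = some i) : i = ib := by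
  by_cases hk : k = 0
  · subst hk
    simp [lst] at h
  · rw [(hd_zpow ib k hk).2.2] at h
    exact (Option.some.inj h).symm

/-- no cancellation in `q * b^k` -/
theorem H_right (ib : ι) (q : FreeGroup ι) (hq : lst q ≠ some ib) (k : ℤ) :
    ∀ i, lst q = some i → hd (FreeGroup.of ib ^ k) ≠ some i := by
  intro i hi h
  have := hd_zpow' ib k i h
  rw [this] at hi
  exact hq hi

theorem H_left (ib : ι) (q : FreeGroup ι) (hq : hd q ≠ some ib) (k : ℤ) :
    ∀ i, lst (FreeGroup.of ib ^ k) = some i → hd q ≠ some i := by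
  intro i hi h
  have := lst_zpow' ib k i hi
  rw [this] at h
  exact hq h

end WordDAux

open WordDAux in
/-- decomposition `p = b^j p' b^k`, `p'` with first and last generators different from `ib`
(or `p = b^j`) -/
theorem exists_core (ib : ι) (p : FreeGroup ι) :
    (∃ j : ℤ, p = FreeGroup.of ib ^ j ∧ j.natAbs ≤ p.toWord.length) ∨
    ∃ (j k : ℤ) (q : FreeGroup ι), p = FreeGroup.of ib ^ j * q * FreeGroup.of ib ^ k ∧ q ≠ 1 ∧
      hd q ≠ some ib ∧ lst q ≠ some ib ∧ j.natAbs ≤ p.toWord.length ∧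
      k.natAbs ≤ p.toWord.length := by
  obtain ⟨j, q1, h1, hh1, hl1⟩ := strip ib p
  by_cases hq1 : q1 = 1
  · left
    exact ⟨j, by rw [h1, hq1, mul_one], by rw [hl1]; exact Nat.le_add_right _ _⟩
  right
  obtain ⟨k, q, h2, hh2, hl2⟩ := strip_right ib q1
  have hq : q ≠ 1 := by
    intro hq
    rw [hq, one_mul] at h2
    have hk : k ≠ 0 := by
      intro hk
      rw [hk, zpow_zero] at h2
      exact hq1 h2
    apply hh1
    rw [h2]
    exact (hd_zpow ib k hk).2.1
  refine ⟨j, k, q, ?_, hq, ?_, hh2, ?_, ?_⟩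
  · rw [mul_assoc, ← h2, h1]
  · rw [← cat_hd q (FreeGroup.of ib ^ k) hq (H_right ib q hh2 k), ← h2]
    exact hh1
  · rw [hl1]; exact Nat.le_add_right _ _
  · rw [hl1, hl2]; omega

open WordDAux in
/-- SEPARATOR: `b^m p b^n` with `|m|, |n| > |p|` and (`m`, `n` of the same sign, or `|m| = |n|` and
`p ≠ 1`): it is `≠ 1` and begins and ends with `b^{±1}`. -/
theorem sep (ib : ι) (p : FreeGroup ι) (M : ℕ) (hM : p.toWord.length < M) (e e' : ℤ)
    (he : e = 1 ∨ e = -1) (he' : e' = 1 ∨ e' = -1) (h : e = e' ∨ p ≠ 1) :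
    FreeGroup.of ib ^ (e * M) * p * FreeGroup.of ib ^ (e' * M) ≠ 1 ∧
      hd (FreeGroup.of ib ^ (e * M) * p * FreeGroup.of ib ^ (e' * M)) = some ib ∧
      lst (FreeGroup.of ib ^ (e * M) * p * FreeGroup.of ib ^ (e' * M)) = some ib := by
  rcases exists_core ib p with ⟨j, hj, hjl⟩ | ⟨j, k, q, hp, hq, hhq, hlq, hjl, hkl⟩
  · have hne : e * M + j + e' * M ≠ 0 := by
      rcases h with h | h
      · rcases he with he | he <;> rcases he' with he' | he' <;> subst he <;> subst he' <;> omega
      · have hj0 : j ≠ 0 := by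
          intro h0
          rw [h0, zpow_zero] at hj
          exact h hj
        rcases he with he | he <;> rcases he' with he' | he' <;> subst he <;> subst he' <;> omega
    have hpr : FreeGroup.of ib ^ (e * M) * p * FreeGroup.of ib ^ (e' * M) =
        FreeGroup.of ib ^ (e * M + j + e' * M) := by
      rw [hj, ← zpow_add, ← zpow_add]
    rw [hpr]
    exact hd_zpow ib _ hne
  · have h1 : e * M + j ≠ 0 := by
      rcases he with he | he <;> subst he <;> omega
    have h2 : k + e' * M ≠ 0 := by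
      rcases he' with he' | he' <;> subst he' <;> omega
    have hpr : FreeGroup.of ib ^ (e * M) * p * FreeGroup.of ib ^ (e' * M) =
        FreeGroup.of ib ^ (e * M + j) * q * FreeGroup.of ib ^ (k + e' * M) := by
      rw [hp, zpow_add, zpow_add]
      simp only [mul_assoc]
    rw [hpr]
    have HL := H_left ib q hhq (e * M + j)
    have hne1 : FreeGroup.of ib ^ (e * M + j) * q ≠ 1 := cat_ne_one _ _ (hd_zpow ib _ h1).1 HL
    have hl1 : lst (FreeGroup.of ib ^ (e * M + j) * q) = lst q := cat_lst _ _ hq HL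
    have HR := H_right ib (FreeGroup.of ib ^ (e * M + j) * q) (by rw [hl1]; exact hlq)
      (k + e' * M)
    refine ⟨cat_ne_one _ _ hne1 HR, ?_, ?_⟩
    · rw [cat_hd _ _ hne1 HR, cat_hd _ _ (hd_zpow ib _ h1).1 HL]
      exact (hd_zpow ib _ h1).2.1
    · rw [cat_lst _ _ (hd_zpow ib _ h2).1 HR]
      exact (hd_zpow ib _ h2).2.2

open WordDAux in
/-- one-sided separator -/
theorem sep_left (ib : ι) (p : FreeGroup ι) (M : ℕ) (hM : p.toWord.length < M) (e : ℤ)
    (he : e = 1 ∨ e = -1) :
    FreeGroup.of ib ^ (e * M) * p ≠ 1 ∧ hd (FreeGroup.of ib ^ (e * M) * p) = some ib := by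
  rcases exists_core ib p with ⟨j, hj, hjl⟩ | ⟨j, k, q, hp, hq, hhq, hlq, hjl, hkl⟩
  · have hne : e * M + j ≠ 0 := by
      rcases he with he | he <;> subst he <;> omega
    have hpr : FreeGroup.of ib ^ (e * M) * p = FreeGroup.of ib ^ (e * M + j) := by
      rw [hj, ← zpow_add]
    rw [hpr]
    exact ⟨(hd_zpow ib _ hne).1, (hd_zpow ib _ hne).2.1⟩
  · have h1 : e * M + j ≠ 0 := by
      rcases he with he | he <;> subst he <;> omega
    have hpr : FreeGroup.of ib ^ (e * M) * p =
        FreeGroup.of ib ^ (e * M + j) * (q * FreeGroup.of ib ^ k) := by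
      rw [hp, zpow_add]
      simp only [mul_assoc]
    rw [hpr]
    have hh : hd (q * FreeGroup.of ib ^ k) ≠ some ib := by
      rw [cat_hd q (FreeGroup.of ib ^ k) hq (H_right ib q hlq k)]
      exact hhq
    have HL := H_left ib (q * FreeGroup.of ib ^ k) hh (e * M + j)
    exact ⟨cat_ne_one _ _ (hd_zpow ib _ h1).1 HL, by
      rw [cat_hd _ _ (hd_zpow ib _ h1).1 HL]
      exact (hd_zpow ib _ h1).2.1⟩

end Crest.Agent.R134
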