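import Crest.Agent.R134.SigDef
import Crest.Agent.R134.GoodFacts

/-!
# Row 134, part (B): `V* δ_{θ(g)} ≈ Y_g δ_1`

`θ` = the automorphism `x ↦ b^M x b^M`, other letters fixed.
-/

set_option autoImplicit false
set_option linter.unusedSectionVars false
open Crest.OpAlg
open scoped InnerProductSpace

namespace Crest.Agent.R134

variable {ι : Type} [DecidableEq ι] {ib ix : ι}

/-- the automorphism `x ↦ b^M x b^M`, fixing the other letters (inverse `x ↦ b^{-M} x b^{-M}`) -/
theorem exists_theta (hbx : ib ≠ ix) (M : ℕ) :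
    ∃ θ : FreeGroup ι ≃* FreeGroup ι, (∀ i, i ≠ ix → θ (FreeGroup.of i) = FreeGroup.of i) ∧
      θ (FreeGroup.of ix) = FreeGroup.of ib ^ M * FreeGroup.of ix * FreeGroup.of ib ^ M := by
  set f : ι → FreeGroup ι := fun i =>
    if i = ix then FreeGroup.of ib ^ M * FreeGroup.of ix * FreeGroup.of ib ^ M
    else FreeGroup.of i with hf
  set g : ι → FreeGroup ι := fun i =>
    if i = ix then (FreeGroup.of ib ^ M)⁻¹ * FreeGroup.of ix * (FreeGroup.of ib ^ M)⁻¹
    else FreeGroup.of i with hg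
  have f1 : f ix = FreeGroup.of ib ^ M * FreeGroup.of ix * FreeGroup.of ib ^ M := by
    simp [hf]
  have f2 : ∀ i, i ≠ ix → f i = FreeGroup.of i := by
    intro i hi
    simp [hf, hi]
  have g1 : g ix = (FreeGroup.of ib ^ M)⁻¹ * FreeGroup.of ix * (FreeGroup.of ib ^ M)⁻¹ := by
    simp [hg]
  have g2 : ∀ i, i ≠ ix → g i = FreeGroup.of i := by
    intro i hi
    simp [hg, hi]
  have e1 : (FreeGroup.lift g).comp (FreeGroup.lift f) = MonoidHom.id _ := by
    refine FreeGroup.ext_hom _ _ fun i => ?_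
    rw [MonoidHom.comp_apply, FreeGroup.lift_apply_of, MonoidHom.id_apply]
    by_cases hi : i = ix
    · subst hi
      rw [f1, map_mul, map_mul, map_pow, FreeGroup.lift_apply_of, FreeGroup.lift_apply_of, g1,
        g2 ib hbx]
      group
    · rw [f2 i hi, FreeGroup.lift_apply_of, g2 i hi]
  have e2 : (FreeGroup.lift f).comp (FreeGroup.lift g) = MonoidHom.id _ := by
    refine FreeGroup.ext_hom _ _ fun i => ?_
    rw [MonoidHom.comp_apply, FreeGroup.lift_apply_of, MonoidHom.id_apply]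
    by_cases hi : i = ix
    · subst hi
      rw [g1, map_mul, map_mul, map_inv, map_pow, FreeGroup.lift_apply_of,
        FreeGroup.lift_apply_of, f1, f2 ib hbx]
      group
    · rw [g2 i hi, FreeGroup.lift_apply_of, f2 i hi]
  refine ⟨MonoidHom.toMulEquiv (FreeGroup.lift f) (FreeGroup.lift g) e1 e2, ?_, ?_⟩
  · intro i hi
    change FreeGroup.lift f (FreeGroup.of i) = _
    rw [FreeGroup.lift_apply_of, f2 i hi]
  · change FreeGroup.lift f (FreeGroup.of ix) = _
    rw [FreeGroup.lift_apply_of, f1]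

/-- telescoping: products of unitaries of `M` (`G` any group) -/
theorem prod_close {G : Type} [Group G] [DecidableEq G]
    (A B C D : ltwo G →L[ℂ] ltwo G)
    (hA : A ∈ groupVNA G) (hB : B ∈ groupVNA G) (hC : C ∈ groupVNA G) (hD : D ∈ groupVNA G)
    (hA1 : star A ∘L A = ContinuousLinearMap.id ℂ _) (hA2 : A ∘L star A = ContinuousLinearMap.id ℂ _)
    (hD1 : star D ∘L D = ContinuousLinearMap.id ℂ _) (hD2 : D ∘L star D = ContinuousLinearMap.id ℂ _) :
    ‖A (B (dl 1)) - C (D (dl 1))‖ ≤ ‖A (dl 1) - C (dl 1)‖ + ‖B (dl 1) - D (dl 1)‖ := by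
  have h1 : ‖A (B (dl 1)) - A (D (dl 1))‖ = ‖B (dl 1) - D (dl 1)‖ := by
    rw [← map_sub]
    exact MD_norm_of_star_comp hA1 _
  have hm : A + (-1 : ℂ) • C ∈ groupVNA G := M_add hA (M_smul _ hC)
  have h2 : ‖A (D (dl 1)) - C (D (dl 1))‖ = ‖A (dl 1) - C (dl 1)‖ := by
    have h3 := M_norm_unitary hm hD hD1 hD2
    have h4 : ∀ ξ, (A + (-1 : ℂ) • C) ξ = A ξ - C ξ := by
      intro ξ
      rw [add_apply, smul_apply, neg_one_smul,
        sub_eq_add_neg]
    rw [h4, h4] at h3
    exact h3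
  calc ‖A (B (dl 1)) - C (D (dl 1))‖
      = ‖(A (B (dl 1)) - A (D (dl 1))) + (A (D (dl 1)) - C (D (dl 1)))‖ := by
        congr 1; abel
    _ ≤ _ := norm_add_le _ _
    _ = _ := by rw [h1, h2, add_comm]

/-- the letter operators are unitary -/
theorem Yl_unitary (M : ℕ) {X : ltwo (FreeGroup ι) →L[ℂ] ltwo (FreeGroup ι)}
    (h1 : star X ∘L X = ContinuousLinearMap.id ℂ _) (h2 : X ∘L star X = ContinuousLinearMap.id ℂ _)
    (l : ι × Bool) :
    star (Yl ib ix M X l) ∘L Yl ib ix M X l = ContinuousLinearMap.id ℂ _ ∧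
      Yl ib ix M X l ∘L star (Yl ib ix M X l) = ContinuousLinearMap.id ℂ _ := by
  have u1 : ∀ g : FreeGroup ι, star (leftRegular g) * leftRegular g =
      (1 : ltwo (FreeGroup ι) →L[ℂ] ltwo (FreeGroup ι)) := by
    intro g
    rw [leftRegular_star]
    change leftRegular g⁻¹ ∘L leftRegular g = _
    rw [← leftRegular_mul, inv_mul_cancel, leftRegular_one]
    rfl
  have u2 : ∀ g : FreeGroup ι, leftRegular g * star (leftRegular g) =
      (1 : ltwo (FreeGroup ι) →L[ℂ] ltwo (FreeGroup ι)) := by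
    intro g
    rw [leftRegular_star]
    change leftRegular g ∘L leftRegular g⁻¹ = _
    rw [← leftRegular_mul, mul_inv_cancel, leftRegular_one]
    rfl
  have h1' : star X * X = 1 := h1
  have h2' : X * star X = 1 := h2
  have y1 : star (Yx ib M X) * Yx ib M X = 1 := by
    have : Yx ib M X = leftRegular (FreeGroup.of ib ^ M) * (X *
      leftRegular (FreeGroup.of ib ^ M)) := rfl
    rw [this, star_mul, star_mul, mul_assoc, ← mul_assoc (star (leftRegular _))
      (leftRegular _) _, u1, one_mul, mul_assoc, ← mul_assoc (star X), h1', one_mul, u1]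
  have y2 : Yx ib M X * star (Yx ib M X) = 1 := by
    have : Yx ib M X = leftRegular (FreeGroup.of ib ^ M) * (X *
      leftRegular (FreeGroup.of ib ^ M)) := rfl
    rw [this, star_mul, star_mul, mul_assoc, mul_assoc, mul_assoc (star (leftRegular _)),
      ← mul_assoc (leftRegular _)
      (star (leftRegular _)) _, u2, one_mul, ← mul_assoc X, h2', one_mul, u2]
  change star (Yl ib ix M X l) * Yl ib ix M X l = 1 ∧ Yl ib ix M X l * star (Yl ib ix M X l) = 1
  unfold Yl
  split_ifs with ha hb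
  · exact ⟨y1, y2⟩
  · rw [star_star]
    exact ⟨y2, y1⟩
  · exact ⟨u1 _, u2 _⟩

theorem Yw_unitary (M : ℕ) {X : ltwo (FreeGroup ι) →L[ℂ] ltwo (FreeGroup ι)}
    (h1 : star X ∘L X = ContinuousLinearMap.id ℂ _) (h2 : X ∘L star X = ContinuousLinearMap.id ℂ _)
    (w : List (ι × Bool)) :
    star (Yw ib ix M X w) ∘L Yw ib ix M X w = ContinuousLinearMap.id ℂ _ ∧
      Yw ib ix M X w ∘L star (Yw ib ix M X w) = ContinuousLinearMap.id ℂ _ := by
  change star (Yw ib ix M X w) * Yw ib ix M X w = 1 ∧ Yw ib ix M X w * star (Yw ib ix M X w) = 1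
  induction w with
  | nil =>
    have : Yw ib ix M X [] = 1 := rfl
    rw [this, star_one, one_mul]
    exact ⟨rfl, rfl⟩
  | cons l w ih =>
    have hl : star (Yl ib ix M X l) * Yl ib ix M X l = 1 ∧
      Yl ib ix M X l * star (Yl ib ix M X l) = 1 := Yl_unitary M h1 h2 l
    have : Yw ib ix M X (l :: w) = Yl ib ix M X l * Yw ib ix M X w := rfl
    rw [this, star_mul]
    constructor
    · rw [mul_assoc, ← mul_assoc (star (Yl ib ix M X l)), hl.1, one_mul, ih.1]
    · rw [mul_assoc, ← mul_assoc (Yw ib ix M X w), ih.2, one_mul, hl.2]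

end Crest.Agent.R134
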