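import Crest.Agent.R134.Sig
import Crest.Agent.R134.GenFacts
import Crest.Agent.R134.GoodFacts

/-!
# Row 134, part (B): the operators `Yw`

`X ∈ M` with Fourier support in `H \ {1}`.  Let `φ t = gen (X δ_1) t`.
-/

set_option autoImplicit false
set_option linter.unusedSectionVars false
open Crest.OpAlg
open scoped InnerProductSpace

namespace Crest.Agent.R134

variable {ι : Type} [DecidableEq ι] {ib ix : ι}

theorem Yx_mem (M : ℕ) {X : ltwo (FreeGroup ι) →L[ℂ] ltwo (FreeGroup ι)}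
    (hX : X ∈ groupVNA (FreeGroup ι)) : Yx ib M X ∈ groupVNA (FreeGroup ι) :=
  M_comp (leftRegular_mem _) (M_comp hX (leftRegular_mem _))

theorem Yl_mem (M : ℕ) {X : ltwo (FreeGroup ι) →L[ℂ] ltwo (FreeGroup ι)}
    (hX : X ∈ groupVNA (FreeGroup ι)) (l : ι × Bool) :
    Yl ib ix M X l ∈ groupVNA (FreeGroup ι) := by
  unfold Yl
  split_ifs
  · exact Yx_mem M hX
  · exact M_star (Yx_mem M hX)
  · exact leftRegular_mem _

theorem Yw_mem (M : ℕ) {X : ltwo (FreeGroup ι) →L[ℂ] ltwo (FreeGroup ι)}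
    (hX : X ∈ groupVNA (FreeGroup ι)) (w : List (ι × Bool)) :
    Yw ib ix M X w ∈ groupVNA (FreeGroup ι) := by
  induction w with
  | nil => exact M_one
  | cons l w ih => exact M_comp (Yl_mem M hX l) ih

/-- coordinates of `Yx δ_1` -/
theorem Yx_apply (M : ℕ) {X : ltwo (FreeGroup ι) →L[ℂ] ltwo (FreeGroup ι)}
    (hX : X ∈ groupVNA (FreeGroup ι)) (g : FreeGroup ι) :
    Yx ib M X (dl 1) g
      = X (dl 1) ((FreeGroup.of ib ^ M)⁻¹ * g * (FreeGroup.of ib ^ M)⁻¹) := by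
  have h1 : Yx ib M X (dl 1) g
      = X (leftRegular (FreeGroup.of ib ^ M) (dl 1)) ((FreeGroup.of ib ^ M)⁻¹ * g) := rfl
  rw [h1, leftRegular_dl, mul_one, M_dl_apply hX]

/-- Fourier support of the letter operator -/
theorem Yl_supp (H : Subgroup (FreeGroup ι)) (M : ℕ)
    {X : ltwo (FreeGroup ι) →L[ℂ] ltwo (FreeGroup ι)} (hX : X ∈ groupVNA (FreeGroup ι))
    (hs : ∀ h, X (dl 1) h ≠ 0 → h ∈ H ∧ h ≠ 1) (l : ι × Bool) (hl : l.1 = ix) (g : FreeGroup ι)
    (hg : Yl ib ix M X l (dl 1) g ≠ 0) :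
    ∃ v ∈ H, v ≠ 1 ∧ g = FreeGroup.of ib ^ (sg l.2 * M) * v * FreeGroup.of ib ^ (sg l.2 * M) := by
  obtain ⟨i, e⟩ := l
  simp only at hl
  subst hl
  cases e with
  | true =>
    have h1 : Yl ib i M X (i, true) = Yx ib M X := by simp [Yl]
    rw [h1, Yx_apply M hX] at hg
    obtain ⟨h2, h3⟩ := hs _ hg
    refine ⟨_, h2, h3, ?_⟩
    have h4 : FreeGroup.of ib ^ (sg true * (M : ℤ)) = FreeGroup.of ib ^ M := by
      simp [sg]
    simp only [h4]
    group
  | false =>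
    have h1 : Yl ib i M X (i, false) = star (Yx ib M X) := by simp [Yl]
    rw [h1, M_star_apply (Yx_mem M hX), Yx_apply M hX] at hg
    have hg' : X (dl 1) ((FreeGroup.of ib ^ M)⁻¹ * g⁻¹ * (FreeGroup.of ib ^ M)⁻¹) ≠ 0 := by
      intro h0
      exact hg (by rw [h0, star_zero])
    obtain ⟨h2, h3⟩ := hs _ hg'
    refine ⟨_, H.inv_mem h2, by simpa only [Ne, inv_eq_one] using h3, ?_⟩
    have h4 : FreeGroup.of ib ^ (sg false * (M : ℤ)) = (FreeGroup.of ib ^ M)⁻¹ := by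
      simp [sg]
    simp only [h4]
    group

theorem gen_congr_equiv (ξ η : ltwo (FreeGroup ι)) (e : FreeGroup ι ≃ FreeGroup ι)
    (h1 : ∀ g, ‖ξ g‖ = ‖η (e g)‖) (h2 : ∀ g, deg ix g = deg ix (e g)) (t : ℝ) :
    gen ix ξ t = gen ix η t := by
  unfold gen
  rw [← e.tsum_eq (fun g => ‖η g‖ ^ 2 * t ^ deg ix g)]
  exact tsum_congr fun g => by rw [h1, h2]

/-- `gen` of the letter operator -/
theorem Yl_gen (hbx : ib ≠ ix) (M : ℕ)
    {X : ltwo (FreeGroup ι) →L[ℂ] ltwo (FreeGroup ι)} (hX : X ∈ groupVNA (FreeGroup ι))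
    (l : ι × Bool) (hl : l.1 = ix) (t : ℝ) (h0 : 0 ≤ t) (h1 : t ≤ 1) :
    gen ix (Yl ib ix M X l (dl 1)) t = gen ix (X (dl 1)) t := by
  have hd0 : deg ix (FreeGroup.of ib ^ M)⁻¹ = 0 := by
    rw [deg_inv]
    simpa using deg_zpow ix hbx (M : ℤ)
  have hdd : ∀ g : FreeGroup ι,
      deg ix ((FreeGroup.of ib ^ M)⁻¹ * g * (FreeGroup.of ib ^ M)⁻¹) = deg ix g := by
    intro g
    rw [deg_mul_right ix hd0, deg_mul_left ix hd0]
  obtain ⟨i, e⟩ := l
  simp only at hl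
  subst hl
  cases e with
  | true =>
    have h2 : Yl ib i M X (i, true) = Yx ib M X := by simp [Yl]
    rw [h2]
    refine gen_congr_equiv _ _ ((Equiv.mulLeft (FreeGroup.of ib ^ M)⁻¹).trans
      (Equiv.mulRight (FreeGroup.of ib ^ M)⁻¹)) (fun g => ?_) (fun g => ?_) t
    · rw [Yx_apply M hX]; rfl
    · exact (hdd g).symm
  | false =>
    have h2 : Yl ib i M X (i, false) = star (Yx ib M X) := by simp [Yl]
    rw [h2]
    refine gen_congr_equiv _ _ ((Equiv.inv (FreeGroup ι)).trans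
      ((Equiv.mulLeft (FreeGroup.of ib ^ M)⁻¹).trans
      (Equiv.mulRight (FreeGroup.of ib ^ M)⁻¹))) (fun g => ?_) (fun g => ?_) t
    · rw [M_star_apply (Yx_mem M hX), Yx_apply M hX, norm_star]; rfl
    · have h3 := hdd g⁻¹
      rw [deg_inv] at h3
      exact h3.symm

theorem Yw_supp (H : Subgroup (FreeGroup ι)) (M : ℕ)
    {X : ltwo (FreeGroup ι) →L[ℂ] ltwo (FreeGroup ι)} (hX : X ∈ groupVNA (FreeGroup ι))
    (hs : ∀ h, X (dl 1) h ≠ 0 → h ∈ H ∧ h ≠ 1) (w : List (ι × Bool)) (g : FreeGroup ι)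
    (hg : Yw ib ix M X w (dl 1) g ≠ 0) : g ∈ Sig ib ix H M w := by
  induction w generalizing g with
  | nil =>
    have h1 : Yw ib ix M X [] (dl 1) g = dl 1 g := rfl
    rw [h1, dl_apply] at hg
    simp only [ne_eq, ite_eq_right_iff, one_ne_zero, imp_false, Decidable.not_not] at hg
    simp [Sig, hg]
  | cons l w ih =>
    have hg' : (Yl ib ix M X l ∘L Yw ib ix M X w) (dl 1) g ≠ 0 := hg
    obtain ⟨h, h1, h2⟩ := conv_ne_zero (Yl_mem M hX l) g hg'
    have h3 := ih h h2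
    by_cases hl : l.1 = ix
    · obtain ⟨v, hv, hv1, hgv⟩ := Yl_supp H M hX hs l hl _ h1
      simp only [Sig, if_pos hl]
      refine ⟨v, hv, hv1, h, h3, ?_⟩
      rw [← hgv]
      group
    · simp only [Sig, if_neg hl]
      refine ⟨h, h3, ?_⟩
      have h4 : Yl ib ix M X l = leftRegular (FreeGroup.mk [l]) := by
        simp only [Yl, if_neg hl]
      rw [h4, leftRegular_dl, mul_one, dl_apply] at h1
      have h5 : g * h⁻¹ = FreeGroup.mk [l] := by
        by_contra hne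
        exact h1 (if_neg hne)
      rw [← h5]
      group

end Crest.Agent.R134
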