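import Crest.Agent.R134.SigDef
import Crest.Agent.R134.GoodFacts
import Crest.Agent.R134.YApA
import Crest.Agent.R134.YOpA

/-!
# Row 134, part (B): `V* δ_{θ(g)} ≈ Y_g δ_1`

`θ` = the automorphism `x ↦ b^M x b^M`, other letters fixed.
-/

set_option autoImplicit false
set_option linter.unusedSectionVars false
open Crest.OpAlg
open scoped InnerProductSpace

namespace Crest.Agent.R134

variable {ι : Type} [DecidableEq ι] {ib ix : ι}

section YApBaux
variable {G : Type} [Group G] [DecidableEq G]

private theorem lr_unit1 (g : G) :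
    star (leftRegular g) ∘L leftRegular g = ContinuousLinearMap.id ℂ _ := by
  rw [leftRegular_star, ← leftRegular_mul, inv_mul_cancel, leftRegular_one]

private theorem lr_unit2 (g : G) :
    leftRegular g ∘L star (leftRegular g) = ContinuousLinearMap.id ℂ _ := by
  rw [leftRegular_star, ← leftRegular_mul, mul_inv_cancel, leftRegular_one]

private theorem cj_unit1 (V : ltwo G ≃ₗᵢ[ℂ] ltwo G) {m : ltwo G →L[ℂ] ltwo G}
    (h : star m ∘L m = ContinuousLinearMap.id ℂ _) :
    star (cj V m) ∘L cj V m = ContinuousLinearMap.id ℂ _ := by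
  rw [← cj_star, ← cj_comp, h, cj_id]

private theorem cj_unit2 (V : ltwo G ≃ₗᵢ[ℂ] ltwo G) {m : ltwo G →L[ℂ] ltwo G}
    (h : m ∘L star m = ContinuousLinearMap.id ℂ _) :
    cj V m ∘L star (cj V m) = ContinuousLinearMap.id ℂ _ := by
  rw [← cj_star, ← cj_comp, h, cj_id]

private theorem sub_mem' {m n : ltwo G →L[ℂ] ltwo G} (hm : m ∈ groupVNA G)
    (hn : n ∈ groupVNA G) : m - n ∈ groupVNA G := by
  have := M_add hm (M_smul (-1) hn)
  simpa [sub_eq_add_neg] using this

/-- distances of stars -/
private theorem star_dist {m n : ltwo G →L[ℂ] ltwo G} (hm : m ∈ groupVNA G)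
    (hn : n ∈ groupVNA G) : ‖star m (dl 1) - star n (dl 1)‖ = ‖m (dl 1) - n (dl 1)‖ := by
  have h1 := M_norm_star (sub_mem' hm hn)
  rw [star_sub] at h1
  exact h1

/-- powers -/
private theorem pow_close {V : ltwo G ≃ₗᵢ[ℂ] ltwo G} (hV : Good V) (b : G) (η : ℝ)
    (hb : ‖cj V (leftRegular b) (dl 1) - leftRegular b (dl 1)‖ ≤ η) (k : ℕ) :
    ‖cj V (leftRegular (b ^ k)) (dl 1) - leftRegular (b ^ k) (dl 1)‖ ≤ k * η := by
  induction k with
  | zero => rw [pow_zero, leftRegular_one, cj_id]; simp
  | succ k ih =>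
    have h1 : cj V (leftRegular (b ^ (k + 1))) (dl 1)
        = cj V (leftRegular (b ^ k)) (cj V (leftRegular b) (dl 1)) := by
      rw [pow_succ, leftRegular_mul, cj_comp]; rfl
    have h2 : leftRegular (b ^ (k + 1)) (dl 1)
        = leftRegular (b ^ k) (leftRegular b (dl (1 : G))) := by
      rw [pow_succ, leftRegular_mul]; rfl
    rw [h1, h2]
    have h3 := prod_close (cj V (leftRegular (b ^ k))) (cj V (leftRegular b))
      (leftRegular (b ^ k)) (leftRegular b) (hV.mem _ (leftRegular_mem _))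
      (hV.mem _ (leftRegular_mem _)) (leftRegular_mem _) (leftRegular_mem _)
      (cj_unit1 V (lr_unit1 _)) (cj_unit2 V (lr_unit2 _)) (lr_unit1 _) (lr_unit2 _)
    push_cast
    linarith

end YApBaux

/-- one letter: with `W = V*`, `X = W x W*`: `‖W λ(θ l) W* δ_1 - Y_l δ_1‖ ≤ (2M+1) η` -/
theorem Yl_approx (hbx : ib ≠ ix) {V : ltwo (FreeGroup ι) ≃ₗᵢ[ℂ] ltwo (FreeGroup ι)} (hV : Good V)
    (hfix : ∀ i, i ≠ ib → i ≠ ix → V (dl (FreeGroup.of i)) = dl (FreeGroup.of i))
    (η : ℝ) (hb : ‖V (dl (FreeGroup.of ib)) - dl (FreeGroup.of ib)‖ ≤ η) (M : ℕ)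
    (θ : FreeGroup ι ≃* FreeGroup ι) (hθ : ∀ i, i ≠ ix → θ (FreeGroup.of i) = FreeGroup.of i)
    (hθx : θ (FreeGroup.of ix) = FreeGroup.of ib ^ M * FreeGroup.of ix * FreeGroup.of ib ^ M)
    (l : ι × Bool) :
    ‖cj V.symm (leftRegular (θ (FreeGroup.mk [l]))) (dl 1)
        - Yl ib ix M (cj V.symm (leftRegular (FreeGroup.of ix))) l (dl 1)‖ ≤ (2 * M + 1) * η := by
  have hη : 0 ≤ η := (norm_nonneg _).trans hb
  have hW := hV.symm
  -- positive letters
  have key : ∀ i : ι, ‖cj V.symm (leftRegular (θ (FreeGroup.of i))) (dl 1)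
      - (if i = ix then Yx ib M (cj V.symm (leftRegular (FreeGroup.of ix)))
          else leftRegular (FreeGroup.of i)) (dl 1)‖ ≤ (2 * M + 1) * η := by
    intro i
    have hb' : ‖cj V.symm (leftRegular (FreeGroup.of ib)) (dl 1)
        - leftRegular (FreeGroup.of ib) (dl 1)‖ ≤ η := by
      rw [hW.cj_one, leftRegular_dl, mul_one]
      rw [← V.norm_map, map_sub, V.apply_symm_apply, norm_sub_rev]
      exact hb
    by_cases hix : i = ix
    · subst hix
      rw [if_pos rfl, hθx, leftRegular_mul, leftRegular_mul, cj_comp, cj_comp]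
      set X := cj V.symm (leftRegular (FreeGroup.of i)) with hX
      set A := cj V.symm (leftRegular (FreeGroup.of ib ^ M)) with hA
      have hc := pow_close hW (FreeGroup.of ib) η hb' M
      rw [← hA] at hc
      have hAm : A ∈ groupVNA (FreeGroup ι) := hW.mem _ (leftRegular_mem _)
      have hXm : X ∈ groupVNA (FreeGroup ι) := hW.mem _ (leftRegular_mem _)
      have hL : leftRegular (FreeGroup.of ib ^ M) ∈ groupVNA (FreeGroup ι) := leftRegular_mem _
      have hA1 := cj_unit1 V.symm (lr_unit1 (FreeGroup.of ib ^ M))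
      have hA2 := cj_unit2 V.symm (lr_unit2 (FreeGroup.of ib ^ M))
      have hX1 := cj_unit1 V.symm (lr_unit1 (FreeGroup.of i))
      have hX2 := cj_unit2 V.symm (lr_unit2 (FreeGroup.of i))
      rw [← hA] at hA1 hA2
      rw [← hX] at hX1 hX2
      have e1 : ((A ∘L X) ∘L A) (dl 1) = A ((X ∘L A) (dl 1)) := rfl
      have e2 : Yx ib M X (dl 1) = leftRegular (FreeGroup.of ib ^ M)
          ((X ∘L leftRegular (FreeGroup.of ib ^ M)) (dl 1)) := rfl
      rw [e1, e2]
      have hD1 : star (X ∘L leftRegular (FreeGroup.of ib ^ M)) ∘L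
          (X ∘L leftRegular (FreeGroup.of ib ^ M)) = ContinuousLinearMap.id ℂ _ := by
        have e3 : star (X ∘L leftRegular (FreeGroup.of ib ^ M))
            = star (leftRegular (FreeGroup.of ib ^ M)) ∘L star X := star_mul _ _
        rw [e3, ContinuousLinearMap.comp_assoc, ← ContinuousLinearMap.comp_assoc (star X), hX1,
          ContinuousLinearMap.id_comp, lr_unit1]
      have hD2 : (X ∘L leftRegular (FreeGroup.of ib ^ M)) ∘L
          star (X ∘L leftRegular (FreeGroup.of ib ^ M)) = ContinuousLinearMap.id ℂ _ := by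
        have e3 : star (X ∘L leftRegular (FreeGroup.of ib ^ M))
            = star (leftRegular (FreeGroup.of ib ^ M)) ∘L star X := star_mul _ _
        rw [e3, ContinuousLinearMap.comp_assoc,
          ← ContinuousLinearMap.comp_assoc (leftRegular (FreeGroup.of ib ^ M)), lr_unit2,
          ContinuousLinearMap.id_comp, hX2]
      have h1 := prod_close A (X ∘L A) (leftRegular (FreeGroup.of ib ^ M))
        (X ∘L leftRegular (FreeGroup.of ib ^ M)) hAm (M_comp hXm hAm) hL (M_comp hXm hL)
        hA1 hA2 hD1 hD2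
      have h2 := prod_close X A X (leftRegular (FreeGroup.of ib ^ M)) hXm hAm hXm hL
        hX1 hX2 (lr_unit1 _) (lr_unit2 _)
      rw [sub_self, norm_zero, zero_add] at h2
      have h3 : ‖(X ∘L A) (dl 1) - (X ∘L leftRegular (FreeGroup.of ib ^ M)) (dl 1)‖
          ≤ ‖A (dl 1) - leftRegular (FreeGroup.of ib ^ M) (dl 1)‖ := h2
      linarith
    · rw [if_neg hix, hθ i hix]
      by_cases hib : i = ib
      · subst hib
        refine hb'.trans ?_
        have : (0 : ℝ) ≤ M := Nat.cast_nonneg _
        nlinarith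
      · have h1 := hfix i hib hix
        rw [hW.cj_one, leftRegular_dl, mul_one, Good.fix_symm h1, sub_self, norm_zero]
        positivity
  obtain ⟨i, e⟩ := l
  cases e
  · have h0 : FreeGroup.mk [(i, false)] = (FreeGroup.of i)⁻¹ := rfl
    have h1 := key i
    have h2 : Yl ib ix M (cj V.symm (leftRegular (FreeGroup.of ix))) (i, false)
        = star (if i = ix then Yx ib M (cj V.symm (leftRegular (FreeGroup.of ix)))
          else leftRegular (FreeGroup.of i)) := by
      unfold Yl
      by_cases hix : i = ix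
      · simp [hix]
      · simp only [hix, if_false]
        rw [h0, leftRegular_star]
    have hm1 : cj V.symm (leftRegular (θ (FreeGroup.of i))) ∈ groupVNA (FreeGroup ι) :=
      hW.mem _ (leftRegular_mem _)
    have hm2 : (if i = ix then Yx ib M (cj V.symm (leftRegular (FreeGroup.of ix)))
          else leftRegular (FreeGroup.of i)) ∈ groupVNA (FreeGroup ι) := by
      split_ifs
      · exact Yx_mem M (hW.mem _ (leftRegular_mem _))
      · exact leftRegular_mem _
    rw [h2, h0, map_inv, ← leftRegular_star, cj_star, star_dist hm1 hm2]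
    exact h1
  · have h0 : FreeGroup.mk [(i, true)] = FreeGroup.of i := rfl
    have h2 : Yl ib ix M (cj V.symm (leftRegular (FreeGroup.of ix))) (i, true)
        = (if i = ix then Yx ib M (cj V.symm (leftRegular (FreeGroup.of ix)))
          else leftRegular (FreeGroup.of i)) := by
      unfold Yl
      by_cases hix : i = ix
      · simp [hix]
      · simp only [hix, if_false]
        rw [h0]
    rw [h2, h0]
    exact key i

/-- words (induction with `prod_close`) -/
theorem Yw_approx (hbx : ib ≠ ix) {V : ltwo (FreeGroup ι) ≃ₗᵢ[ℂ] ltwo (FreeGroup ι)} (hV : Good V)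
    (hfix : ∀ i, i ≠ ib → i ≠ ix → V (dl (FreeGroup.of i)) = dl (FreeGroup.of i))
    (η : ℝ) (hb : ‖V (dl (FreeGroup.of ib)) - dl (FreeGroup.of ib)‖ ≤ η) (M : ℕ)
    (θ : FreeGroup ι ≃* FreeGroup ι) (hθ : ∀ i, i ≠ ix → θ (FreeGroup.of i) = FreeGroup.of i)
    (hθx : θ (FreeGroup.of ix) = FreeGroup.of ib ^ M * FreeGroup.of ix * FreeGroup.of ib ^ M)
    (w : List (ι × Bool)) :
    ‖V.symm (dl (θ (FreeGroup.mk w)))
        - Yw ib ix M (cj V.symm (leftRegular (FreeGroup.of ix))) w (dl 1)‖
      ≤ w.length * ((2 * M + 1) * η) := by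
  have hW := hV.symm
  have hXm : cj V.symm (leftRegular (FreeGroup.of ix)) ∈ groupVNA (FreeGroup ι) :=
    hW.mem _ (leftRegular_mem _)
  have key : ∀ w : List (ι × Bool), ‖cj V.symm (leftRegular (θ (FreeGroup.mk w))) (dl 1)
      - Yw ib ix M (cj V.symm (leftRegular (FreeGroup.of ix))) w (dl 1)‖
      ≤ w.length * ((2 * M + 1) * η) := by
    intro w
    induction w with
    | nil =>
      have h0 : FreeGroup.mk ([] : List (ι × Bool)) = 1 := rfl
      rw [h0, map_one, leftRegular_one, cj_id]
      simp [Yw]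
    | cons l w ih =>
      have h0 : FreeGroup.mk (l :: w) = FreeGroup.mk [l] * FreeGroup.mk w := by
        rw [FreeGroup.mul_mk]; rfl
      rw [h0, map_mul, leftRegular_mul, cj_comp]
      have hu := Yw_unitary (ib := ib) (ix := ix) M
        (cj_unit1 V.symm (lr_unit1 (FreeGroup.of ix)))
        (cj_unit2 V.symm (lr_unit2 (FreeGroup.of ix))) w
      have h1 := prod_close (cj V.symm (leftRegular (θ (FreeGroup.mk [l]))))
        (cj V.symm (leftRegular (θ (FreeGroup.mk w))))
        (Yl ib ix M (cj V.symm (leftRegular (FreeGroup.of ix))) l)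
        (Yw ib ix M (cj V.symm (leftRegular (FreeGroup.of ix))) w)
        (hW.mem _ (leftRegular_mem _)) (hW.mem _ (leftRegular_mem _)) (Yl_mem M hXm l)
        (Yw_mem M hXm w) (cj_unit1 V.symm (lr_unit1 _)) (cj_unit2 V.symm (lr_unit2 _))
        hu.1 hu.2
      have h2 := Yl_approx hbx hV hfix η hb M θ hθ hθx l
      have e : Yw ib ix M (cj V.symm (leftRegular (FreeGroup.of ix))) (l :: w) (dl 1)
        = Yl ib ix M (cj V.symm (leftRegular (FreeGroup.of ix))) l
          (Yw ib ix M (cj V.symm (leftRegular (FreeGroup.of ix))) w (dl 1)) := rfl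
      rw [e]
      refine h1.trans ?_
      rw [List.length_cons]
      push_cast
      linarith
  have h1 : V.symm (dl (θ (FreeGroup.mk w)))
      = cj V.symm (leftRegular (θ (FreeGroup.mk w))) (dl 1) := by
    rw [hW.cj_one, leftRegular_dl, mul_one]
  rw [h1]
  exact key w

end Crest.Agent.R134
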