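import Crest.Agent.R134.Sig
import Crest.Agent.R134.GenFacts
import Crest.Agent.R134.GoodFacts
import Crest.Agent.R134.YOpA

/-!
# Row 134, part (B): the operators `Yw`

`X ∈ M` with Fourier support in `H \ {1}`.  Let `φ t = gen (X δ_1) t`.
-/

set_option autoImplicit false
set_option linter.unusedSectionVars false
open Crest.OpAlg
open scoped InnerProductSpace

namespace Crest.Agent.R134

variable {ι : Type} [DecidableEq ι] {ib ix : ι}

theorem deg_mk_single {l : ι × Bool} (hl : l.1 ≠ ix) : deg ix (FreeGroup.mk [l]) = 0 := by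
  obtain ⟨i, b⟩ := l
  cases b
  · have h : FreeGroup.mk [(i, false)] = (FreeGroup.of i)⁻¹ := rfl
    rw [h, deg_inv, deg_of_ne ix hl]
  · exact deg_of_ne ix hl

/-- induction on `w` with `gen_mul`, `Sig_inj`, `Sig_deg` -/
theorem Yw_gen (hbx : ib ≠ ix) (H : Subgroup (FreeGroup ι))
    (hH : ∀ h ∈ H, h ≠ 1 → hd h ≠ some ib) (M : ℕ)
    {X : ltwo (FreeGroup ι) →L[ℂ] ltwo (FreeGroup ι)} (hX : X ∈ groupVNA (FreeGroup ι))
    (hs : ∀ h, X (dl 1) h ≠ 0 → h ∈ H ∧ h ≠ 1) (w : List (ι × Bool))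
    (hw : FreeGroup.IsReduced w) (hlen : w.length ≤ M) (t : ℝ) (h0 : 0 ≤ t) (h1 : t ≤ 1) :
    gen ix (Yw ib ix M X w (dl 1)) t
      = gen ix (X (dl 1)) t ^ (w.countP fun l => decide (l.1 = ix)) := by
  induction w with
  | nil =>
    have h2 : Yw ib ix M X [] (dl 1) = dl 1 := rfl
    rw [h2, gen_dl, deg_one]
    simp
  | cons l w ih =>
    have hw' : FreeGroup.IsReduced w := hw.infix ⟨[l], [], by simp⟩
    have hlen1 : w.length < M := by simpa using hlen
    have ih' := ih hw' hlen1.le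
    have hdef : Yw ib ix M X (l :: w) = Yl ib ix M X l ∘L Yw ib ix M X w := rfl
    rw [hdef]
    by_cases hl : l.1 = ix
    · have hl' : l = (ix, l.2) := Prod.ext hl rfl
      have hred : FreeGroup.IsReduced ((ix, l.2) :: w) := by rw [← hl']; exact hw
      rw [gen_mul ix (Yl_mem M hX l)
        {g | ∃ v ∈ H, v ≠ 1 ∧ g = FreeGroup.of ib ^ (sg l.2 * M) * v *
          FreeGroup.of ib ^ (sg l.2 * M)} (Sig ib ix H M w)
        (fun g hg => Yl_supp H M hX hs l hl g hg) (fun g hg => Yw_supp H M hX hs w g hg)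
        ?_ ?_ t h0 h1, Yl_gen hbx M hX l hl t h0 h1, ih',
        List.countP_cons_of_pos (by simpa using hl), pow_succ, mul_comm]
      · rintro g ⟨v, hv, hv1, rfl⟩ u hu g' ⟨v', hv', hv1', rfl⟩ u' hu' he
        obtain ⟨h3, h4⟩ := Sig_inj hbx H hH M w l.2 hred hlen1 v v' u u' hv hv' hv1 hv1' hu hu' he
        exact ⟨by rw [h3], h4⟩
      · rintro g ⟨v, hv, hv1, rfl⟩ u hu
        rw [Sig_deg hbx H hH M w l.2 hred hlen1 v u hv hv1 hu,
          deg_mul_right ix (deg_zpow ix hbx _), deg_mul_left ix (deg_zpow ix hbx _)]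
    · have hYl : Yl ib ix M X l = leftRegular (FreeGroup.mk [l]) := by
        unfold Yl; rw [if_neg hl]
      rw [gen_mul ix (Yl_mem M hX l) {FreeGroup.mk [l]} Set.univ ?_ (fun g _ => Set.mem_univ g)
        ?_ ?_ t h0 h1, hYl, leftRegular_dl, mul_one, gen_dl, deg_mk_single hl, ih',
        List.countP_cons_of_neg (by simpa using hl)]
      · simp
      · intro g hg
        rw [hYl, leftRegular_dl, mul_one, dl_apply] at hg
        by_contra hne
        exact hg (if_neg hne)
      · rintro g rfl h _ g' rfl h' _ he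
        exact ⟨rfl, mul_left_cancel he⟩
      · rintro g rfl h _
        rw [deg_mul_left ix (deg_mk_single hl), deg_mk_single hl, zero_add]

/-- the generating function of the image of a finitely supported vector -/
theorem Yw_gen_sum (hbx : ib ≠ ix) (H : Subgroup (FreeGroup ι))
    (hH : ∀ h ∈ H, h ≠ 1 → hd h ≠ some ib) (M ℓ : ℕ) (hM : 2 * ℓ < M)
    {X : ltwo (FreeGroup ι) →L[ℂ] ltwo (FreeGroup ι)} (hX : X ∈ groupVNA (FreeGroup ι))
    (hs : ∀ h, X (dl 1) h ≠ 0 → h ∈ H ∧ h ≠ 1) (p : MonoidAlgebra ℂ (FreeGroup ι))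
    (hp : ∀ g ∈ p.coeff.support, g.toWord.length ≤ ℓ) (t : ℝ) (h0 : 0 ≤ t) (h1 : t ≤ 1) :
    gen ix (∑ g ∈ p.coeff.support, p.coeff g • Yw ib ix M X g.toWord (dl 1)) t
      = gen ix (vec p) (gen ix (X (dl 1)) t) := by
  rw [gen_sum ix _ _ ?_ t h0 h1]
  · have h2 : gen ix (vec p) (gen ix (X (dl 1)) t) =
        ∑ g ∈ p.coeff.support, ‖p.coeff g‖ ^ 2 * gen ix (X (dl 1)) t ^ deg ix g := by
      unfold gen
      rw [tsum_eq_sum (s := p.coeff.support)]
      · refine Finset.sum_congr rfl fun g _ => ?_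
        rw [vec_apply]
      · intro g hg
        rw [vec_apply, Finsupp.notMem_support_iff.1 hg]
        simp
    rw [h2]
    refine Finset.sum_congr rfl fun g hg => ?_
    rw [gen_smul, Yw_gen hbx H hH M hX hs g.toWord FreeGroup.isReduced_toWord
      ((hp g hg).trans (by omega)) t h0 h1]
    rfl
  · intro g hg h hh hne k
    by_contra hcon
    push Not at hcon
    obtain ⟨ha, hb⟩ := hcon
    have ha' : Yw ib ix M X g.toWord (dl 1) k ≠ 0 := by
      intro h3; apply ha
      rw [lp.coeFn_smul, Pi.smul_apply, h3, smul_zero]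
    have hb' : Yw ib ix M X h.toWord (dl 1) k ≠ 0 := by
      intro h3; apply hb
      rw [lp.coeFn_smul, Pi.smul_apply, h3, smul_zero]
    apply hne
    apply FreeGroup.toWord_injective
    have h5 := hp g hg
    have h6 := hp h hh
    exact Sig_disj hbx H hH M g.toWord h.toWord (by omega) FreeGroup.isReduced_toWord
      FreeGroup.isReduced_toWord k (Yw_supp H M hX hs _ k ha') (Yw_supp H M hX hs _ k hb')

end Crest.Agent.R134
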